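import Crest.Agent.FD.Defs

/-! # S0268 module F0: the Chevalley–Eilenberg maps form a complex; naturality -/

set_option autoImplicit false
set_option linter.unusedSimpArgs false

namespace Crest.Agent.FD

section
variable {B N : Type*} [Ring B] [AddCommGroup N] [Module B N] (r : Fin 4 → N →ₗ[B] N)

theorem D1_apply (f : Fin 4 → N) : D1 r f = r 0 (f 0) + r 1 (f 1) + r 2 (f 2) + r 3 (f 3) := rfl

theorem D2_apply_0 (f : Fin 6 → N) : D2 r f 0 = - r 1 (f 0) - r 2 (f 1) - r 3 (f 2) - f 3 := rfl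
theorem D2_apply_1 (f : Fin 6 → N) :
    D2 r f 1 = r 0 (f 0) - r 2 (f 3) - r 3 (f 4) - f 0 - f 4 := rfl
theorem D2_apply_2 (f : Fin 6 → N) :
    D2 r f 2 = r 0 (f 1) + r 1 (f 3) - r 3 (f 5) + f 1 + f 5 := rfl
theorem D2_apply_3 (f : Fin 6 → N) :
    D2 r f 3 = r 0 (f 2) + r 1 (f 4) + r 2 (f 5) + f 3 := rfl

theorem D3_apply_0 (g : Fin 4 → N) : D3 r g 0 = r 2 (g 0) + r 3 (g 1) + g 1 := rfl
theorem D3_apply_1 (g : Fin 4 → N) : D3 r g 1 = - r 1 (g 0) + r 3 (g 2) - g 2 := rfl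
theorem D3_apply_2 (g : Fin 4 → N) : D3 r g 2 = - g 0 - r 1 (g 1) - r 2 (g 2) - g 3 := rfl
theorem D3_apply_3 (g : Fin 4 → N) : D3 r g 3 = r 0 (g 0) + r 3 (g 3) := rfl
theorem D3_apply_4 (g : Fin 4 → N) : D3 r g 4 = r 0 (g 1) - g 1 - r 2 (g 3) := rfl
theorem D3_apply_5 (g : Fin 4 → N) : D3 r g 5 = r 0 (g 2) + g 2 + r 1 (g 3) := rfl

theorem D4_apply_0 (w : N) : D4 r w 0 = - r 3 w := rfl
theorem D4_apply_1 (w : N) : D4 r w 1 = r 2 w := rfl
theorem D4_apply_2 (w : N) : D4 r w 2 = - r 1 w := rfl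
theorem D4_apply_3 (w : N) : D4 r w 3 = r 0 w := rfl

theorem D1_D2 (h : IsOp r) (f : Fin 6 → N) : D1 r (D2 r f) = 0 := by
  rw [D1_apply, D2_apply_0, D2_apply_1, D2_apply_2, D2_apply_3]
  simp only [map_add, map_sub, map_neg]
  linear_combination (norm := skip) -(h.ab (f 0)) - h.ac (f 1) - h.ad (f 2) - h.bc (f 3)
    - h.bd (f 4) - h.cd (f 5)
  abel

theorem D2_D3 (h : IsOp r) (f : Fin 4 → N) : D2 r (D3 r f) = 0 := by
  ext t
  fin_cases t
  · show D2 r (D3 r f) 0 = 0
    rw [D2_apply_0, D3_apply_0, D3_apply_1, D3_apply_2, D3_apply_3]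
    simp only [map_add, map_sub, map_neg]
    linear_combination (norm := skip) -(h.bc (f 0)) - h.bd (f 1) - h.cd (f 2)
    abel
  · show D2 r (D3 r f) 1 = 0
    rw [D2_apply_1, D3_apply_0, D3_apply_3, D3_apply_4]
    simp only [map_add, map_sub, map_neg]
    linear_combination (norm := skip) (h.ac (f 0)) + h.ad (f 1) - h.cd (f 3)
    abel
  · show D2 r (D3 r f) 2 = 0
    rw [D2_apply_2, D3_apply_1, D3_apply_3, D3_apply_5]
    simp only [map_add, map_sub, map_neg]
    linear_combination (norm := skip) -(h.ab (f 0)) + h.ad (f 2) + h.bd (f 3)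
    abel
  · show D2 r (D3 r f) 3 = 0
    rw [D2_apply_3, D3_apply_2, D3_apply_3, D3_apply_4, D3_apply_5]
    simp only [map_add, map_sub, map_neg]
    linear_combination (norm := skip) -(h.ab (f 1)) - h.ac (f 2) - h.bc (f 3)
    abel

theorem D3_D4 (h : IsOp r) (f : N) : D3 r (D4 r f) = 0 := by
  ext t
  fin_cases t
  · show D3 r (D4 r f) 0 = 0
    rw [D3_apply_0, D4_apply_0, D4_apply_1]
    simp only [map_add, map_sub, map_neg]
    linear_combination (norm := skip) -(h.cd f)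
    abel
  · show D3 r (D4 r f) 1 = 0
    rw [D3_apply_1, D4_apply_0, D4_apply_2]
    simp only [map_add, map_sub, map_neg]
    linear_combination (norm := skip) (h.bd f)
    abel
  · show D3 r (D4 r f) 2 = 0
    rw [D3_apply_2, D4_apply_0, D4_apply_1, D4_apply_2, D4_apply_3]
    simp only [map_add, map_sub, map_neg]
    linear_combination (norm := skip) -(h.bc f)
    abel
  · show D3 r (D4 r f) 3 = 0
    rw [D3_apply_3, D4_apply_0, D4_apply_3]
    simp only [map_add, map_sub, map_neg]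
    linear_combination (norm := skip) -(h.ad f)
    abel
  · show D3 r (D4 r f) 4 = 0
    rw [D3_apply_4, D4_apply_1, D4_apply_3]
    linear_combination (norm := skip) (h.ac f)
    abel
  · show D3 r (D4 r f) 5 = 0
    rw [D3_apply_5, D4_apply_2, D4_apply_3]
    simp only [map_add, map_sub, map_neg]
    linear_combination (norm := skip) -(h.ab f)
    abel

variable {B' N' : Type*} [Ring B'] [AddCommGroup N'] [Module B' N'] (r' : Fin 4 → N' →ₗ[B'] N')
  (φ : N →+ N') (hφ : ∀ x f, φ (r x f) = r' x (φ f))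

include hφ in
theorem D1_nat (f : Fin 4 → N) : φ (D1 r f) = D1 r' (fun t => φ (f t)) := by
  simp only [D1_apply, map_add, hφ]
include hφ in
theorem D2_nat (f : Fin 6 → N) (t : Fin 4) : φ (D2 r f t) = D2 r' (fun t => φ (f t)) t := by
  fin_cases t
  · show φ (D2 r f 0) = D2 r' _ 0
    simp only [D2_apply_0, map_add, map_sub, map_neg, hφ]
  · show φ (D2 r f 1) = D2 r' _ 1
    simp only [D2_apply_1, map_add, map_sub, map_neg, hφ]
  · show φ (D2 r f 2) = D2 r' _ 2
    simp only [D2_apply_2, map_add, map_sub, map_neg, hφ]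
  · show φ (D2 r f 3) = D2 r' _ 3
    simp only [D2_apply_3, map_add, map_sub, map_neg, hφ]
include hφ in
theorem D3_nat (f : Fin 4 → N) (t : Fin 6) : φ (D3 r f t) = D3 r' (fun t => φ (f t)) t := by
  fin_cases t
  · show φ (D3 r f 0) = D3 r' _ 0
    simp only [D3_apply_0, map_add, map_sub, map_neg, hφ]
  · show φ (D3 r f 1) = D3 r' _ 1
    simp only [D3_apply_1, map_add, map_sub, map_neg, hφ]
  · show φ (D3 r f 2) = D3 r' _ 2
    simp only [D3_apply_2, map_add, map_sub, map_neg, hφ]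
  · show φ (D3 r f 3) = D3 r' _ 3
    simp only [D3_apply_3, map_add, map_sub, map_neg, hφ]
  · show φ (D3 r f 4) = D3 r' _ 4
    simp only [D3_apply_4, map_add, map_sub, map_neg, hφ]
  · show φ (D3 r f 5) = D3 r' _ 5
    simp only [D3_apply_5, map_add, map_sub, map_neg, hφ]
include hφ in
theorem D4_nat (f : N) (t : Fin 4) : φ (D4 r f t) = D4 r' (φ f) t := by
  fin_cases t
  · show φ (D4 r f 0) = D4 r' _ 0
    simp only [D4_apply_0, map_add, map_sub, map_neg, hφ]
  · show φ (D4 r f 1) = D4 r' _ 1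
    simp only [D4_apply_1, map_add, map_sub, map_neg, hφ]
  · show φ (D4 r f 2) = D4 r' _ 2
    simp only [D4_apply_2, map_add, map_sub, map_neg, hφ]
  · show φ (D4 r f 3) = D4 r' _ 3
    simp only [D4_apply_3, map_add, map_sub, map_neg, hφ]

end

end Crest.Agent.FD
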