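import Mathlib

/-!
# S0268: definitions

`UU` = `U(gl₂) ⊕ V` (square zero extension), generators `a = ug 0`, `b = ug 1`, `c = ug 2`,
`d = ug 3`, `θ₁ = ug 4`, `θ₂ = ug 5`.
-/

set_option autoImplicit false

namespace Crest.Agent.FD

open MvPolynomial

/-! ## The ring -/

abbrev FA := FreeAlgebra ℂ (Fin 6)

/-- generators of the free algebra -/
noncomputable def gg (i : Fin 6) : FA := FreeAlgebra.ι ℂ i

/-- the defining relations, for six elements of a ring -/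
structure IsRep {A : Type*} [Ring A] (a b c d t u : A) : Prop where
  ab : a * b = b * a + b
  ac : a * c = c * a - c
  ad : a * d = d * a
  bc : b * c = c * b + a - d
  bd : b * d = d * b + b
  dc : d * c = c * d + c
  at' : a * t = t * a - t
  au : a * u = u * a
  bt : b * t = t * b - u
  bu : b * u = u * b
  ct : c * t = t * c
  cu : c * u = u * c - t
  dt : d * t = t * d
  du : d * u = u * d - u
  tt : t * t = 0
  tu : t * u = 0
  ut : u * t = 0
  uu : u * u = 0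
  T1 : t * d + t = u * c
  T2 : t * b = u * a + u

/-- the defining relations as a relation on the free algebra -/
inductive Rel : FA → FA → Prop
  | ab : Rel (gg 0 * gg 1) (gg 1 * gg 0 + gg 1)
  | ac : Rel (gg 0 * gg 2) (gg 2 * gg 0 - gg 2)
  | ad : Rel (gg 0 * gg 3) (gg 3 * gg 0)
  | bc : Rel (gg 1 * gg 2) (gg 2 * gg 1 + gg 0 - gg 3)
  | bd : Rel (gg 1 * gg 3) (gg 3 * gg 1 + gg 1)
  | dc : Rel (gg 3 * gg 2) (gg 2 * gg 3 + gg 2)
  | at' : Rel (gg 0 * gg 4) (gg 4 * gg 0 - gg 4)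
  | au : Rel (gg 0 * gg 5) (gg 5 * gg 0)
  | bt : Rel (gg 1 * gg 4) (gg 4 * gg 1 - gg 5)
  | bu : Rel (gg 1 * gg 5) (gg 5 * gg 1)
  | ct : Rel (gg 2 * gg 4) (gg 4 * gg 2)
  | cu : Rel (gg 2 * gg 5) (gg 5 * gg 2 - gg 4)
  | dt : Rel (gg 3 * gg 4) (gg 4 * gg 3)
  | du : Rel (gg 3 * gg 5) (gg 5 * gg 3 - gg 5)
  | tt : Rel (gg 4 * gg 4) 0
  | tu : Rel (gg 4 * gg 5) 0
  | ut : Rel (gg 5 * gg 4) 0
  | uu : Rel (gg 5 * gg 5) 0
  | T1 : Rel (gg 4 * gg 3 + gg 4) (gg 5 * gg 2)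
  | T2 : Rel (gg 4 * gg 1) (gg 5 * gg 0 + gg 5)

/-- The ring. -/
def UU : Type := RingQuot Rel

noncomputable instance : Ring UU := inferInstanceAs (Ring (RingQuot Rel))
noncomputable instance : Algebra ℂ UU := inferInstanceAs (Algebra ℂ (RingQuot Rel))

/-- The quotient map. -/
noncomputable def mkU : FA →ₐ[ℂ] UU := RingQuot.mkAlgHom ℂ Rel

/-- the generators: `0,1,2,3 = a,b,c,d`, `4,5 = θ₁,θ₂` -/
noncomputable def ug (i : Fin 6) : UU := mkU (gg i)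

/-- the `gl₂` generators `0,1,2,3 = a,b,c,d` -/
noncomputable abbrev gx (x : Fin 4) : UU := ug x.castSucc.castSucc

theorem mkU_surjective : Function.Surjective mkU := RingQuot.mkAlgHom_surjective ℂ Rel

theorem mkU_rel {x y : FA} (h : Rel x y) : mkU x = mkU y := RingQuot.mkAlgHom_rel ℂ h

/-- the generators satisfy the relations -/
theorem isRep_ug : IsRep (ug 0) (ug 1) (ug 2) (ug 3) (ug 4) (ug 5) where
  ab := by simpa [ug] using mkU_rel Rel.ab
  ac := by simpa [ug] using mkU_rel Rel.ac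
  ad := by simpa [ug] using mkU_rel Rel.ad
  bc := by simpa [ug] using mkU_rel Rel.bc
  bd := by simpa [ug] using mkU_rel Rel.bd
  dc := by simpa [ug] using mkU_rel Rel.dc
  at' := by simpa [ug] using mkU_rel Rel.at'
  au := by simpa [ug] using mkU_rel Rel.au
  bt := by simpa [ug] using mkU_rel Rel.bt
  bu := by simpa [ug] using mkU_rel Rel.bu
  ct := by simpa [ug] using mkU_rel Rel.ct
  cu := by simpa [ug] using mkU_rel Rel.cu
  dt := by simpa [ug] using mkU_rel Rel.dt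
  du := by simpa [ug] using mkU_rel Rel.du
  tt := by simpa [ug] using mkU_rel Rel.tt
  tu := by simpa [ug] using mkU_rel Rel.tu
  ut := by simpa [ug] using mkU_rel Rel.ut
  uu := by simpa [ug] using mkU_rel Rel.uu
  T1 := by simpa [ug] using mkU_rel Rel.T1
  T2 := by simpa [ug] using mkU_rel Rel.T2

/-- the universal property -/
noncomputable def liftU {A : Type*} [Ring A] [Algebra ℂ A] (f : Fin 6 → A)
    (h : IsRep (f 0) (f 1) (f 2) (f 3) (f 4) (f 5)) : UU →ₐ[ℂ] A :=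
  RingQuot.liftAlgHom ℂ ⟨FreeAlgebra.lift ℂ f, by
    intro x y hxy
    cases hxy <;> simp only [gg, map_mul, map_add, map_sub, map_zero, FreeAlgebra.lift_ι_apply]
    · exact h.ab
    · exact h.ac
    · exact h.ad
    · exact h.bc
    · exact h.bd
    · exact h.dc
    · exact h.at'
    · exact h.au
    · exact h.bt
    · exact h.bu
    · exact h.ct
    · exact h.cu
    · exact h.dt
    · exact h.du
    · exact h.tt
    · exact h.tu
    · exact h.ut
    · exact h.uu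
    · exact h.T1
    · exact h.T2⟩

theorem liftU_ug {A : Type*} [Ring A] [Algebra ℂ A] (f : Fin 6 → A)
    (h : IsRep (f 0) (f 1) (f 2) (f 3) (f 4) (f 5)) (i : Fin 6) : liftU f h (ug i) = f i := by
  unfold liftU ug mkU gg
  erw [RingQuot.liftAlgHom_mkAlgHom_apply]
  exact FreeAlgebra.lift_ι_apply f i

/-- induction principle for `UU` -/
theorem UU_induction {P : UU → Prop} (hone : P 1) (hadd : ∀ x y, P x → P y → P (x + y))
    (hsmul : ∀ (r : ℂ) x, P x → P (r • x)) (hmul : ∀ i x, P x → P (ug i * x)) (x : UU) : P x := by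
  obtain ⟨x, rfl⟩ := mkU_surjective x
  suffices h : ∀ x : FA, ∀ y : UU, P y → P (mkU x * y) by
    simpa using h x 1 hone
  intro x
  induction x using FreeAlgebra.induction with
  | grade0 r =>
    intro y hy
    simpa [Algebra.smul_def] using hsmul r y hy
  | grade1 i => intro y hy; exact hmul i y hy
  | mul x y hx hy => intro z hz; simpa [mul_assoc] using hx _ (hy _ hz)
  | add x y hx hy => intro z hz; simpa [add_mul] using hadd _ _ (hx _ hz) (hy _ hz)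

/-! ## The polynomial model -/

/-- PBW symbols: `X 0 = a`, `X 1 = b`, `X 2 = c`, `X 3 = d` -/
abbrev S := MvPolynomial (Fin 4) ℂ

/-- filtration by total degree, indexed by integers -/
noncomputable def Sle (m : ℤ) : Submodule ℂ S :=
  MvPolynomial.restrictSupport ℂ {d : Fin 4 →₀ ℕ | ((d.sum fun _ e => e : ℕ) : ℤ) ≤ m}

theorem mem_Sle {m : ℤ} {p : S} :
    p ∈ Sle m ↔ ∀ d ∈ p.support, ((d.sum fun _ e => e : ℕ) : ℤ) ≤ m := by
  simp [Sle, MvPolynomial.mem_restrictSupport_iff, Set.subset_def]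

/-- left multiplication operators `L_a, L_b, L_c, L_d` on symbols -/
noncomputable def La : S →ₗ[ℂ] S :=
  LinearMap.mulLeft ℂ (X 0) - LinearMap.mulLeft ℂ (X 2) ∘ₗ (pderiv 2).toLinearMap
    + LinearMap.mulLeft ℂ (X 1) ∘ₗ (pderiv 1).toLinearMap

noncomputable def Lb : S →ₗ[ℂ] S :=
  LinearMap.mulLeft ℂ (X 1)
    + LinearMap.mulLeft ℂ (X 0 - X 3) ∘ₗ (pderiv 2).toLinearMap
    + LinearMap.mulLeft ℂ (2 * X 1) ∘ₗ (pderiv 1).toLinearMap ∘ₗ (pderiv 2).toLinearMap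
    - LinearMap.mulLeft ℂ (X 2) ∘ₗ (pderiv 2).toLinearMap ∘ₗ (pderiv 2).toLinearMap

noncomputable def Lc : S →ₗ[ℂ] S := LinearMap.mulLeft ℂ (X 2)

noncomputable def Ld : S →ₗ[ℂ] S :=
  LinearMap.mulLeft ℂ (X 3) + LinearMap.mulLeft ℂ (X 2) ∘ₗ (pderiv 2).toLinearMap
    - LinearMap.mulLeft ℂ (X 1) ∘ₗ (pderiv 1).toLinearMap

theorem La_apply (p : S) : La p = X 0 * p - X 2 * pderiv 2 p + X 1 * pderiv 1 p := rfl
theorem Lb_apply (p : S) : Lb p = X 1 * p + (X 0 - X 3) * pderiv 2 p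
    + 2 * X 1 * pderiv 1 (pderiv 2 p) - X 2 * pderiv 2 (pderiv 2 p) := rfl
theorem Lc_apply (p : S) : Lc p = X 2 * p := rfl
theorem Ld_apply (p : S) : Ld p = X 3 * p + X 2 * pderiv 2 p - X 1 * pderiv 1 p := rfl

/-- the four left operators -/
noncomputable def Lop : Fin 4 → (S →ₗ[ℂ] S) := ![La, Lb, Lc, Ld]

/-- shift `a ↦ a + 1, d ↦ d - 1` -/
noncomputable def sig : S →ₐ[ℂ] S := aeval ![X 0 + 1, X 1, X 2, X 3 - 1]
/-- inverse shift `a ↦ a - 1, d ↦ d + 1` -/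
noncomputable def sig' : S →ₐ[ℂ] S := aeval ![X 0 - 1, X 1, X 2, X 3 + 1]

/-- right multiplication operators on symbols -/
noncomputable def Ra : S →ₗ[ℂ] S := LinearMap.mulLeft ℂ (X 0)
noncomputable def Rb : S →ₗ[ℂ] S := LinearMap.mulLeft ℂ (X 1) ∘ₗ sig.toLinearMap
noncomputable def Rc : S →ₗ[ℂ] S :=
  (LinearMap.mulLeft ℂ (X 2) + LinearMap.mulLeft ℂ (X 0 - X 3) ∘ₗ (pderiv 1).toLinearMap
    + LinearMap.mulLeft ℂ (X 1) ∘ₗ (pderiv 1).toLinearMap ∘ₗ (pderiv 1).toLinearMap)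
      ∘ₗ sig'.toLinearMap
noncomputable def Rd : S →ₗ[ℂ] S := LinearMap.mulLeft ℂ (X 3)

theorem Ra_apply (p : S) : Ra p = X 0 * p := rfl
theorem Rb_apply (p : S) : Rb p = X 1 * sig p := rfl
theorem Rc_apply (p : S) : Rc p = X 2 * sig' p + (X 0 - X 3) * pderiv 1 (sig' p)
    + X 1 * pderiv 1 (pderiv 1 (sig' p)) := rfl
theorem Rd_apply (p : S) : Rd p = X 3 * p := rfl

/-- the four right operators -/
noncomputable def Rop : Fin 4 → (S →ₗ[ℂ] S) := ![Ra, Rb, Rc, Rd]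

/-- first component of `T` -/
noncomputable def T1 (w₁ w₂ : S) : S := -(Ld w₁ + w₁) + Lb w₂
/-- second component of `T` -/
noncomputable def T2 (w₁ w₂ : S) : S := Lc w₁ - (La w₂ + w₂)

/-- PBW map: `X2^i X1^j X0^k X3^l ↦ c^i b^j a^k d^l` -/
noncomputable def phi : S →ₗ[ℂ] UU :=
  (MvPolynomial.basisMonomials (Fin 4) ℂ).constr ℂ
    (fun d => ug 2 ^ d 2 * ug 1 ^ d 1 * ug 0 ^ d 0 * ug 3 ^ d 3)

theorem phi_monomial (d : Fin 4 →₀ ℕ) :
    phi (monomial d 1) = ug 2 ^ d 2 * ug 1 ^ d 1 * ug 0 ^ d 0 * ug 3 ^ d 3 := by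
  have := (MvPolynomial.basisMonomials (Fin 4) ℂ).constr_basis ℂ
    (fun d => ug 2 ^ d 2 * ug 1 ^ d 1 * ug 0 ^ d 0 * ug 3 ^ d 3) d
  simpa [phi] using this

theorem phi_one : phi 1 = 1 := by
  have := phi_monomial 0
  simpa using this

/-- `Ψ(s₀,s₁,s₂) = φ(s₀) + θ₁ φ(s₁) + θ₂ φ(s₂)` -/
noncomputable def Psi (s₀ s₁ s₂ : S) : UU := phi s₀ + ug 4 * phi s₁ + ug 5 * phi s₂

/-- The filtration of `UU`. -/
noncomputable def Fil (m : ℤ) : Submodule ℂ UU where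
  carrier := {x | ∃ s₀ ∈ Sle m, ∃ s₁ ∈ Sle (m + 1), ∃ s₂ ∈ Sle (m + 1), x = Psi s₀ s₁ s₂}
  add_mem' := by
    rintro _ _ ⟨s₀, h₀, s₁, h₁, s₂, h₂, rfl⟩ ⟨t₀, k₀, t₁, k₁, t₂, k₂, rfl⟩
    refine ⟨s₀ + t₀, add_mem h₀ k₀, s₁ + t₁, add_mem h₁ k₁, s₂ + t₂, add_mem h₂ k₂, ?_⟩
    simp only [Psi, map_add, mul_add]
    abel
  zero_mem' := ⟨0, zero_mem _, 0, zero_mem _, 0, zero_mem _, by simp [Psi]⟩
  smul_mem' := by
    rintro r _ ⟨s₀, h₀, s₁, h₁, s₂, h₂, rfl⟩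
    refine ⟨r • s₀, Submodule.smul_mem _ _ h₀, r • s₁, Submodule.smul_mem _ _ h₁,
      r • s₂, Submodule.smul_mem _ _ h₂, ?_⟩
    simp only [Psi, map_smul, smul_add, mul_smul_comm]

theorem mem_Fil {m : ℤ} {x : UU} :
    x ∈ Fil m ↔ ∃ s₀ ∈ Sle m, ∃ s₁ ∈ Sle (m + 1), ∃ s₂ ∈ Sle (m + 1), x = Psi s₀ s₁ s₂ := Iff.rfl

/-! ## The Chevalley–Eilenberg maps of `gl₂` (generic) -/

section CE

variable {B N : Type*} [Ring B] [AddCommGroup N] [Module B N] (r : Fin 4 → N →ₗ[B] N)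

/-- `D1 f = ∑ r_x f_x` -/
def D1 : (Fin 4 → N) →ₗ[B] N where
  toFun f := r 0 (f 0) + r 1 (f 1) + r 2 (f 2) + r 3 (f 3)
  map_add' f g := by simp only [Pi.add_apply, map_add]; abel
  map_smul' a f := by simp only [Pi.smul_apply, map_smul, smul_add, RingHom.id_apply]

/-- pairs are ordered `ab, ac, ad, bc, bd, cd` -/
def D2 : (Fin 6 → N) →ₗ[B] (Fin 4 → N) where
  toFun f := ![
    - r 1 (f 0) - r 2 (f 1) - r 3 (f 2) - f 3,
    r 0 (f 0) - r 2 (f 3) - r 3 (f 4) - f 0 - f 4,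
    r 0 (f 1) + r 1 (f 3) - r 3 (f 5) + f 1 + f 5,
    r 0 (f 2) + r 1 (f 4) + r 2 (f 5) + f 3]
  map_add' f g := by
    ext i; fin_cases i <;> simp only [Pi.add_apply, map_add] <;> simp <;> abel
  map_smul' a f := by
    ext i; fin_cases i <;> simp [smul_add, smul_sub]

/-- triples are ordered `abc, abd, acd, bcd` -/
def D3 : (Fin 4 → N) →ₗ[B] (Fin 6 → N) where
  toFun g := ![
    r 2 (g 0) + r 3 (g 1) + g 1,
    - r 1 (g 0) + r 3 (g 2) - g 2,
    - g 0 - r 1 (g 1) - r 2 (g 2) - g 3,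
    r 0 (g 0) + r 3 (g 3),
    r 0 (g 1) - g 1 - r 2 (g 3),
    r 0 (g 2) + g 2 + r 1 (g 3)]
  map_add' f g := by
    ext i; fin_cases i <;> simp only [Pi.add_apply, map_add] <;> simp <;> abel
  map_smul' a f := by
    ext i; fin_cases i <;> simp [smul_add, smul_sub]

/-- `D4 w = (-r_d w, r_c w, -r_b w, r_a w)` -/
def D4 : N →ₗ[B] (Fin 4 → N) where
  toFun w := ![- r 3 w, r 2 w, - r 1 w, r 0 w]
  map_add' f g := by
    ext i; fin_cases i <;> simp <;> abel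
  map_smul' a f := by
    ext i; fin_cases i <;> simp

/-- op-representation: `[r_x, r_y] = - r_{[x,y]}` -/
structure IsOp : Prop where
  ab : ∀ f, r 0 (r 1 f) - r 1 (r 0 f) = - r 1 f
  ac : ∀ f, r 0 (r 2 f) - r 2 (r 0 f) = r 2 f
  ad : ∀ f, r 0 (r 3 f) - r 3 (r 0 f) = 0
  bc : ∀ f, r 1 (r 2 f) - r 2 (r 1 f) = - r 0 f + r 3 f
  bd : ∀ f, r 1 (r 3 f) - r 3 (r 1 f) = - r 1 f
  cd : ∀ f, r 2 (r 3 f) - r 3 (r 2 f) = r 2 f

end CE

/-! ## The finite-dimensional representations of `gl₂` on `Fin m → A` -/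

section rho

variable (B : Type*) {A : Type*} [Ring B] [AddCommGroup A] [Module ℂ A] [Module B A]
  [SMulCommClass B ℂ A]

/-- `gl₂` (`x = 0,1,2,3` for `a,b,c,d`) acting on polynomials `∑_{s<m} f_s X^s`:
`a f = (m-1) f - X f'`, `b f = f'`, `c f = (m-1) X f - X² f'`, `d f = X f'` -/
noncomputable def rhoFun {A : Type*} [AddCommGroup A] [Module ℂ A]
    (m : ℕ) (x : Fin 4) (f : Fin m → A) (s : Fin m) : A :=
  match x with
  | 0 => ((m : ℂ) - 1 - (s : ℕ)) • f s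
  | 1 => if h : (s : ℕ) + 1 < m then (((s : ℕ) : ℂ) + 1) • f ⟨(s : ℕ) + 1, h⟩ else 0
  | 2 => if 0 < (s : ℕ) then ((m : ℂ) - (s : ℕ)) • f ⟨(s : ℕ) - 1, by have := s.2; omega⟩ else 0
  | 3 => ((s : ℕ) : ℂ) • f s

/-- the same, as a linear map -/
noncomputable def rho (m : ℕ) (x : Fin 4) : (Fin m → A) →ₗ[B] (Fin m → A) where
  toFun := rhoFun m x
  map_add' f g := by
    ext s
    fin_cases x <;> simp only [rhoFun, Pi.add_apply, smul_add] <;> (try split_ifs) <;> (try simp)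
  map_smul' a f := by
    ext s
    fin_cases x <;> simp only [rhoFun, Pi.smul_apply, RingHom.id_apply] <;>
      (try split_ifs) <;> first | exact (smul_comm a _ _).symm | exact (smul_zero a).symm

/-- twisted operators `r_x ⊗ 1 - 1 ⊗ ρ_x` on `Fin m → A` -/
noncomputable def Rt (r : Fin 4 → A →ₗ[B] A) (m : ℕ) (x : Fin 4) :
    (Fin m → A) →ₗ[B] (Fin m → A) where
  toFun f := fun s => r x (f s) - rho B m x f s
  map_add' f g := by ext s; simp only [Pi.add_apply, map_add]; abel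
  map_smul' a f := by ext s; simp only [Pi.smul_apply, map_smul, smul_sub, RingHom.id_apply]

theorem Rt_apply (r : Fin 4 → A →ₗ[B] A) (m : ℕ) (x : Fin 4) (f : Fin m → A) (s : Fin m) :
    Rt B r m x f s = r x (f s) - rhoFun m x f s := rfl

end rho

/-- `θ₁ : (Fin (m+1) → A) → (Fin m → A)`, `f ↦ m f - X f'` -/
noncomputable def th1 {A : Type*} [AddCommGroup A] [Module ℂ A] (m : ℕ) (f : Fin (m + 1) → A) :
    Fin m → A := fun s => ((m : ℂ) - (s : ℕ)) • f s.castSucc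
/-- `θ₂ : (Fin (m+1) → A) → (Fin m → A)`, `f ↦ f'` -/
noncomputable def th2 {A : Type*} [AddCommGroup A] [Module ℂ A] (m : ℕ) (f : Fin (m + 1) → A) :
    Fin m → A := fun s => (((s : ℕ) : ℂ) + 1) • f s.succ

/-- inclusion `p ↦ p` of polynomials of degree `< m` in those of degree `< m + 1` -/
def upU {A : Type*} [Zero A] {m : ℕ} (p : Fin m → A) : Fin (m + 1) → A :=
  Fin.snoc (α := fun _ => A) p 0
/-- `p ↦ X p` -/
def upV {A : Type*} [Zero A] {m : ℕ} (p : Fin m → A) : Fin (m + 1) → A :=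
  Fin.cons (α := fun _ => A) 0 p

/-- right multiplication by a generator, as a left `UU`-linear map of `UU` -/
noncomputable def rmulU (x : Fin 4) : UU →ₗ[UU] UU :=
  LinearMap.toSpanSingleton UU UU (gx x)

theorem rmulU_apply (x : Fin 4) (y : UU) : rmulU x y = y * gx x := rfl

/-- twisted right multiplications on `Fin (n+1) → UU` -/
noncomputable abbrev RU (n : ℕ) : Fin 4 → (Fin (n + 1) → UU) →ₗ[UU] (Fin (n + 1) → UU) :=
  Rt UU rmulU (n + 1)

/-- twisted right multiplications on `Fin (n+1) → S` -/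
noncomputable abbrev RS (n : ℕ) : Fin 4 → (Fin (n + 1) → S) →ₗ[ℂ] (Fin (n + 1) → S) :=
  Rt ℂ Rop (n + 1)

/-- the cycle `z(p)`: `(-θ₂⊗Xp, θ₁⊗Xp, θ₂⊗p, -θ₁⊗p)` -/
noncomputable def zz {n : ℕ} (p : Fin n → ℂ) : Fin 4 → Fin (n + 1) → UU :=
  ![fun s => -(upV p s • ug 5), fun s => upV p s • ug 4, fun s => upU p s • ug 5,
    fun s => -(upU p s • ug 4)]

end Crest.Agent.FD
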