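import Crest.Agent.FD.Rows

/-! # S0268 module J: equivariance of `z` up to boundaries -/

set_option autoImplicit false

namespace Crest.Agent.FD

open MvPolynomial

/-! ## `upU`, `upV` are linear -/

theorem upU_add' {n : ℕ} (p q : Fin n → ℂ) : upU (p + q) = upU p + upU q := by
  ext s
  refine Fin.lastCases ?_ (fun s => ?_) s
  · simp [upU_last]
  · simp [upU_castSucc]
theorem upV_add' {n : ℕ} (p q : Fin n → ℂ) : upV (p + q) = upV p + upV q := by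
  ext s
  refine Fin.cases ?_ (fun s => ?_) s
  · simp [upV_zero]
  · simp [upV_succ]
theorem upU_smul' {n : ℕ} (c : ℂ) (p : Fin n → ℂ) : upU (c • p) = c • upU p := by
  ext s
  refine Fin.lastCases ?_ (fun s => ?_) s
  · simp [upU_last]
  · simp [upU_castSucc]
theorem upV_smul' {n : ℕ} (c : ℂ) (p : Fin n → ℂ) : upV (c • p) = c • upV p := by
  ext s
  refine Fin.cases ?_ (fun s => ?_) s
  · simp [upV_zero]
  · simp [upV_succ]

/-! ## pure tensors -/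

/-- `q ⊗ θ` -/
noncomputable def tn {n : ℕ} (q : Fin n → ℂ) (θ : UU) : Fin n → UU := fun s => q s • θ

theorem tn_add {n : ℕ} (q q' : Fin n → ℂ) (θ : UU) : tn (q + q') θ = tn q θ + tn q' θ := by
  ext1 s; exact add_smul _ _ _
theorem tn_sub {n : ℕ} (q q' : Fin n → ℂ) (θ : UU) : tn (q - q') θ = tn q θ - tn q' θ := by
  ext1 s; exact sub_smul _ _ _
theorem tn_smul {n : ℕ} (c : ℂ) (q : Fin n → ℂ) (θ : UU) : tn (c • q) θ = c • tn q θ := by
  ext1 s; exact mul_smul _ _ _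
theorem tn_add_right {n : ℕ} (q : Fin n → ℂ) (θ θ' : UU) :
    tn q (θ + θ') = tn q θ + tn q θ' := by
  ext1 s; exact smul_add _ _ _
theorem tn_sub_right {n : ℕ} (q : Fin n → ℂ) (θ θ' : UU) :
    tn q (θ - θ') = tn q θ - tn q θ' := by
  ext1 s; exact smul_sub _ _ _
theorem gx_smul_tn {n : ℕ} (x : UU) (q : Fin n → ℂ) (θ : UU) : x • tn q θ = tn q (x * θ) := by
  ext1 s; exact mul_smul_comm _ _ _
theorem RU_tn (n : ℕ) (x : Fin 4) (q : Fin (n + 1) → ℂ) (θ : UU) :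
    RU n x (tn q θ) = tn q (θ * gx x) - tn (rhoFun (n + 1) x q) θ := by
  ext1 s
  show (q s • θ) * gx x - rhoFun (n + 1) x (fun s => q s • θ) s = q s • (θ * gx x) -
    rhoFun (n + 1) x q s • θ
  rw [rhoFun_tensor, smul_mul_assoc]

theorem zz_0 {n : ℕ} (p : Fin n → ℂ) : zz p 0 = -tn (upV p) (ug 5) := rfl
theorem zz_1 {n : ℕ} (p : Fin n → ℂ) : zz p 1 = tn (upV p) (ug 4) := rfl
theorem zz_2 {n : ℕ} (p : Fin n → ℂ) : zz p 2 = tn (upU p) (ug 5) := rfl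
theorem zz_3 {n : ℕ} (p : Fin n → ℂ) : zz p 3 = -tn (upU p) (ug 4) := rfl

theorem fin4_ext {N : Type*} {f g : Fin 4 → N} (h0 : f 0 = g 0) (h1 : f 1 = g 1)
    (h2 : f 2 = g 2) (h3 : f 3 = g 3) : f = g := by
  ext1 t; fin_cases t
  · exact h0
  · exact h1
  · exact h2
  · exact h3

theorem zz_add {n : ℕ} (p q : Fin n → ℂ) : zz (p + q) = zz p + zz q := by
  apply fin4_ext
  · rw [Pi.add_apply, zz_0, zz_0, zz_0, upV_add', tn_add]; abel
  · rw [Pi.add_apply, zz_1, zz_1, zz_1, upV_add', tn_add]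
  · rw [Pi.add_apply, zz_2, zz_2, zz_2, upU_add', tn_add]
  · rw [Pi.add_apply, zz_3, zz_3, zz_3, upU_add', tn_add]; abel
theorem zz_smul {n : ℕ} (c : ℂ) (p : Fin n → ℂ) : zz (c • p) = c • zz p := by
  apply fin4_ext
  · rw [Pi.smul_apply, zz_0, zz_0, upV_smul', tn_smul, smul_neg]
  · rw [Pi.smul_apply, zz_1, zz_1, upV_smul', tn_smul]
  · rw [Pi.smul_apply, zz_2, zz_2, upU_smul', tn_smul]
  · rw [Pi.smul_apply, zz_3, zz_3, upU_smul', tn_smul, smul_neg]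
theorem zz_zero {n : ℕ} : zz (0 : Fin n → ℂ) = 0 := by
  have := zz_smul (0 : ℂ) (0 : Fin n → ℂ)
  rwa [zero_smul, zero_smul] at this

theorem D1_zz' (n : ℕ) (p : Fin n → ℂ) :
    RU n 0 (zz p 0) + RU n 1 (zz p 1) + RU n 2 (zz p 2) + RU n 3 (zz p 3) = 0 := D1_zz n p

theorem D2_0 {N : Type*} [AddCommGroup N] [Module UU N] (r : Fin 4 → N →ₗ[UU] N) (f : Fin 6 → N) :
    D2 r f 0 = - r 1 (f 0) - r 2 (f 1) - r 3 (f 2) - f 3 := rfl
theorem D2_1 {N : Type*} [AddCommGroup N] [Module UU N] (r : Fin 4 → N →ₗ[UU] N) (f : Fin 6 → N) :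
    D2 r f 1 = r 0 (f 0) - r 2 (f 3) - r 3 (f 4) - f 0 - f 4 := rfl
theorem D2_2 {N : Type*} [AddCommGroup N] [Module UU N] (r : Fin 4 → N →ₗ[UU] N) (f : Fin 6 → N) :
    D2 r f 2 = r 0 (f 1) + r 1 (f 3) - r 3 (f 5) + f 1 + f 5 := rfl
theorem D2_3 {N : Type*} [AddCommGroup N] [Module UU N] (r : Fin 4 → N →ₗ[UU] N) (f : Fin 6 → N) :
    D2 r f 3 = r 0 (f 2) + r 1 (f 4) + r 2 (f 5) + f 3 := rfl

/-- `x · z(p) = z(x p) + D2 (x ∧ z(p))`, for the four generators -/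
theorem zz_a (n : ℕ) (p : Fin n → ℂ) :
    gx 0 • zz p = zz (rhoFun n 0 p) + D2 (RU n) ![zz p 1, zz p 2, zz p 3, 0, 0, 0] := by
  have hz := D1_zz' n p
  have R := isRep_ug
  have e0 : D2 (RU n) ![zz p 1, zz p 2, zz p 3, 0, 0, 0] 0 = RU n 0 (zz p 0) := by
    rw [D2_0]
    show - RU n 1 (zz p 1) - RU n 2 (zz p 2) - RU n 3 (zz p 3) - 0 = _
    calc _ = RU n 0 (zz p 0) - (RU n 0 (zz p 0) + RU n 1 (zz p 1) + RU n 2 (zz p 2) +
          RU n 3 (zz p 3)) := by abel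
      _ = _ := by rw [hz, sub_zero]
  have e1 : D2 (RU n) ![zz p 1, zz p 2, zz p 3, 0, 0, 0] 1 = RU n 0 (zz p 1) - zz p 1 := by
    rw [D2_1]
    show RU n 0 (zz p 1) - RU n 2 0 - RU n 3 0 - zz p 1 - 0 = _
    rw [map_zero, map_zero]; abel
  have e2 : D2 (RU n) ![zz p 1, zz p 2, zz p 3, 0, 0, 0] 2 = RU n 0 (zz p 2) + zz p 2 := by
    rw [D2_2]
    show RU n 0 (zz p 2) + RU n 1 0 - RU n 3 0 + zz p 2 + 0 = _
    rw [map_zero, map_zero]; abel
  have e3 : D2 (RU n) ![zz p 1, zz p 2, zz p 3, 0, 0, 0] 3 = RU n 0 (zz p 3) := by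
    rw [D2_3]
    show RU n 0 (zz p 3) + RU n 1 0 + RU n 2 0 + 0 = _
    rw [map_zero, map_zero]; abel
  have ga : gx 0 = ug 0 := rfl
  apply fin4_ext
  · rw [Pi.add_apply, Pi.smul_apply, e0, zz_0, zz_0, map_neg, RU_tn, upV_rho_a, smul_neg,
      gx_smul_tn, ga, R.au]
    abel
  · rw [Pi.add_apply, Pi.smul_apply, e1, zz_1, zz_1, RU_tn, upV_rho_a,
      gx_smul_tn, ga, R.at', tn_sub_right]
    abel
  · rw [Pi.add_apply, Pi.smul_apply, e2, zz_2, zz_2, RU_tn, upU_rho_a,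
      gx_smul_tn, ga, R.au, tn_sub]
    abel
  · rw [Pi.add_apply, Pi.smul_apply, e3, zz_3, zz_3, map_neg, RU_tn, upU_rho_a, smul_neg,
      gx_smul_tn, ga, R.at', tn_sub, tn_sub_right]
    abel
theorem zz_b (n : ℕ) (p : Fin n → ℂ) :
    gx 1 • zz p = zz (rhoFun n 1 p) + D2 (RU n) ![-zz p 0, 0, 0, zz p 2, zz p 3, 0] := by
  have hz := D1_zz' n p
  have R := isRep_ug
  have e0 : D2 (RU n) ![-zz p 0, 0, 0, zz p 2, zz p 3, 0] 0 = RU n 1 (zz p 0) - zz p 2 := by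
    rw [D2_0]
    show - RU n 1 (-zz p 0) - RU n 2 0 - RU n 3 0 - zz p 2 = _
    rw [map_zero, map_zero, map_neg]; abel
  have e1 : D2 (RU n) ![-zz p 0, 0, 0, zz p 2, zz p 3, 0] 1 =
      RU n 1 (zz p 1) + zz p 0 - zz p 3 := by
    rw [D2_1]
    show RU n 0 (-zz p 0) - RU n 2 (zz p 2) - RU n 3 (zz p 3) - (-zz p 0) - zz p 3 = _
    rw [map_neg, eq_comm, ← sub_eq_zero, ← hz]; abel
  have e2 : D2 (RU n) ![-zz p 0, 0, 0, zz p 2, zz p 3, 0] 2 = RU n 1 (zz p 2) := by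
    rw [D2_2]
    show RU n 0 0 + RU n 1 (zz p 2) - RU n 3 0 + 0 + 0 = _
    rw [map_zero, map_zero]; abel
  have e3 : D2 (RU n) ![-zz p 0, 0, 0, zz p 2, zz p 3, 0] 3 = RU n 1 (zz p 3) + zz p 2 := by
    rw [D2_3]
    show RU n 0 0 + RU n 1 (zz p 3) + RU n 2 0 + zz p 2 = _
    rw [map_zero, map_zero]; abel
  have ga : gx 1 = ug 1 := rfl
  apply fin4_ext
  · rw [Pi.add_apply, Pi.smul_apply, e0, zz_0, zz_0, zz_2, map_neg, RU_tn, upV_rho_b, smul_neg,
      gx_smul_tn, ga, R.bu, tn_sub]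
    abel
  · rw [Pi.add_apply, Pi.smul_apply, e1, zz_1, zz_1, zz_0, zz_3, RU_tn, upV_rho_b,
      gx_smul_tn, ga, R.bt, tn_sub_right, tn_sub]
    abel
  · rw [Pi.add_apply, Pi.smul_apply, e2, zz_2, zz_2, RU_tn, upU_rho_b,
      gx_smul_tn, ga, R.bu]
    abel
  · rw [Pi.add_apply, Pi.smul_apply, e3, zz_3, zz_3, zz_2, map_neg, RU_tn, upU_rho_b, smul_neg,
      gx_smul_tn, ga, R.bt, tn_sub_right]
    abel
theorem zz_c (n : ℕ) (p : Fin n → ℂ) :
    gx 2 • zz p = zz (rhoFun n 2 p) + D2 (RU n) ![0, -zz p 0, 0, -zz p 1, 0, zz p 3] := by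
  have hz := D1_zz' n p
  have R := isRep_ug
  have e0 : D2 (RU n) ![0, -zz p 0, 0, -zz p 1, 0, zz p 3] 0 = RU n 2 (zz p 0) + zz p 1 := by
    rw [D2_0]
    show - RU n 1 0 - RU n 2 (-zz p 0) - RU n 3 0 - (-zz p 1) = _
    rw [map_zero, map_zero, map_neg]; abel
  have e1 : D2 (RU n) ![0, -zz p 0, 0, -zz p 1, 0, zz p 3] 1 = RU n 2 (zz p 1) := by
    rw [D2_1]
    show RU n 0 0 - RU n 2 (-zz p 1) - RU n 3 0 - 0 - 0 = _
    rw [map_zero, map_zero, map_neg]; abel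
  have e2 : D2 (RU n) ![0, -zz p 0, 0, -zz p 1, 0, zz p 3] 2 =
      RU n 2 (zz p 2) - zz p 0 + zz p 3 := by
    rw [D2_2]
    show RU n 0 (-zz p 0) + RU n 1 (-zz p 1) - RU n 3 (zz p 3) + (-zz p 0) + zz p 3 = _
    rw [map_neg, map_neg, eq_comm, ← sub_eq_zero, ← hz]; abel
  have e3 : D2 (RU n) ![0, -zz p 0, 0, -zz p 1, 0, zz p 3] 3 = RU n 2 (zz p 3) - zz p 1 := by
    rw [D2_3]
    show RU n 0 0 + RU n 1 0 + RU n 2 (zz p 3) + (-zz p 1) = _
    rw [map_zero, map_zero]; abel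
  have ga : gx 2 = ug 2 := rfl
  apply fin4_ext
  · rw [Pi.add_apply, Pi.smul_apply, e0, zz_0, zz_0, zz_1, map_neg, RU_tn, upV_rho_c, smul_neg,
      gx_smul_tn, ga, R.cu, tn_sub_right]
    abel
  · rw [Pi.add_apply, Pi.smul_apply, e1, zz_1, zz_1, RU_tn, upV_rho_c,
      gx_smul_tn, ga, R.ct]
    abel
  · rw [Pi.add_apply, Pi.smul_apply, e2, zz_2, zz_2, zz_0, zz_3, RU_tn, upU_rho_c,
      gx_smul_tn, ga, R.cu, tn_sub_right, tn_sub]
    abel
  · rw [Pi.add_apply, Pi.smul_apply, e3, zz_3, zz_3, zz_1, map_neg, RU_tn, upU_rho_c, smul_neg,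
      gx_smul_tn, ga, R.ct, tn_sub]
    abel
theorem zz_d (n : ℕ) (p : Fin n → ℂ) :
    gx 3 • zz p = zz (rhoFun n 3 p) + D2 (RU n) ![0, 0, -zz p 0, 0, -zz p 1, -zz p 2] := by
  have hz := D1_zz' n p
  have R := isRep_ug
  have e0 : D2 (RU n) ![0, 0, -zz p 0, 0, -zz p 1, -zz p 2] 0 = RU n 3 (zz p 0) := by
    rw [D2_0]
    show - RU n 1 0 - RU n 2 0 - RU n 3 (-zz p 0) - 0 = _
    rw [map_zero, map_zero, map_neg]; abel
  have e1 : D2 (RU n) ![0, 0, -zz p 0, 0, -zz p 1, -zz p 2] 1 = RU n 3 (zz p 1) + zz p 1 := by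
    rw [D2_1]
    show RU n 0 0 - RU n 2 0 - RU n 3 (-zz p 1) - 0 - (-zz p 1) = _
    rw [map_zero, map_zero, map_neg]; abel
  have e2 : D2 (RU n) ![0, 0, -zz p 0, 0, -zz p 1, -zz p 2] 2 = RU n 3 (zz p 2) - zz p 2 := by
    rw [D2_2]
    show RU n 0 0 + RU n 1 0 - RU n 3 (-zz p 2) + 0 + (-zz p 2) = _
    rw [map_zero, map_zero, map_neg]; abel
  have e3 : D2 (RU n) ![0, 0, -zz p 0, 0, -zz p 1, -zz p 2] 3 = RU n 3 (zz p 3) := by
    rw [D2_3]
    show RU n 0 (-zz p 0) + RU n 1 (-zz p 1) + RU n 2 (-zz p 2) + 0 = _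
    rw [map_neg, map_neg, map_neg]
    calc _ = RU n 3 (zz p 3) - (RU n 0 (zz p 0) + RU n 1 (zz p 1) + RU n 2 (zz p 2) +
          RU n 3 (zz p 3)) := by abel
      _ = _ := by rw [hz, sub_zero]
  have ga : gx 3 = ug 3 := rfl
  apply fin4_ext
  · rw [Pi.add_apply, Pi.smul_apply, e0, zz_0, zz_0, map_neg, RU_tn, upV_rho_d, smul_neg,
      gx_smul_tn, ga, R.du, tn_sub_right, tn_sub]
    abel
  · rw [Pi.add_apply, Pi.smul_apply, e1, zz_1, zz_1, RU_tn, upV_rho_d,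
      gx_smul_tn, ga, R.dt, tn_sub]
    abel
  · rw [Pi.add_apply, Pi.smul_apply, e2, zz_2, zz_2, RU_tn, upU_rho_d,
      gx_smul_tn, ga, R.du, tn_sub_right]
    abel
  · rw [Pi.add_apply, Pi.smul_apply, e3, zz_3, zz_3, map_neg, RU_tn, upU_rho_d, smul_neg,
      gx_smul_tn, ga, R.dt]
    abel

/-! ## `θ x θ' = 0` -/

theorem th_mul_th (y : UU) : ug 4 * y * ug 4 = 0 ∧ ug 4 * y * ug 5 = 0 ∧ ug 5 * y * ug 4 = 0 ∧
    ug 5 * y * ug 5 = 0 := by
  have R := isRep_ug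
  induction y using UU_induction with
  | hone => simp only [mul_one]; exact ⟨R.tt, R.tu, R.ut, R.uu⟩
  | hadd x y hx hy =>
    obtain ⟨x1, x2, x3, x4⟩ := hx
    obtain ⟨y1, y2, y3, y4⟩ := hy
    simp only [mul_add, add_mul, x1, x2, x3, x4, y1, y2, y3, y4, add_zero, and_self]
  | hsmul r x hx =>
    obtain ⟨x1, x2, x3, x4⟩ := hx
    simp only [mul_smul_comm, smul_mul_assoc, x1, x2, x3, x4, smul_zero, and_self]
  | hmul i x hx =>
    obtain ⟨x1, x2, x3, x4⟩ := hx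
    -- move the generator to the left of `θ`
    have key : ∀ A B : UU, ug 4 * ug i = A * ug 4 + B * ug 5 →
        ∀ C D : UU, ug 5 * ug i = C * ug 4 + D * ug 5 →
        ug 4 * (ug i * x) * ug 4 = 0 ∧ ug 4 * (ug i * x) * ug 5 = 0 ∧
        ug 5 * (ug i * x) * ug 4 = 0 ∧ ug 5 * (ug i * x) * ug 5 = 0 := by
      intro A B h4 C D h5
      rw [← mul_assoc, ← mul_assoc, h4, h5]
      simp only [add_mul, mul_assoc] at x1 x2 x3 x4 ⊢
      simp only [x1, x2, x3, x4, mul_zero, add_zero, and_self]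
    fin_cases i
    · refine key (ug 0 + 1) 0 ?_ 0 (ug 0) ?_
      · have := R.at'
        show ug 4 * ug 0 = _
        rw [add_mul, this]; noncomm_ring
      · have := R.au
        show ug 5 * ug 0 = _
        rw [this]; noncomm_ring
    · refine key (ug 1) 1 ?_ 0 (ug 1) ?_
      · have := R.bt
        show ug 4 * ug 1 = _
        rw [this]; noncomm_ring
      · have := R.bu
        show ug 5 * ug 1 = _
        rw [this]; noncomm_ring
    · refine key (ug 2) 0 ?_ 1 (ug 2) ?_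
      · have := R.ct
        show ug 4 * ug 2 = _
        rw [this]; noncomm_ring
      · have := R.cu
        show ug 5 * ug 2 = _
        rw [this]; noncomm_ring
    · refine key (ug 3) 0 ?_ 0 (ug 3 + 1) ?_
      · have := R.dt
        show ug 4 * ug 3 = _
        rw [this]; noncomm_ring
      · have := R.du
        show ug 5 * ug 3 = _
        rw [add_mul, this]; noncomm_ring
    · refine key 0 0 ?_ 0 0 ?_
      · show ug 4 * ug 4 = _
        rw [R.tt]; simp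
      · show ug 5 * ug 4 = _
        rw [R.ut]; simp
    · refine key 0 0 ?_ 0 0 ?_
      · show ug 4 * ug 5 = _
        rw [R.tu]; simp
      · show ug 5 * ug 5 = _
        rw [R.uu]; simp

theorem tn_zero_right {n : ℕ} (q : Fin n → ℂ) : tn q 0 = 0 := by
  ext1 s; exact smul_zero _

theorem ug4_smul_zz {n : ℕ} (x : UU) (p : Fin n → ℂ) : (ug 4 * x) • zz p = 0 := by
  obtain ⟨h1, h2, h3, h4⟩ := th_mul_th x
  apply fin4_ext
  · rw [Pi.smul_apply, zz_0, smul_neg, gx_smul_tn, h2, tn_zero_right, neg_zero]; rfl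
  · rw [Pi.smul_apply, zz_1, gx_smul_tn, h1, tn_zero_right]; rfl
  · rw [Pi.smul_apply, zz_2, gx_smul_tn, h2, tn_zero_right]; rfl
  · rw [Pi.smul_apply, zz_3, smul_neg, gx_smul_tn, h1, tn_zero_right, neg_zero]; rfl

theorem ug5_smul_zz {n : ℕ} (x : UU) (p : Fin n → ℂ) : (ug 5 * x) • zz p = 0 := by
  obtain ⟨h1, h2, h3, h4⟩ := th_mul_th x
  apply fin4_ext
  · rw [Pi.smul_apply, zz_0, smul_neg, gx_smul_tn, h4, tn_zero_right, neg_zero]; rfl
  · rw [Pi.smul_apply, zz_1, gx_smul_tn, h3, tn_zero_right]; rfl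
  · rw [Pi.smul_apply, zz_2, gx_smul_tn, h4, tn_zero_right]; rfl
  · rw [Pi.smul_apply, zz_3, smul_neg, gx_smul_tn, h3, tn_zero_right, neg_zero]; rfl

theorem zz_mem' {n : ℕ} (p : Fin n → ℂ) (t : Fin 4) (s : Fin (n + 1)) : zz p t s ∈ Fil (-1) := by
  fin_cases t
  · exact neg_mem (Submodule.smul_mem _ _ ug5_mem_Fil)
  · exact Submodule.smul_mem _ _ ug4_mem_Fil
  · exact Submodule.smul_mem _ _ ug5_mem_Fil
  · exact neg_mem (Submodule.smul_mem _ _ ug4_mem_Fil)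

/-- the four generators together -/
theorem zz_gx (n : ℕ) (i : Fin 4) (p : Fin n → ℂ) :
    ∃ h : Fin 6 → Fin (n + 1) → UU, (∀ t s, h t s ∈ Fil (-1)) ∧
      gx i • zz p = zz (rhoFun n i p) + D2 (RU n) h := by
  have hz : ∀ s : Fin (n + 1), (0 : Fin (n + 1) → UU) s ∈ Fil (-1) := fun s => zero_mem _
  have hp : ∀ (t : Fin 4) (s : Fin (n + 1)), zz p t s ∈ Fil (-1) := fun t s => zz_mem' p t s
  have hn : ∀ (t : Fin 4) (s : Fin (n + 1)), (-zz p t) s ∈ Fil (-1) :=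
    fun t s => neg_mem (zz_mem' p t s)
  fin_cases i
  · refine ⟨_, ?_, zz_a n p⟩
    intro t s
    fin_cases t
    · exact hp 1 s
    · exact hp 2 s
    · exact hp 3 s
    · exact hz s
    · exact hz s
    · exact hz s
  · refine ⟨_, ?_, zz_b n p⟩
    intro t s
    fin_cases t
    · exact hn 0 s
    · exact hz s
    · exact hz s
    · exact hp 2 s
    · exact hp 3 s
    · exact hz s
  · refine ⟨_, ?_, zz_c n p⟩
    intro t s
    fin_cases t
    · exact hz s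
    · exact hn 0 s
    · exact hz s
    · exact hn 1 s
    · exact hz s
    · exact hp 3 s
  · refine ⟨_, ?_, zz_d n p⟩
    intro t s
    fin_cases t
    · exact hz s
    · exact hz s
    · exact hn 0 s
    · exact hz s
    · exact hn 1 s
    · exact hn 2 s

/-- general form -/
theorem zz_equiv (n : ℕ) (k : ℤ) (x : UU) (hx : x ∈ Fil k) (p : YM n) :
    ∃ g : Fin 6 → Fin (n + 1) → UU, (∀ t s, g t s ∈ Fil (k - 2)) ∧
      x • zz (p : Fin n → ℂ) = zz ((x • p : YM n) : Fin n → ℂ) + D2 (RU n) g := by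
  revert p
  refine Fil_induction (P := fun k x => ∀ p : YM n,
    ∃ g : Fin 6 → Fin (n + 1) → UU, (∀ t s, g t s ∈ Fil (k - 2)) ∧
      x • zz (p : Fin n → ℂ) = zz ((x • p : YM n) : Fin n → ℂ) + D2 (RU n) g)
    ?_ ?_ ?_ ?_ ?_ ?_ ?_ hx
  · intro m x y ihx ihy p
    obtain ⟨g, hg, e⟩ := ihx p
    obtain ⟨g', hg', e'⟩ := ihy p
    refine ⟨g + g', fun t s => add_mem (hg t s) (hg' t s), ?_⟩
    have h1 : ((x + y) • p : YM n) = (x • p : YM n) + (y • p : YM n) := add_smul x y p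
    rw [h1, add_smul, e, e', map_add]
    have h2 : zz (((x • p : YM n) + (y • p : YM n) : YM n) : Fin n → ℂ) =
      zz ((x • p : YM n) : Fin n → ℂ) + zz ((y • p : YM n) : Fin n → ℂ) := zz_add _ _
    rw [h2]; abel
  · intro m r x ihx p
    obtain ⟨g, hg, e⟩ := ihx p
    refine ⟨r • g, fun t s => Submodule.smul_mem _ _ (hg t s), ?_⟩
    have h1 : ((r • x) • p : YM n) = r • (x • p : YM n) := smul_assoc r x p
    have h2 : zz ((r • (x • p : YM n) : YM n) : Fin n → ℂ) =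
      r • zz ((x • p : YM n) : Fin n → ℂ) := zz_smul _ _
    have h3 : D2 (RU n) (r • g) = r • D2 (RU n) g := by
      have : r • g = (algebraMap ℂ UU r) • g := by rw [algebraMap_smul]
      rw [this, map_smul, algebraMap_smul]
    rw [h1, smul_assoc, e, smul_add, h2, h3]
  · intro m k x hmk ihx p
    obtain ⟨g, hg, e⟩ := ihx p
    exact ⟨g, fun t s => Fil_mono (by omega) (hg t s), e⟩
  · intro p
    refine ⟨0, fun t s => zero_mem _, ?_⟩
    rw [one_smul, one_smul, map_zero, add_zero]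
  · intro m x _ p
    refine ⟨0, fun t s => zero_mem _, ?_⟩
    have h1 : ((ug 4 * x) • p : YM n) = 0 := by rw [mul_smul, YM_ug4_smul]
    rw [h1, map_zero, add_zero]
    exact (ug4_smul_zz x _).trans zz_zero.symm
  · intro m x _ p
    refine ⟨0, fun t s => zero_mem _, ?_⟩
    have h1 : ((ug 5 * x) • p : YM n) = 0 := by rw [mul_smul, YM_ug5_smul]
    rw [h1, map_zero, add_zero]
    exact (ug5_smul_zz x _).trans zz_zero.symm
  · intro m i x hm ihx p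
    obtain ⟨g, hg, e⟩ := ihx p
    obtain ⟨h, hh, e'⟩ := zz_gx n i ((x • p : YM n) : Fin n → ℂ)
    refine ⟨h + gx i • g, fun t s => add_mem (Fil_mono (by omega) (hh t s)) ?_, ?_⟩
    · have := Fil_mul (gx_mem_Fil i) (hg t s)
      exact Fil_mono (by omega) this
    · have h1 : ((gx i * x) • p : YM n) = (rhoFun n i ((x • p : YM n) : Fin n → ℂ) : Fin n → ℂ) := by
        rw [mul_smul]; exact YM_gx_smul n i _
      rw [h1, mul_smul, e, smul_add, e', map_add, map_smul]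
      abel

end Crest.Agent.FD
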