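import Crest.Agent.FD.Model

/-! # S0268 module E: the filtration of `UU` -/

set_option autoImplicit false

namespace Crest.Agent.FD

open MvPolynomial

/-! ## multiplication formulas (private copies) -/

private theorem fm_Psi_add (s₀ s₁ s₂ t₀ t₁ t₂ : S) :
    Psi (s₀ + t₀) (s₁ + t₁) (s₂ + t₂) = Psi s₀ s₁ s₂ + Psi t₀ t₁ t₂ := by
  simp only [Psi, map_add, mul_add]; abel

private theorem fm_Psi_smul (c : ℂ) (s₀ s₁ s₂ : S) :
    Psi (c • s₀) (c • s₁) (c • s₂) = c • Psi s₀ s₁ s₂ := by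
  simp only [Psi, map_smul, smul_add, mul_smul_comm]

private theorem fm_phi_La (p : S) : phi (La p) = ug 0 * phi p := phi_L 0 p
private theorem fm_phi_Lb (p : S) : phi (Lb p) = ug 1 * phi p := phi_L 1 p
private theorem fm_phi_Lc (p : S) : phi (Lc p) = ug 2 * phi p := phi_L 2 p
private theorem fm_phi_Ld (p : S) : phi (Ld p) = ug 3 * phi p := phi_L 3 p

private theorem fm_ug0 (s₀ s₁ s₂ : S) :
    ug 0 * Psi s₀ s₁ s₂ = Psi (La s₀) (La s₁ - s₁) (La s₂) := by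
  have h := isRep_ug
  simp only [Psi, map_sub, fm_phi_La, mul_add, mul_sub, ← mul_assoc, h.at', h.au, sub_mul]

private theorem fm_ug1 (s₀ s₁ s₂ : S) :
    ug 1 * Psi s₀ s₁ s₂ = Psi (Lb s₀) (Lb s₁) (Lb s₂ - s₁) := by
  have h := isRep_ug
  simp only [Psi, map_sub, fm_phi_Lb, mul_add, mul_sub, ← mul_assoc, h.bt, h.bu, sub_mul]
  abel

private theorem fm_ug2 (s₀ s₁ s₂ : S) :
    ug 2 * Psi s₀ s₁ s₂ = Psi (Lc s₀) (Lc s₁) (Lc s₂) - ug 4 * phi s₂ := by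
  have h := isRep_ug
  simp only [Psi, fm_phi_Lc, mul_add, ← mul_assoc, h.ct, h.cu, sub_mul]
  abel

private theorem fm_ug3 (s₀ s₁ s₂ : S) :
    ug 3 * Psi s₀ s₁ s₂ = Psi (Ld s₀) (Ld s₁) (Ld s₂ - s₂) := by
  have h := isRep_ug
  simp only [Psi, map_sub, fm_phi_Ld, mul_add, mul_sub, ← mul_assoc, h.dt, h.du, sub_mul]

private theorem fm_ug4 (s₀ s₁ s₂ : S) : ug 4 * Psi s₀ s₁ s₂ = Psi 0 s₀ 0 := by
  have h := isRep_ug
  simp only [Psi, map_zero, mul_add, ← mul_assoc, h.tt, h.tu, zero_mul, mul_zero, add_zero,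
    zero_add]

private theorem fm_ug5 (s₀ s₁ s₂ : S) : ug 5 * Psi s₀ s₁ s₂ = Psi 0 0 s₀ := by
  have h := isRep_ug
  simp only [Psi, map_zero, mul_add, ← mul_assoc, h.ut, h.uu, zero_mul, mul_zero, add_zero,
    zero_add]

/-! ## the filtration -/

theorem Fil_mono {m k : ℤ} (h : m ≤ k) : Fil m ≤ Fil k := by
  rintro _ ⟨s₀, h₀, s₁, h₁, s₂, h₂, rfl⟩
  exact ⟨s₀, Sle_mono h h₀, s₁, Sle_mono (by omega) h₁, s₂, Sle_mono (by omega) h₂, rfl⟩

theorem phi_mem_Fil {m : ℤ} {p : S} (hp : p ∈ Sle m) : phi p ∈ Fil m :=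
  ⟨p, hp, 0, zero_mem _, 0, zero_mem _, by simp [Psi]⟩

theorem one_mem_Fil : (1 : UU) ∈ Fil 0 := by
  have := phi_mem_Fil (one_mem_Sle (le_refl (0 : ℤ)))
  rwa [phi_one] at this

private theorem fm_t_mul {m : ℤ} {x : UU} (hx : x ∈ Fil m) : ug 4 * x ∈ Fil (m - 1) := by
  obtain ⟨s₀, h₀, s₁, h₁, s₂, h₂, rfl⟩ := hx
  exact ⟨0, zero_mem _, s₀, by simpa using h₀, 0, zero_mem _, fm_ug4 _ _ _⟩

private theorem fm_u_mul {m : ℤ} {x : UU} (hx : x ∈ Fil m) : ug 5 * x ∈ Fil (m - 1) := by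
  obtain ⟨s₀, h₀, s₁, h₁, s₂, h₂, rfl⟩ := hx
  exact ⟨0, zero_mem _, 0, zero_mem _, s₀, by simpa using h₀, fm_ug5 _ _ _⟩

private theorem fm_gx_mul {m : ℤ} {x : UU} (i : Fin 4) (hx : x ∈ Fil m) :
    gx i * x ∈ Fil (m + 1) := by
  obtain ⟨s₀, h₀, s₁, h₁, s₂, h₂, rfl⟩ := hx
  have k₀ : Lop i s₀ ∈ Sle (m + 1) := Lop_mem h₀ i
  have k₁ : Lop i s₁ ∈ Sle (m + 1 + 1) := Lop_mem h₁ i
  have k₂ : Lop i s₂ ∈ Sle (m + 1 + 1) := Lop_mem h₂ i
  have h₁' : s₁ ∈ Sle (m + 1 + 1) := Sle_mono (by omega) h₁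
  have h₂' : s₂ ∈ Sle (m + 1 + 1) := Sle_mono (by omega) h₂
  fin_cases i
  · exact ⟨_, k₀, _, sub_mem k₁ h₁', _, k₂, fm_ug0 _ _ _⟩
  · exact ⟨_, k₀, _, k₁, _, sub_mem k₂ h₁', fm_ug1 _ _ _⟩
  · refine ⟨_, k₀, _, sub_mem k₁ h₂', _, k₂, ?_⟩
    have := fm_ug2 s₀ s₁ s₂
    refine this.trans ?_
    simp only [Psi, map_sub, mul_sub]
    change _ = phi (Lc s₀) + (ug 4 * phi (Lc s₁) - ug 4 * phi s₂) + ug 5 * phi (Lc s₂)
    abel
  · exact ⟨_, k₀, _, k₁, _, sub_mem k₂ h₂', fm_ug3 _ _ _⟩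

theorem gx_mem_Fil (x : Fin 4) : gx x ∈ Fil 1 := by
  simpa using fm_gx_mul x one_mem_Fil

theorem ug4_mem_Fil : ug 4 ∈ Fil (-1) := by
  simpa using fm_t_mul one_mem_Fil
theorem ug5_mem_Fil : ug 5 ∈ Fil (-1) := by
  simpa using fm_u_mul one_mem_Fil

/-- words -/
private theorem fm_pow {P : ℤ → UU → Prop} (i : Fin 4)
    (hgx : ∀ (m : ℤ) x, 0 ≤ m → P m x → P (m + 1) (gx i * x))
    (n : ℕ) {m : ℤ} (hm : 0 ≤ m) {x : UU} (hx : P m x) : P (m + n) (gx i ^ n * x) := by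
  induction n with
  | zero => simpa using hx
  | succ n ih =>
    have h := hgx (m + n) _ (by positivity) ih
    have e1 : m + (n : ℤ) + 1 = m + ((n + 1 : ℕ) : ℤ) := by push_cast; ring
    rw [e1, ← mul_assoc, ← pow_succ'] at h
    exact h

private theorem fm_word_eq (d : Fin 4 →₀ ℕ) :
    (((d.sum fun _ e => e : ℕ) : ℤ)) = d 3 + d 0 + d 1 + d 2 := by
  rw [Finsupp.sum_fintype _ _ (fun _ => rfl)]
  simp only [Fin.sum_univ_four]
  push_cast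
  ring

private theorem fm_word {P : ℤ → UU → Prop}
    (hgx : ∀ (m : ℤ) i x, 0 ≤ m → P m x → P (m + 1) (gx i * x))
    {m : ℤ} (hm : 0 ≤ m) {x : UU} (hx : P m x) (d : Fin 4 →₀ ℕ) :
    P (m + ((d.sum fun _ e => e : ℕ) : ℤ)) (phi (monomial d 1) * x) := by
  have h1 := fm_pow (P := P) 3 (fun m x => hgx m 3 x) (d 3) hm hx
  have h2 := fm_pow (P := P) 0 (fun m x => hgx m 0 x) (d 0) (by positivity) h1
  have h3 := fm_pow (P := P) 1 (fun m x => hgx m 1 x) (d 1) (by positivity) h2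
  have h4 := fm_pow (P := P) 2 (fun m x => hgx m 2 x) (d 2) (by positivity) h3
  rw [phi_monomial, fm_word_eq]
  convert h4 using 1
  · ring
  · simp only [gx, mul_assoc]
    rfl

private theorem fm_pow' (i : Fin 4) (n : ℕ) {m : ℤ} {x : UU} (hx : x ∈ Fil m) :
    gx i ^ n * x ∈ Fil (m + n) := by
  induction n with
  | zero => simpa using hx
  | succ n ih =>
    have h := fm_gx_mul i ih
    have e1 : m + (n : ℤ) + 1 = m + ((n + 1 : ℕ) : ℤ) := by push_cast; ring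
    rw [e1, ← mul_assoc, ← pow_succ'] at h
    exact h

private theorem fm_word' {m : ℤ} {x : UU} (hx : x ∈ Fil m) (d : Fin 4 →₀ ℕ) :
    phi (monomial d 1) * x ∈ Fil (m + ((d.sum fun _ e => e : ℕ) : ℤ)) := by
  have h4 := fm_pow' 2 (d 2) (fm_pow' 1 (d 1) (fm_pow' 0 (d 0) (fm_pow' 3 (d 3) hx)))
  rw [phi_monomial, fm_word_eq]
  have e1 : m + (d 3 : ℤ) + d 0 + d 1 + d 2 = m + (d 3 + d 0 + d 1 + d 2) := by ring
  rw [e1] at h4
  have e2 : ug 2 ^ d 2 * ug 1 ^ d 1 * ug 0 ^ d 0 * ug 3 ^ d 3 * x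
      = gx 2 ^ d 2 * (gx 1 ^ d 1 * (gx 0 ^ d 0 * (gx 3 ^ d 3 * x))) := by
    simp only [mul_assoc]
    rfl
  rw [e2]
  exact h4

private theorem fm_phi_mul {m k : ℤ} {s : S} {y : UU} (hs : s ∈ Sle m) (hy : y ∈ Fil k) :
    phi s * y ∈ Fil (m + k) := by
  refine Sle_induction (P := fun p => phi p * y ∈ Fil (m + k)) ?_ ?_ ?_ hs
  · simp
  · intro p q hp hq
    rw [map_add, add_mul]
    exact add_mem hp hq
  · intro d c hd
    have h := fm_word' hy d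
    have e : (monomial d c : S) = c • monomial d 1 := by
      rw [smul_monomial, smul_eq_mul, mul_one]
    rw [e, map_smul, smul_mul_assoc]
    exact Submodule.smul_mem _ _ (Fil_mono (by omega) h)

theorem Fil_mul {m k : ℤ} {x y : UU} (hx : x ∈ Fil m) (hy : y ∈ Fil k) : x * y ∈ Fil (m + k) := by
  obtain ⟨s₀, h₀, s₁, h₁, s₂, h₂, rfl⟩ := hx
  have e1 : m + 1 + k - 1 = m + k := by ring
  have k₀ := fm_phi_mul h₀ hy
  have k₁ := fm_t_mul (fm_phi_mul h₁ hy)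
  have k₂ := fm_u_mul (fm_phi_mul h₂ hy)
  rw [e1] at k₁ k₂
  simp only [Psi, add_mul, mul_assoc]
  exact add_mem (add_mem k₀ k₁) k₂

theorem Fil_finite (m : ℤ) : Module.Finite ℂ (Fil m) := by
  have e : Fil m = (Sle m).map phi ⊔
      ((Sle (m + 1)).map (LinearMap.mulLeft ℂ (ug 4) ∘ₗ phi) ⊔
        (Sle (m + 1)).map (LinearMap.mulLeft ℂ (ug 5) ∘ₗ phi)) := by
    apply le_antisymm
    · rintro _ ⟨s₀, h₀, s₁, h₁, s₂, h₂, rfl⟩
      unfold Psi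
      rw [add_assoc]
      refine Submodule.add_mem_sup (Submodule.mem_map_of_mem h₀) (Submodule.add_mem_sup ?_ ?_)
      · exact ⟨s₁, h₁, rfl⟩
      · exact ⟨s₂, h₂, rfl⟩
    · refine sup_le ?_ (sup_le ?_ ?_)
      · rintro _ ⟨s, hs, rfl⟩
        exact ⟨s, hs, 0, zero_mem _, 0, zero_mem _, by simp [Psi]⟩
      · rintro _ ⟨s, hs, rfl⟩
        exact ⟨0, zero_mem _, s, hs, 0, zero_mem _, by simp [Psi]⟩
      · rintro _ ⟨s, hs, rfl⟩
        exact ⟨0, zero_mem _, 0, zero_mem _, s, hs, by simp [Psi]⟩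
  have f (k : ℤ) : (Sle k).FG := Module.Finite.iff_fg.1 (Sle_finite k)
  rw [Module.Finite.iff_fg, e]
  exact ((f m).map _).sup (((f (m + 1)).map _).sup ((f (m + 1)).map _))

theorem eq_zero_of_mem_Fil {m : ℤ} (hm : m < -1) {x : UU} (hx : x ∈ Fil m) : x = 0 := by
  obtain ⟨s₀, h₀, s₁, h₁, s₂, h₂, rfl⟩ := hx
  rw [eq_zero_of_mem_Sle (by omega) h₀, eq_zero_of_mem_Sle (by omega) h₁,
    eq_zero_of_mem_Sle (by omega) h₂]
  simp [Psi]

theorem mem_Fil_neg_one {x : UU} (hx : x ∈ Fil (-1)) : ∃ s t : ℂ, x = s • ug 4 + t • ug 5 := by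
  obtain ⟨s₀, h₀, s₁, h₁, s₂, h₂, rfl⟩ := hx
  obtain ⟨c₁, rfl⟩ := exists_C_of_mem_Sle_zero (by simpa using h₁)
  obtain ⟨c₂, rfl⟩ := exists_C_of_mem_Sle_zero (by simpa using h₂)
  rw [eq_zero_of_mem_Sle (by omega) h₀]
  have hC (c : ℂ) : phi (C c) = c • (1 : UU) := by
    rw [← phi_one, ← map_smul, smul_eq_C_mul, mul_one]
  refine ⟨c₁, c₂, ?_⟩
  simp [Psi, hC]

/-- induction along the filtration -/
theorem Fil_induction {P : ℤ → UU → Prop}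
    (hadd : ∀ m x y, P m x → P m y → P m (x + y))
    (hsmul : ∀ m (r : ℂ) x, P m x → P m (r • x))
    (hmono : ∀ m k x, m ≤ k → P m x → P k x)
    (hone : P 0 1)
    (hth4 : ∀ m x, x ∈ Fil m → P (m - 1) (ug 4 * x))
    (hth5 : ∀ m x, x ∈ Fil m → P (m - 1) (ug 5 * x))
    (hgx : ∀ m i x, 0 ≤ m → P m x → P (m + 1) (gx i * x))
    {m : ℤ} {x : UU} (hx : x ∈ Fil m) : P m x := by
  obtain ⟨s₀, h₀, s₁, h₁, s₂, h₂, rfl⟩ := hx
  have hz (k : ℤ) : P k 0 := by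
    have := hth4 (k + 1) 0 (zero_mem _)
    simpa using this
  have k₀ : P m (phi s₀) := by
    refine Sle_induction (P := fun p => P m (phi p)) ?_ ?_ ?_ h₀
    · simpa using hz m
    · intro p q hp hq
      rw [map_add]
      exact hadd _ _ _ hp hq
    · intro d c hd
      have h := fm_word (P := P) hgx le_rfl hone d
      rw [mul_one, zero_add] at h
      have e : (monomial d c : S) = c • monomial d 1 := by
        rw [smul_monomial, smul_eq_mul, mul_one]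
      rw [e, map_smul]
      exact hsmul _ _ _ (hmono _ _ _ hd h)
  have k₁ : P m (ug 4 * phi s₁) := by
    simpa using hth4 (m + 1) _ (phi_mem_Fil h₁)
  have k₂ : P m (ug 5 * phi s₂) := by
    simpa using hth5 (m + 1) _ (phi_mem_Fil h₂)
  exact hadd _ _ _ (hadd _ _ _ k₀ k₁) k₂

private theorem fm_left_ideal (u : UU) :
    ∀ v : UU, (∃ s₁ s₂, v = Psi 0 s₁ s₂) → ∃ s₁ s₂, u * v = Psi 0 s₁ s₂ := by
  induction u using UU_induction with
  | hone => intro v hv; simpa using hv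
  | hadd x y hx hy =>
    intro v hv
    obtain ⟨s₁, s₂, h⟩ := hx v hv
    obtain ⟨t₁, t₂, h'⟩ := hy v hv
    refine ⟨s₁ + t₁, s₂ + t₂, ?_⟩
    rw [add_mul, h, h', ← fm_Psi_add, add_zero]
  | hsmul r x hx =>
    intro v hv
    obtain ⟨s₁, s₂, h⟩ := hx v hv
    refine ⟨r • s₁, r • s₂, ?_⟩
    rw [smul_mul_assoc, h, ← fm_Psi_smul, smul_zero]
  | hmul i x hx =>
    intro v hv
    obtain ⟨s₁, s₂, h⟩ := hx v hv
    rw [mul_assoc, h]
    fin_cases i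
    · exact ⟨_, _, (fm_ug0 _ _ _).trans (by rw [map_zero])⟩
    · exact ⟨_, _, (fm_ug1 _ _ _).trans (by rw [map_zero])⟩
    · refine ⟨Lc s₁ - s₂, Lc s₂, (fm_ug2 _ _ _).trans ?_⟩
      simp only [Psi, map_sub, mul_sub, map_zero]
      abel
    · exact ⟨_, _, (fm_ug3 _ _ _).trans (by rw [map_zero])⟩
    · exact ⟨_, _, (fm_ug4 _ _ _)⟩
    · exact ⟨_, _, (fm_ug5 _ _ _)⟩

/-- `1` is not in the left ideal generated by the `θ`'s -/
theorem one_ne_sum_mul (u v : Fin 4 → UU) (hv : ∀ x, v x ∈ Fil (-1)) :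
    u 0 * v 0 + u 1 * v 1 + u 2 * v 2 + u 3 * v 3 ≠ 1 := by
  have hv' (x : Fin 4) : ∃ s₁ s₂, u x * v x = Psi 0 s₁ s₂ := by
    apply fm_left_ideal
    obtain ⟨s₀, h₀, s₁, h₁, s₂, h₂, h⟩ := hv x
    rw [eq_zero_of_mem_Sle (by omega) h₀] at h
    exact ⟨s₁, s₂, h⟩
  choose p q hpq using hv'
  intro h
  rw [hpq, hpq, hpq, hpq, ← fm_Psi_add, ← fm_Psi_add, ← fm_Psi_add] at h
  have h1 : Psi 1 (-(p 0 + p 1 + p 2 + p 3)) (-(q 0 + q 1 + q 2 + q 3)) = 0 := by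
    have e : (1 : UU) = Psi 1 0 0 := by simp [Psi, phi_one]
    have : Psi 1 (-(p 0 + p 1 + p 2 + p 3)) (-(q 0 + q 1 + q 2 + q 3))
        = Psi 1 0 0 - Psi (0 + 0 + 0 + 0) (p 0 + p 1 + p 2 + p 3) (q 0 + q 1 + q 2 + q 3) := by
      simp only [Psi, map_neg, map_zero, map_add, mul_add, mul_neg, neg_add, mul_zero]
      abel
    rw [this, h, ← e, sub_self]
  exact one_ne_zero ((Psi_eq_zero_iff _ _ _).1 h1).1

end Crest.Agent.FD
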