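import Mathlib
import Crest.Agent.Fin268.Homol

/-! # S0268 module L: the projective dimension bookkeeping -/

set_option autoImplicit false

namespace Crest.Agent.FD

open CategoryTheory

universe u

section
variable {R : Type} [Ring R]

/-- short exact sequences of modules and projective dimension -/
theorem pd_X₁ {A B C : Type} [AddCommGroup A] [Module R A] [AddCommGroup B] [Module R B]
    [AddCommGroup C] [Module R C] (f : A →ₗ[R] B) (g : B →ₗ[R] C) (hf : Function.Injective f)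
    (hg : Function.Surjective g) (hfg : LinearMap.range f = LinearMap.ker g) (n : ℕ)
    (h₂ : HasProjectiveDimensionLT (ModuleCat.of R B) n)
    (h₃ : HasProjectiveDimensionLT (ModuleCat.of R C) (n + 1)) :
    HasProjectiveDimensionLT (ModuleCat.of R A) n :=
  Fin268.pdLT_left f g hf hg (LinearMap.exact_iff.2 hfg.symm) h₂ h₃

theorem pd_X₂ {A B C : Type} [AddCommGroup A] [Module R A] [AddCommGroup B] [Module R B]
    [AddCommGroup C] [Module R C] (f : A →ₗ[R] B) (g : B →ₗ[R] C) (hf : Function.Injective f)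
    (hg : Function.Surjective g) (hfg : LinearMap.range f = LinearMap.ker g) (n : ℕ)
    (h₁ : HasProjectiveDimensionLT (ModuleCat.of R A) n)
    (h₃ : HasProjectiveDimensionLT (ModuleCat.of R C) n) :
    HasProjectiveDimensionLT (ModuleCat.of R B) n :=
  Fin268.pdLT_mid f g hf hg (LinearMap.exact_iff.2 hfg.symm) h₁ h₃

theorem pd_X₃ {A B C : Type} [AddCommGroup A] [Module R A] [AddCommGroup B] [Module R B]
    [AddCommGroup C] [Module R C] (f : A →ₗ[R] B) (g : B →ₗ[R] C) (hf : Function.Injective f)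
    (hg : Function.Surjective g) (hfg : LinearMap.range f = LinearMap.ker g) (n : ℕ)
    (h₁ : HasProjectiveDimensionLT (ModuleCat.of R A) n)
    (h₂ : HasProjectiveDimensionLT (ModuleCat.of R B) (n + 1)) :
    HasProjectiveDimensionLT (ModuleCat.of R C) (n + 1) :=
  Fin268.pdLT_right f g hf hg (LinearMap.exact_iff.2 hfg.symm) h₁ h₂

end

/-- The skeleton of the proof. Sequences
`0 → F n → E n → F (n+1) → 0`, `C4 → C3 → C2 → C1 → C0 → E n → 0` with `C_i` projective,
`H₁ = F n` (through `z : F n → C1 / im d2`), `H_i = 0` for `i ≥ 2`. -/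
theorem pd_skeleton {R : Type} [Ring R]
    (F E C0 C1 C2 C3 C4 : ℕ → Type)
    [∀ n, AddCommGroup (F n)] [∀ n, Module R (F n)]
    [∀ n, AddCommGroup (E n)] [∀ n, Module R (E n)]
    [∀ n, AddCommGroup (C0 n)] [∀ n, Module R (C0 n)]
    [∀ n, AddCommGroup (C1 n)] [∀ n, Module R (C1 n)]
    [∀ n, AddCommGroup (C2 n)] [∀ n, Module R (C2 n)]
    [∀ n, AddCommGroup (C3 n)] [∀ n, Module R (C3 n)]
    [∀ n, AddCommGroup (C4 n)] [∀ n, Module R (C4 n)]
    (hp0 : ∀ n, Module.Projective R (C0 n)) (hp1 : ∀ n, Module.Projective R (C1 n))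
    (hp2 : ∀ n, Module.Projective R (C2 n)) (hp3 : ∀ n, Module.Projective R (C3 n))
    (hp4 : ∀ n, Module.Projective R (C4 n))
    (i : ∀ n, F n →ₗ[R] E n) (q : ∀ n, E n →ₗ[R] F (n + 1))
    (hi : ∀ n, Function.Injective (i n)) (hq : ∀ n, Function.Surjective (q n))
    (hiq : ∀ n, LinearMap.range (i n) = LinearMap.ker (q n))
    (e : ∀ n, C0 n →ₗ[R] E n) (d1 : ∀ n, C1 n →ₗ[R] C0 n) (d2 : ∀ n, C2 n →ₗ[R] C1 n)
    (d3 : ∀ n, C3 n →ₗ[R] C2 n) (d4 : ∀ n, C4 n →ₗ[R] C3 n)
    (he : ∀ n, Function.Surjective (e n))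
    (h0 : ∀ n, LinearMap.range (d1 n) = LinearMap.ker (e n))
    (h12 : ∀ n, d1 n ∘ₗ d2 n = 0)
    (z : ∀ n, F n →ₗ[R] (C1 n ⧸ LinearMap.range (d2 n)))
    (hz : ∀ n, Function.Injective (z n))
    (hz1 : ∀ n (y : C1 n), d1 n y = 0 ↔ ∃ x, z n x = Submodule.Quotient.mk y)
    (h2 : ∀ n, LinearMap.range (d3 n) = LinearMap.ker (d2 n))
    (h3 : ∀ n, LinearMap.range (d4 n) = LinearMap.ker (d3 n))
    (h4 : ∀ n, Function.Injective (d4 n))
    (hF0 : Subsingleton (F 0))
    (hbase : ¬ ∃ r : C3 0 →ₗ[R] C4 0, r ∘ₗ d4 0 = LinearMap.id) (n : ℕ) :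
    (¬ HasProjectiveDimensionLT (ModuleCat.of R (F (n + 1))) (2 * n + 4)) ∧
      ∃ k, HasProjectiveDimensionLT (ModuleCat.of R (F (n + 1))) k := by
  have hex : ∀ {A B C : Type} [AddCommGroup A] [Module R A] [AddCommGroup B] [Module R B]
      [AddCommGroup C] [Module R C] {f : A →ₗ[R] B} {g : B →ₗ[R] C},
      LinearMap.range f = LinearMap.ker g → Function.Exact f g :=
    fun h => LinearMap.exact_iff.2 h.symm
  -- the map `ker d1 → F`
  have hq' : ∀ n, ∃ q' : LinearMap.ker (d1 n) →ₗ[R] F n, Function.Surjective q' ∧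
      ∀ y : LinearMap.ker (d1 n), q' y = 0 ↔ ∃ x, d2 n x = (y : C1 n) := by
    intro n
    let g : LinearMap.ker (d1 n) →ₗ[R] LinearMap.range (z n) :=
      LinearMap.codRestrict _ ((LinearMap.range (d2 n)).mkQ ∘ₗ (LinearMap.ker (d1 n)).subtype)
        (fun y => by
          obtain ⟨x, hx⟩ := (hz1 n y.1).1 y.2
          exact ⟨x, hx⟩)
    refine ⟨(LinearEquiv.ofInjective (z n) (hz n)).symm.toLinearMap ∘ₗ g, ?_, ?_⟩
    · intro x
      obtain ⟨y, hy⟩ := Submodule.Quotient.mk_surjective _ (z n x)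
      have hy0 : d1 n y = 0 := (hz1 n y).2 ⟨x, hy.symm⟩
      refine ⟨⟨y, hy0⟩, ?_⟩
      rw [LinearMap.comp_apply, LinearEquiv.coe_coe, LinearEquiv.symm_apply_eq]
      exact Subtype.ext hy
    · intro y
      rw [LinearMap.comp_apply, LinearEquiv.coe_coe, LinearEquiv.map_eq_zero_iff]
      constructor
      · intro h
        have h' : (LinearMap.range (d2 n)).mkQ (y : C1 n) = 0 := congrArg Subtype.val h
        rw [Submodule.mkQ_apply, Submodule.Quotient.mk_eq_zero] at h'
        exact h'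
      · rintro ⟨x, hx⟩
        apply Subtype.ext
        show (LinearMap.range (d2 n)).mkQ (y : C1 n) = 0
        rw [Submodule.mkQ_apply, Submodule.Quotient.mk_eq_zero]
        exact ⟨x, hx⟩
  -- base case
  have hbase' : Fin268.PdEq R (F 1) 4 := by
    have := hp0 0
    have := hp1 0
    have := hp2 0
    have := hp3 0
    have := hp4 0
    have h21 : Function.Exact (d2 0) (d1 0) := by
      intro y
      constructor
      · intro hy
        obtain ⟨x, hx⟩ := (hz1 0 y).1 hy
        have : x = 0 := Subsingleton.elim _ _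
        rw [this, map_zero] at hx
        exact (Submodule.Quotient.mk_eq_zero _).1 hx.symm
      · rintro ⟨x, rfl⟩
        exact LinearMap.congr_fun (h12 0) x
    have hE : Fin268.PdEq R (E 0) 4 :=
      Fin268.base_pd (e 0) (d1 0) (d2 0) (d3 0) (d4 0) (he 0) (hex (h0 0)) h21 (hex (h2 0))
        (hex (h3 0)) (h4 0) hbase
    have hinj : Function.Injective (q 0) := by
      rw [← LinearMap.ker_eq_bot, ← hiq 0, LinearMap.range_eq_bot]
      ext x
      have : x = 0 := Subsingleton.elim _ _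
      simp [this]
    exact hE.equiv (LinearEquiv.ofBijective (q 0) ⟨hinj, hq 0⟩)
  have key : ∀ n, Fin268.PdEq R (F (n + 1)) (2 * n + 4) := by
    intro n
    induction n with
    | zero => simpa using hbase'
    | succ n ih =>
      have := hp0 (n + 1)
      have := hp1 (n + 1)
      have := hp2 (n + 1)
      have := hp3 (n + 1)
      have := hp4 (n + 1)
      obtain ⟨q', hq's, hq'0⟩ := hq' (n + 1)
      have := Fin268.step_pd (e (n + 1)) (d1 (n + 1)) (d2 (n + 1)) (d3 (n + 1)) (d4 (n + 1))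
        (he (n + 1)) (hex (h0 (n + 1))) (fun y => LinearMap.congr_fun (h12 (n + 1)) y)
        (hex (h2 (n + 1))) (hex (h3 (n + 1))) (h4 (n + 1)) q' hq's hq'0
        (i (n + 1)) (q (n + 1)) (hi (n + 1)) (hq (n + 1)) (hex (hiq (n + 1)))
        (r := 2 * n + 4) (by omega) ih
      have e1 : 2 * (n + 1) + 4 = 2 * n + 4 + 2 := by ring
      rw [e1]
      exact this
  exact ⟨(key n).2, _, (key n).1⟩

end Crest.Agent.FD
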