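import Crest.Agent.FD.FilMul

/-! # S0268 module K: the window algebra `Lam` and its modules -/

set_option autoImplicit false

namespace Crest.Agent.FD

/-- the window algebra -/
noncomputable def Lam : Subalgebra ℂ (Matrix (Fin 5) (Fin 5) UU) where
  carrier := {M | ∀ j i : Fin 5, M j i ∈ Fil (((j : ℕ) : ℤ) - ((i : ℕ) : ℤ))}
  mul_mem' := by
    intro M N hM hN j i
    rw [Matrix.mul_apply]
    refine Submodule.sum_mem _ fun k _ => ?_
    have h := Fil_mul (hM j k) (hN k i)
    have e : ((j : ℕ) : ℤ) - ((k : ℕ) : ℤ) + (((k : ℕ) : ℤ) - ((i : ℕ) : ℤ))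
        = ((j : ℕ) : ℤ) - ((i : ℕ) : ℤ) := by ring
    rwa [e] at h
  add_mem' := by
    intro M N hM hN j i
    exact Submodule.add_mem _ (hM j i) (hN j i)
  algebraMap_mem' := by
    intro r j i
    rw [Matrix.algebraMap_matrix_apply]
    split_ifs with h
    · subst h
      rw [sub_self, Algebra.algebraMap_eq_smul_one]
      exact Submodule.smul_mem _ _ one_mem_Fil
    · exact Submodule.zero_mem _

theorem mem_Lam {M : Matrix (Fin 5) (Fin 5) UU} :
    M ∈ Lam ↔ ∀ j i : Fin 5, M j i ∈ Fil (((j : ℕ) : ℤ) - ((i : ℕ) : ℤ)) := Iff.rfl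

theorem Lam_finite : Module.Finite ℂ Lam := by
  have : ∀ m : ℤ, Module.Finite ℂ (Fil m) := Fil_finite
  let f : Lam →ₗ[ℂ] (∀ j i : Fin 5, Fil (((j : ℕ) : ℤ) - ((i : ℕ) : ℤ))) :=
    { toFun := fun M j i => ⟨M.1 j i, M.2 j i⟩
      map_add' := fun _ _ => rfl
      map_smul' := fun _ _ => rfl }
  refine Module.Finite.of_injective f ?_
  intro M N h
  ext j i
  exact congrArg Subtype.val (congrFun (congrFun h j) i)

/-- column vectors with entries in a `UU`-module -/
def Win (M : Type*) := Fin 5 → M

section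
variable {M N : Type*} [AddCommGroup M] [Module UU M] [AddCommGroup N] [Module UU N]

instance : AddCommGroup (Win M) := inferInstanceAs (AddCommGroup (Fin 5 → M))

noncomputable instance : Module Lam (Win M) where
  smul L v := fun j => ∑ i, (L.1 j i) • (v i)
  one_smul := by
    intro v
    funext j
    change ∑ i, ((1 : Matrix (Fin 5) (Fin 5) UU) j i) • (v i) = v j
    rw [Finset.sum_eq_single j]
    · rw [Matrix.one_apply_eq, one_smul]
    · intro i _ h
      rw [Matrix.one_apply_ne h.symm, zero_smul]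
    · intro h
      exact absurd (Finset.mem_univ j) h
  mul_smul := by
    intro L L' v
    funext j
    change ∑ i, ((L.1 * L'.1) j i) • (v i) = ∑ k, (L.1 j k) • ∑ i, (L'.1 k i) • (v i)
    simp only [Matrix.mul_apply, Finset.sum_smul, Finset.smul_sum, mul_smul]
    exact Finset.sum_comm
  smul_zero := by
    intro L
    funext j
    change ∑ i, (L.1 j i) • (0 : M) = 0
    simp
  smul_add := by
    intro L v w
    funext j
    change ∑ i, (L.1 j i) • (v i + w i) = (∑ i, (L.1 j i) • (v i)) + ∑ i, (L.1 j i) • (w i)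
    simp [smul_add, Finset.sum_add_distrib]
  add_smul := by
    intro L L' v
    funext j
    change ∑ i, (L.1 j i + L'.1 j i) • (v i)
      = (∑ i, (L.1 j i) • (v i)) + ∑ i, (L'.1 j i) • (v i)
    simp [add_smul, Finset.sum_add_distrib]
  zero_smul := by
    intro v
    funext j
    change ∑ i, (0 : UU) • (v i) = (0 : M)
    simp

theorem Win_smul_apply (L : Lam) (v : Win M) (j : Fin 5) : (L • v) j = ∑ i, (L.1 j i) • (v i) := rfl

/-- functoriality -/
noncomputable def Win.map (f : M →ₗ[UU] N) : Win M →ₗ[Lam] Win N where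
  toFun v := fun j => f (v j)
  map_add' := by
    intro v w
    funext j
    exact map_add f (v j) (w j)
  map_smul' := by
    intro L v
    funext j
    change f (∑ i, (L.1 j i) • (v i)) = ∑ i, (L.1 j i) • f (v i)
    rw [map_sum]
    exact Finset.sum_congr rfl fun i _ => map_smul f _ _

theorem Win.map_apply (f : M →ₗ[UU] N) (v : Win M) (j : Fin 5) : Win.map f v j = f (v j) := rfl

end

theorem Win_finite (M : Type*) [AddCommGroup M] [Module UU M] [Module ℂ M] [IsScalarTower ℂ UU M]
    [Module.Finite ℂ M] : Module.Finite Lam (Win M) := by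
  let _ : Module ℂ (Win M) := inferInstanceAs (Module ℂ (Fin 5 → M))
  have : Module.Finite ℂ (Win M) := inferInstanceAs (Module.Finite ℂ (Fin 5 → M))
  have : IsScalarTower ℂ Lam (Win M) := by
    refine ⟨fun r L v => ?_⟩
    funext j
    change ∑ i, (r • (L.1 j i)) • (v i) = r • ∑ i, (L.1 j i) • (v i)
    rw [Finset.smul_sum]
    exact Finset.sum_congr rfl fun i _ => smul_assoc _ _ _
  exact Module.Finite.of_restrictScalars_finite ℂ Lam (Win M)

/-- filtered `UU`-modules -/
structure FM (N : Type*) [AddCommGroup N] [Module UU N] where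
  F : ℤ → AddSubgroup N
  smul_mem : ∀ {a b : ℤ} {x : UU} {v : N}, x ∈ Fil a → v ∈ F b → x • v ∈ F (a + b)

/-- `UU` as a filtered module -/
noncomputable def FM.U : FM UU where
  F m := (Fil m).toAddSubgroup
  smul_mem hx hv := Fil_mul hx hv

section
variable {M N : Type*} [AddCommGroup M] [Module UU M] [AddCommGroup N] [Module UU N]

/-- powers of a filtered module -/
noncomputable def FM.pi (F : FM N) (κ : Type*) : FM (κ → N) where
  F m := AddSubgroup.pi Set.univ (fun _ => F.F m)
  smul_mem := by
    intro a b x v hx hv k hk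
    exact F.smul_mem hx (hv k hk)

theorem FM.mem_pi (F : FM N) (κ : Type*) (m : ℤ) (v : κ → N) :
    v ∈ (F.pi κ).F m ↔ ∀ k, v k ∈ F.F m :=
  ⟨fun h k => h k (Set.mem_univ k), fun h k _ => h k⟩

theorem FM.mem_U (m : ℤ) (x : UU) : x ∈ FM.U.F m ↔ x ∈ Fil m := Iff.rfl

/-- the window module of a filtered module, `v j ∈ F (j - i)` -/
noncomputable def FM.win (F : FM N) (i : ℤ) : Submodule Lam (Win N) where
  carrier := {v | ∀ j : Fin 5, v j ∈ F.F (((j : ℕ) : ℤ) - i)}
  add_mem' := by
    intro v w hv hw j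
    exact add_mem (hv j) (hw j)
  zero_mem' := by
    intro j
    exact zero_mem _
  smul_mem' := by
    intro L v hv j
    change ∑ k, (L.1 j k) • (v k) ∈ _
    refine sum_mem fun k _ => ?_
    have h := F.smul_mem (L.2 j k) (hv k)
    have e : ((j : ℕ) : ℤ) - ((k : ℕ) : ℤ) + (((k : ℕ) : ℤ) - i) = ((j : ℕ) : ℤ) - i := by ring
    rwa [e] at h

theorem FM.mem_win (F : FM N) (i : ℤ) (v : Win N) :
    v ∈ F.win i ↔ ∀ j : Fin 5, v j ∈ F.F (((j : ℕ) : ℤ) - i) := Iff.rfl

/-- the matrix whose `i`-th column is `v`, all other columns zero -/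
noncomputable def colMat (i : Fin 5) (v : FM.U.win ((i : ℕ) : ℤ)) : Lam :=
  ⟨fun j k => if k = i then (v : Win UU) j else 0, by
    intro j k
    change (if k = i then (v : Win UU) j else 0) ∈ _
    split_ifs with h
    · subst h
      exact v.2 j
    · exact Submodule.zero_mem _⟩

theorem colMat_apply (i : Fin 5) (v : FM.U.win ((i : ℕ) : ℤ)) (j k : Fin 5) :
    (colMat i v).1 j k = if k = i then (v : Win UU) j else 0 := rfl

/-- the embedding of the `i`-th column into `Lam` -/
noncomputable def colIn (i : Fin 5) : FM.U.win ((i : ℕ) : ℤ) →ₗ[Lam] Lam where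
  toFun v := colMat i v
  map_add' := by
    intro v w
    ext j k
    change (if k = i then ((v + w : FM.U.win ((i : ℕ) : ℤ)) : Win UU) j else 0)
      = (if k = i then (v : Win UU) j else 0) + (if k = i then (w : Win UU) j else 0)
    split_ifs
    · rfl
    · simp
  map_smul' := by
    intro L v
    ext j k
    change (if k = i then ((L • v : FM.U.win ((i : ℕ) : ℤ)) : Win UU) j else 0)
      = (L.1 * (colMat i v).1) j k
    rw [Matrix.mul_apply]
    simp only [colMat_apply]
    split_ifs with h
    · rfl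
    · simp

/-- the `i`-th column of an element of `Lam` -/
noncomputable def colOut (i : Fin 5) : Lam →ₗ[Lam] FM.U.win ((i : ℕ) : ℤ) where
  toFun L := ⟨fun j => L.1 j i, fun j => L.2 j i⟩
  map_add' := fun _ _ => rfl
  map_smul' := by
    intro L L'
    apply Subtype.ext
    funext j
    change (L.1 * L'.1) j i = ∑ k, (L.1 j k) • (L'.1 k i)
    rw [Matrix.mul_apply]
    rfl

theorem colOut_colIn (i : Fin 5) (v : FM.U.win ((i : ℕ) : ℤ)) : colOut i (colIn i v) = v := by
  apply Subtype.ext
  funext j
  change (if i = i then (v : Win UU) j else 0) = (v : Win UU) j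
  rw [if_pos rfl]

/-- columns of `Lam` are projective -/
theorem FM.projective_U (i : Fin 5) : Module.Projective Lam (FM.U.win ((i : ℕ) : ℤ)) :=
  Module.Projective.of_split (colIn i) (colOut i) (LinearMap.ext (colOut_colIn i))

/-- the window of a power is the power of the window -/
noncomputable def piWin (F : FM N) (κ : Type*) (i : ℤ) : (F.pi κ).win i ≃ₗ[Lam] (κ → F.win i) where
  toFun v := fun k => ⟨fun j => (v : Win (κ → N)) j k, fun j => v.2 j k (Set.mem_univ k)⟩
  invFun w := ⟨fun j k => (w k : Win N) j, fun j k _ => (w k).2 j⟩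
  left_inv := fun _ => rfl
  right_inv := fun _ => rfl
  map_add' := fun _ _ => rfl
  map_smul' := by
    intro L v
    funext k
    apply Subtype.ext
    funext j
    change (∑ l, (L.1 j l) • ((v : Win (κ → N)) l)) k = ∑ l, (L.1 j l) • ((v : Win (κ → N)) l k)
    rw [Finset.sum_apply]
    rfl

/-- finite powers are projective -/
theorem FM.projective_pi (F : FM N) (κ : Type*) [Finite κ] (i : ℤ)
    [Module.Projective Lam (F.win i)] : Module.Projective Lam ((F.pi κ).win i) := by
  classical
  have := Fintype.ofFinite κ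
  have : Module.Projective Lam (κ → F.win i) := by
    have : Module.Projective Lam (Π₀ _ : κ, F.win i) := inferInstance
    exact Module.Projective.of_equiv (DFinsupp.linearEquivFunOnFintype (R := Lam))
  exact Module.Projective.of_equiv (piWin F κ i).symm

/-- maps raising the filtration by one -/
noncomputable def winMap (F : FM M) (G : FM N) (f : M →ₗ[UU] N)
    (hf : ∀ m v, v ∈ F.F m → f v ∈ G.F (m + 1)) (i k : ℤ) (hk : k = i + 1) :
    F.win k →ₗ[Lam] G.win i :=
  (Win.map f).restrict (by
    intro v hv j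
    have h := hf _ _ (hv j)
    have e : ((j : ℕ) : ℤ) - k + 1 = ((j : ℕ) : ℤ) - i := by rw [hk]; ring
    rw [e] at h
    exact h)

theorem winMap_apply (F : FM M) (G : FM N) (f : M →ₗ[UU] N)
    (hf : ∀ m v, v ∈ F.F m → f v ∈ G.F (m + 1)) (i k : ℤ) (hk : k = i + 1)
    (v : F.win k) (j : Fin 5) : (winMap F G f hf i k hk v : Win N) j = f ((v : Win M) j) := rfl

end

/-- a `Lam`-linear map from column `3` to column `4` takes row-`4` entries into the left ideal
generated by `Fil (-1)` (the `θ`'s) -/
theorem hom_col3_col4 (f : FM.U.win 3 →ₗ[Lam] FM.U.win 4) :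
    ∃ w ∈ Fil (-1), ∀ v : FM.U.win 3, (f v : Win UU) 4 = (v : Win UU) 4 * w := by
  have hone : (fun j : Fin 5 => if j = 3 then (1 : UU) else 0) ∈ FM.U.win 3 := by
    intro j
    change (if j = 3 then (1 : UU) else 0) ∈ Fil _
    split_ifs with h
    · subst h
      exact one_mem_Fil
    · exact Submodule.zero_mem _
  let e : FM.U.win 3 := ⟨fun j : Fin 5 => if j = 3 then (1 : UU) else 0, hone⟩
  refine ⟨(f e : Win UU) 3, (f e).2 3, fun v => ?_⟩
  let w : FM.U.win (((3 : Fin 5) : ℕ) : ℤ) := v
  have h1 : v = colMat 3 w • e := by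
    apply Subtype.ext
    funext j
    change (v : Win UU) j
      = ∑ k : Fin 5, (if k = 3 then (v : Win UU) j else 0) • (if k = 3 then (1 : UU) else 0)
    rw [Finset.sum_eq_single 3]
    · rw [if_pos rfl, if_pos rfl, smul_eq_mul, mul_one]
    · intro k _ h
      rw [if_neg h, zero_smul]
    · intro h
      exact absurd (Finset.mem_univ _) h
  have h2 : f v = colMat 3 w • f e := by
    conv_lhs => rw [h1]
    exact map_smul f _ _
  rw [h2]
  change ∑ k : Fin 5, (if k = 3 then (v : Win UU) 4 else 0) • ((f e : Win UU) k) = _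
  rw [Finset.sum_eq_single 3]
  · rw [if_pos rfl, smul_eq_mul]
  · intro k _ h
    rw [if_neg h, zero_smul]
  · intro h
    exact absurd (Finset.mem_univ _) h

end Crest.Agent.FD
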