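import Crest.Agent.FD.Equiv
import Crest.Agent.FD.Win
import Crest.Agent.FD.Pd

/-! # S0268 module M: assembly -/

set_option autoImplicit false
set_option maxSynthPendingDepth 3

namespace Crest.Agent.FD

open CategoryTheory

noncomputable abbrev FN (n : ℕ) : FM (Fin (n + 1) → UU) := FM.U.pi (Fin (n + 1))
noncomputable abbrev K0 (n : ℕ) : Submodule Lam (Win (Fin (n + 1) → UU)) := (FN n).win 0
noncomputable abbrev K1 (n : ℕ) : Submodule Lam (Win (Fin 4 → Fin (n + 1) → UU)) :=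
  ((FN n).pi (Fin 4)).win 1
noncomputable abbrev K2 (n : ℕ) : Submodule Lam (Win (Fin 6 → Fin (n + 1) → UU)) :=
  ((FN n).pi (Fin 6)).win 2
noncomputable abbrev K3 (n : ℕ) : Submodule Lam (Win (Fin 4 → Fin (n + 1) → UU)) :=
  ((FN n).pi (Fin 4)).win 3
noncomputable abbrev K4 (n : ℕ) : Submodule Lam (Win (Fin (n + 1) → UU)) := (FN n).win 4

/-- `F_n` -/
abbrev FF (n : ℕ) : Type := Win (YM n)

/-! ## membership -/

theorem mem_FN {n : ℕ} {m : ℤ} {f : Fin (n + 1) → UU} :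
    f ∈ (FN n).F m ↔ ∀ s, f s ∈ Fil m := FM.mem_pi _ _ _ _

theorem mem_FN_pi {n : ℕ} {κ : Type} {m : ℤ} {f : κ → Fin (n + 1) → UU} :
    f ∈ ((FN n).pi κ).F m ↔ ∀ t s, f t s ∈ Fil m := by
  rw [FM.mem_pi]
  exact forall_congr' fun t => mem_FN

theorem mem_K0 {n : ℕ} {v : Win (Fin (n + 1) → UU)} :
    v ∈ K0 n ↔ ∀ (j : Fin 5) (s : Fin (n + 1)), v j s ∈ Fil (((j : ℕ) : ℤ) - 0) := by
  rw [FM.mem_win]
  exact forall_congr' fun j => mem_FN

theorem mem_K1 {n : ℕ} {v : Win (Fin 4 → Fin (n + 1) → UU)} :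
    v ∈ K1 n ↔ ∀ (j : Fin 5) (t : Fin 4) (s : Fin (n + 1)), v j t s ∈ Fil (((j : ℕ) : ℤ) - 1) := by
  rw [FM.mem_win]
  exact forall_congr' fun j => mem_FN_pi

theorem mem_K2 {n : ℕ} {v : Win (Fin 6 → Fin (n + 1) → UU)} :
    v ∈ K2 n ↔ ∀ (j : Fin 5) (t : Fin 6) (s : Fin (n + 1)), v j t s ∈ Fil (((j : ℕ) : ℤ) - 2) := by
  rw [FM.mem_win]
  exact forall_congr' fun j => mem_FN_pi

theorem mem_K3 {n : ℕ} {v : Win (Fin 4 → Fin (n + 1) → UU)} :
    v ∈ K3 n ↔ ∀ (j : Fin 5) (t : Fin 4) (s : Fin (n + 1)), v j t s ∈ Fil (((j : ℕ) : ℤ) - 3) := by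
  rw [FM.mem_win]
  exact forall_congr' fun j => mem_FN_pi

theorem mem_K4 {n : ℕ} {v : Win (Fin (n + 1) → UU)} :
    v ∈ K4 n ↔ ∀ (j : Fin 5) (s : Fin (n + 1)), v j s ∈ Fil (((j : ℕ) : ℤ) - 4) := by
  rw [FM.mem_win]
  exact forall_congr' fun j => mem_FN

theorem Win.ext' {M : Type*} {v w : Win M} (h : ∀ j : Fin 5, v j = w j) : v = w := funext h

theorem RU_mem (n : ℕ) (x : Fin 4) (m : ℤ) (f : Fin (n + 1) → UU) (hf : ∀ s, f s ∈ Fil m)
    (s : Fin (n + 1)) : RU n x f s ∈ Fil (m + 1) := by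
  rw [Rt_apply, rmulU_apply]
  exact sub_mem (Fil_mul (hf s) (gx_mem_Fil x))
    (rhoFun_mem (n + 1) (Fil (m + 1)) x f (fun s => Fil_mono (by omega) (hf s)) s)

theorem D1_mem (n : ℕ) (m : ℤ) (v : Fin 4 → Fin (n + 1) → UU)
    (hv : v ∈ ((FN n).pi (Fin 4)).F m) : D1 (RU n) v ∈ (FN n).F (m + 1) := by
  rw [mem_FN_pi] at hv
  have h : ∀ x t : Fin 4, RU n x (v t) ∈ (FN n).F (m + 1) := fun x t =>
    mem_FN.2 fun s => RU_mem n x m (v t) (hv t) s
  exact add_mem (add_mem (add_mem (h 0 0) (h 1 1)) (h 2 2)) (h 3 3)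

theorem D2_mem (n : ℕ) (m : ℤ) (v : Fin 6 → Fin (n + 1) → UU)
    (hv : v ∈ ((FN n).pi (Fin 6)).F m) : D2 (RU n) v ∈ ((FN n).pi (Fin 4)).F (m + 1) := by
  rw [mem_FN_pi] at hv
  have h : ∀ (x : Fin 4) (t : Fin 6), RU n x (v t) ∈ (FN n).F (m + 1) := fun x t =>
    mem_FN.2 fun s => RU_mem n x m (v t) (hv t) s
  have h' : ∀ t : Fin 6, v t ∈ (FN n).F (m + 1) := fun t =>
    mem_FN.2 fun s => Fil_mono (by omega) (hv t s)
  rw [FM.mem_pi]
  intro t
  fin_cases t
  · exact sub_mem (sub_mem (sub_mem (neg_mem (h 1 0)) (h 2 1)) (h 3 2)) (h' 3)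
  · exact sub_mem (sub_mem (sub_mem (sub_mem (h 0 0) (h 2 3)) (h 3 4)) (h' 0)) (h' 4)
  · exact add_mem (add_mem (sub_mem (add_mem (h 0 1) (h 1 3)) (h 3 5)) (h' 1)) (h' 5)
  · exact add_mem (add_mem (add_mem (h 0 2) (h 1 4)) (h 2 5)) (h' 3)

theorem D3_mem (n : ℕ) (m : ℤ) (v : Fin 4 → Fin (n + 1) → UU)
    (hv : v ∈ ((FN n).pi (Fin 4)).F m) : D3 (RU n) v ∈ ((FN n).pi (Fin 6)).F (m + 1) := by
  rw [mem_FN_pi] at hv
  have h : ∀ (x : Fin 4) (t : Fin 4), RU n x (v t) ∈ (FN n).F (m + 1) := fun x t =>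
    mem_FN.2 fun s => RU_mem n x m (v t) (hv t) s
  have h' : ∀ t : Fin 4, v t ∈ (FN n).F (m + 1) := fun t =>
    mem_FN.2 fun s => Fil_mono (by omega) (hv t s)
  rw [FM.mem_pi]
  intro t
  fin_cases t
  · exact add_mem (add_mem (h 2 0) (h 3 1)) (h' 1)
  · exact sub_mem (add_mem (neg_mem (h 1 0)) (h 3 2)) (h' 2)
  · exact sub_mem (sub_mem (sub_mem (neg_mem (h' 0)) (h 1 1)) (h 2 2)) (h' 3)
  · exact add_mem (h 0 0) (h 3 3)
  · exact sub_mem (sub_mem (h 0 1) (h' 1)) (h 2 3)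
  · exact add_mem (add_mem (h 0 2) (h' 2)) (h 1 3)

theorem D4_mem (n : ℕ) (m : ℤ) (v : Fin (n + 1) → UU)
    (hv : v ∈ (FN n).F m) : D4 (RU n) v ∈ ((FN n).pi (Fin 4)).F (m + 1) := by
  rw [mem_FN] at hv
  have h : ∀ x : Fin 4, RU n x v ∈ (FN n).F (m + 1) := fun x =>
    mem_FN.2 fun s => RU_mem n x m v hv s
  rw [FM.mem_pi]
  intro t
  fin_cases t
  · exact neg_mem (h 3)
  · exact h 2
  · exact neg_mem (h 1)
  · exact h 0

/-! ## the maps -/

noncomputable def dd1 (n : ℕ) : K1 n →ₗ[Lam] K0 n :=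
  winMap ((FN n).pi (Fin 4)) (FN n) (D1 (RU n)) (D1_mem n) 0 1 (by norm_num)
noncomputable def dd2 (n : ℕ) : K2 n →ₗ[Lam] K1 n :=
  winMap ((FN n).pi (Fin 6)) ((FN n).pi (Fin 4)) (D2 (RU n)) (D2_mem n) 1 2 (by norm_num)
noncomputable def dd3 (n : ℕ) : K3 n →ₗ[Lam] K2 n :=
  winMap ((FN n).pi (Fin 4)) ((FN n).pi (Fin 6)) (D3 (RU n)) (D3_mem n) 2 3 (by norm_num)
noncomputable def dd4 (n : ℕ) : K4 n →ₗ[Lam] K3 n :=
  winMap (FN n) ((FN n).pi (Fin 4)) (D4 (RU n)) (D4_mem n) 3 4 (by norm_num)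

theorem dd1_apply (n : ℕ) (v : K1 n) (j : Fin 5) :
    (dd1 n v : Win (Fin (n + 1) → UU)) j = D1 (RU n) ((v : Win (Fin 4 → Fin (n + 1) → UU)) j) := rfl
theorem dd2_apply (n : ℕ) (v : K2 n) (j : Fin 5) :
    (dd2 n v : Win (Fin 4 → Fin (n + 1) → UU)) j =
      D2 (RU n) ((v : Win (Fin 6 → Fin (n + 1) → UU)) j) := rfl
theorem dd3_apply (n : ℕ) (v : K3 n) (j : Fin 5) :
    (dd3 n v : Win (Fin 6 → Fin (n + 1) → UU)) j =
      D3 (RU n) ((v : Win (Fin 4 → Fin (n + 1) → UU)) j) := rfl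
theorem dd4_apply (n : ℕ) (v : K4 n) (j : Fin 5) :
    (dd4 n v : Win (Fin 4 → Fin (n + 1) → UU)) j =
      D4 (RU n) ((v : Win (Fin (n + 1) → UU)) j) := rfl

noncomputable def ee (n : ℕ) : K0 n →ₗ[Lam] Win (EM n) :=
  (Win.map (epsE n)).domRestrict (K0 n)

theorem ee_apply (n : ℕ) (v : K0 n) (j : Fin 5) :
    ee n v j = epsE n ((v : Win (Fin (n + 1) → UU)) j) := rfl

/-! ## the complex -/

theorem ee_surjective (n : ℕ) : Function.Surjective (ee n) := by
  intro v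
  choose f hf hfe using fun j : Fin 5 => epsE_surj n (v j)
  refine ⟨⟨fun j => f j, mem_K0.2 fun j s => Fil_mono (by omega) (hf j s)⟩, ?_⟩
  exact Win.ext' fun j => hfe j

theorem dd_exact0 (n : ℕ) : LinearMap.range (dd1 n) = LinearMap.ker (ee n) := by
  apply le_antisymm
  · rintro _ ⟨v, rfl⟩
    rw [LinearMap.mem_ker]
    exact Win.ext' fun j => epsE_D1 n _
  · intro v hv
    rw [LinearMap.mem_ker] at hv
    have hv' : ∀ j : Fin 5, epsE n ((v : Win (Fin (n + 1) → UU)) j) = 0 := fun j => congrFun hv j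
    choose g hg hgv using fun j : Fin 5 => row0 n (((j : ℕ) : ℤ) - 0) (by omega)
      ((v : Win (Fin (n + 1) → UU)) j) (mem_K0.1 v.2 j) (hv' j)
    refine ⟨⟨fun j => g j, mem_K1.2 fun j t s => Fil_mono (by omega) (hg j t s)⟩, ?_⟩
    apply Subtype.ext
    exact Win.ext' fun j => (hgv j).symm

theorem dd1_dd2 (n : ℕ) : dd1 n ∘ₗ dd2 n = 0 := by
  apply LinearMap.ext
  intro v
  apply Subtype.ext
  exact Win.ext' fun j => D1_D2 (RU n) (isOp_RU n) _

theorem dd_exact2 (n : ℕ) : LinearMap.range (dd3 n) = LinearMap.ker (dd2 n) := by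
  apply le_antisymm
  · rintro _ ⟨v, rfl⟩
    rw [LinearMap.mem_ker]
    apply Subtype.ext
    exact Win.ext' fun j => D2_D3 (RU n) (isOp_RU n) _
  · intro v hv
    rw [LinearMap.mem_ker] at hv
    have hv' : ∀ j : Fin 5, D2 (RU n) ((v : Win (Fin 6 → Fin (n + 1) → UU)) j) = 0 := fun j =>
      congrFun (congrArg Subtype.val hv) j
    choose g hg hgv using fun j : Fin 5 => row2 n (((j : ℕ) : ℤ) - 2)
      ((v : Win (Fin 6 → Fin (n + 1) → UU)) j) (mem_K2.1 v.2 j) (hv' j)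
    refine ⟨⟨fun j => g j, mem_K3.2 fun j t s => Fil_mono (by omega) (hg j t s)⟩, ?_⟩
    apply Subtype.ext
    exact Win.ext' fun j => (hgv j).symm

theorem dd_exact3 (n : ℕ) : LinearMap.range (dd4 n) = LinearMap.ker (dd3 n) := by
  apply le_antisymm
  · rintro _ ⟨v, rfl⟩
    rw [LinearMap.mem_ker]
    apply Subtype.ext
    exact Win.ext' fun j => D3_D4 (RU n) (isOp_RU n) _
  · intro v hv
    rw [LinearMap.mem_ker] at hv
    have hv' : ∀ j : Fin 5, D3 (RU n) ((v : Win (Fin 4 → Fin (n + 1) → UU)) j) = 0 := fun j =>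
      congrFun (congrArg Subtype.val hv) j
    choose g hg hgv using fun j : Fin 5 => row3 n (((j : ℕ) : ℤ) - 3)
      ((v : Win (Fin 4 → Fin (n + 1) → UU)) j) (mem_K3.1 v.2 j) (hv' j)
    refine ⟨⟨fun j => g j, mem_K4.2 fun j s => Fil_mono (by omega) (hg j s)⟩, ?_⟩
    apply Subtype.ext
    exact Win.ext' fun j => (hgv j).symm

theorem dd4_injective (n : ℕ) : Function.Injective (dd4 n) := by
  rw [← LinearMap.ker_eq_bot, LinearMap.ker_eq_bot']
  intro v hv
  have hv' : ∀ j : Fin 5, D4 (RU n) ((v : Win (Fin (n + 1) → UU)) j) = 0 := fun j =>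
      congrFun (congrArg Subtype.val hv) j
  apply Subtype.ext
  exact Win.ext' fun j => row4 n _ (hv' j)

/-! ## the cycle map -/

/-- representatives of `z` -/
noncomputable def zrep (n : ℕ) (v : FF n) : K1 n :=
  ⟨fun j => zz (v j : Fin n → ℂ), mem_K1.2 fun j t s => Fil_mono (by omega) (zz_mem _ t s)⟩

theorem zrep_apply (n : ℕ) (v : FF n) (j : Fin 5) :
    (zrep n v : Win (Fin 4 → Fin (n + 1) → UU)) j = zz (v j : Fin n → ℂ) := rfl

theorem zz_sum {n : ℕ} (p : Fin 5 → YM n) :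
    zz ((∑ i, p i : YM n) : Fin n → ℂ) = ∑ i, zz (p i : Fin n → ℂ) := by
  let φ : YM n →+ (Fin 4 → Fin (n + 1) → UU) :=
    { toFun := fun p => zz (p : Fin n → ℂ)
      map_zero' := zz_zero
      map_add' := fun p q => zz_add p q }
  exact map_sum φ p _

noncomputable def zmap (n : ℕ) : FF n →ₗ[Lam] (K1 n ⧸ LinearMap.range (dd2 n)) where
  toFun v := Submodule.Quotient.mk (zrep n v)
  map_add' v w := by
    rw [← Submodule.Quotient.mk_add]
    congr 1
    apply Subtype.ext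
    exact Win.ext' fun j => zz_add _ _
  map_smul' L v := by
    rw [RingHom.id_apply, ← Submodule.Quotient.mk_smul]
    symm
    rw [Submodule.Quotient.eq]
    choose g hg hgz using fun (j i : Fin 5) => zz_equiv n (((j : ℕ) : ℤ) - ((i : ℕ) : ℤ)) (L.1 j i)
      (mem_Lam.1 L.2 j i) (v i)
    refine ⟨⟨fun j => ∑ i, g j i, mem_K2.2 fun j t s => ?_⟩, ?_⟩
    · rw [Finset.sum_apply, Finset.sum_apply]
      exact sum_mem fun i _ => Fil_mono (by omega) (hg j i t s)
    · apply Subtype.ext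
      refine Win.ext' fun j => ?_
      have h1 : ((L • zrep n v - zrep n (L • v) : K1 n) : Win (Fin 4 → Fin (n + 1) → UU)) j
          = (∑ i, L.1 j i • zz (v i : Fin n → ℂ)) -
            zz ((∑ i, L.1 j i • v i : YM n) : Fin n → ℂ) := rfl
      rw [h1, zz_sum, ← Finset.sum_sub_distrib]
      rw [dd2_apply]
      change D2 (RU n) (∑ i, g j i) = _
      rw [map_sum]
      refine Finset.sum_congr rfl fun i _ => ?_
      rw [hgz j i]
      abel

theorem zmap_apply (n : ℕ) (v : FF n) : zmap n v = Submodule.Quotient.mk (zrep n v) := rfl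

theorem zmap_injective (n : ℕ) : Function.Injective (zmap n) := by
  rw [← LinearMap.ker_eq_bot, LinearMap.ker_eq_bot']
  intro v hv
  rw [zmap_apply, Submodule.Quotient.mk_eq_zero] at hv
  obtain ⟨g, hg⟩ := hv
  refine Win.ext' fun j => ?_
  exact row1_inj n (v j) ((g : Win (Fin 6 → Fin (n + 1) → UU)) j)
    (congrFun (congrArg Subtype.val hg) j)

theorem dd_exact1 (n : ℕ) (y : K1 n) :
    dd1 n y = 0 ↔ ∃ x, zmap n x = Submodule.Quotient.mk y := by
  constructor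
  · intro hy
    have hy' : ∀ j : Fin 5, D1 (RU n) ((y : Win (Fin 4 → Fin (n + 1) → UU)) j) = 0 := fun j =>
      congrFun (congrArg Subtype.val hy) j
    choose p g hg hgv using fun j : Fin 5 => row1 n (((j : ℕ) : ℤ) - 1)
      ((y : Win (Fin 4 → Fin (n + 1) → UU)) j) (mem_K1.1 y.2 j) (hy' j)
    refine ⟨fun j => p j, ?_⟩
    rw [zmap_apply]
    symm
    rw [Submodule.Quotient.eq]
    refine ⟨⟨fun j => g j, mem_K2.2 fun j t s => Fil_mono (by omega) (hg j t s)⟩, ?_⟩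
    apply Subtype.ext
    refine Win.ext' fun j => ?_
    change D2 (RU n) (g j) = (y : Win (Fin 4 → Fin (n + 1) → UU)) j - zz (p j)
    rw [hgv j]
    abel
  · rintro ⟨x, hx⟩
    rw [zmap_apply] at hx
    have hx2 := hx.symm
    rw [Submodule.Quotient.eq] at hx2
    obtain ⟨g, hg⟩ := hx2
    have h1 : y = zrep n x + dd2 n g := by rw [hg]; abel
    rw [h1, map_add]
    have h2 : dd1 n (dd2 n g) = 0 := by
      have := LinearMap.congr_fun (dd1_dd2 n) g
      simpa using this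
    rw [h2, add_zero]
    apply Subtype.ext
    exact Win.ext' fun j => D1_zz n _

/-! ## the base case -/

theorem RU0_apply (x : Fin 4) (f : Fin 1 → UU) (s : Fin 1) : RU 0 x f s = f s * gx x := by
  have h : rhoFun (0 + 1) x f s = 0 := by
    fin_cases x
    · simp [rhoFun]
    · simp [rhoFun]
    · simp [rhoFun]
    · simp [rhoFun]
  rw [Rt_apply, rmulU_apply]
  change f s * gx x - rhoFun (0 + 1) x f s = _
  rw [h, sub_zero]

/-- inclusion of the `x`-th coordinate -/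
noncomputable def iota (x : Fin 4) : FM.U.win 3 →ₗ[Lam] K3 0 where
  toFun v := ⟨fun j => Pi.single x (fun _ => (v : Win UU) j), mem_K3.2 fun j t s => by
    by_cases h : t = x
    · subst h
      rw [Pi.single_eq_same]
      exact v.2 j
    · rw [Pi.single_eq_of_ne h]
      exact zero_mem _⟩
  map_add' v w := by
    apply Subtype.ext
    refine Win.ext' fun j => ?_
    change Pi.single x (fun _ => (v : Win UU) j + (w : Win UU) j) =
      (Pi.single x (fun _ => (v : Win UU) j) : Fin 4 → Fin 1 → UU) +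
        Pi.single x (fun _ => (w : Win UU) j)
    rw [← Pi.single_add]
    rfl
  map_smul' L v := by
    apply Subtype.ext
    refine Win.ext' fun j => ?_
    change Pi.single x (fun _ => ∑ i, L.1 j i • (v : Win UU) i) =
      ∑ i, L.1 j i • (Pi.single x (fun _ => (v : Win UU) i) : Fin 4 → Fin 1 → UU)
    ext t s
    rw [Finset.sum_apply, Finset.sum_apply]
    by_cases h : t = x
    · subst h
      rw [Pi.single_eq_same]
      refine Finset.sum_congr rfl fun i _ => ?_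
      rw [Pi.smul_apply, Pi.smul_apply, Pi.single_eq_same]
    · rw [Pi.single_eq_of_ne h]
      symm
      apply Finset.sum_eq_zero
      intro i _
      rw [Pi.smul_apply, Pi.smul_apply, Pi.single_eq_of_ne h]
      simp

theorem iota_apply (x : Fin 4) (v : FM.U.win 3) (j : Fin 5) :
    (iota x v : Win (Fin 4 → Fin 1 → UU)) j = Pi.single x (fun _ => (v : Win UU) j) := rfl

/-- projection of `K4 0` to `UU`-columns -/
noncomputable def piK4 : K4 0 →ₗ[Lam] FM.U.win 4 where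
  toFun v := ⟨fun j => (v : Win (Fin 1 → UU)) j 0, fun j => mem_K4.1 v.2 j 0⟩
  map_add' v w := rfl
  map_smul' L v := by
    apply Subtype.ext
    refine Win.ext' fun j => ?_
    change (∑ i, L.1 j i • (v : Win (Fin 1 → UU)) i) 0 =
      ∑ i, L.1 j i • (v : Win (Fin 1 → UU)) i 0
    rw [Finset.sum_apply]
    rfl

theorem piK4_apply (v : K4 0) (j : Fin 5) :
    (piK4 v : Win UU) j = (v : Win (Fin 1 → UU)) j 0 := rfl

/-- coordinates of `K3 0` -/
noncomputable def coK3 (x : Fin 4) (v : K3 0) : FM.U.win 3 :=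
  ⟨fun j => (v : Win (Fin 4 → Fin 1 → UU)) j x 0, fun j => mem_K3.1 v.2 j x 0⟩

theorem coK3_apply (x : Fin 4) (v : K3 0) (j : Fin 5) :
    (coK3 x v : Win UU) j = (v : Win (Fin 4 → Fin 1 → UU)) j x 0 := rfl

theorem sum_iota (v : K3 0) : v = ∑ x, iota x (coK3 x v) := by
  apply Subtype.ext
  refine Win.ext' fun j => ?_
  rw [Submodule.coe_sum]
  have h : (∑ x, (iota x (coK3 x v) : Win (Fin 4 → Fin 1 → UU))) j =
      ∑ x, (iota x (coK3 x v) : Win (Fin 4 → Fin 1 → UU)) j :=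
    Finset.sum_apply (M := fun _ => Fin 4 → Fin 1 → UU) j Finset.univ _
  rw [h]
  ext t s
  rw [Finset.sum_apply, Finset.sum_apply, Finset.sum_eq_single t]
  · rw [iota_apply, Pi.single_eq_same, coK3_apply]
    have : s = 0 := Subsingleton.elim (α := Fin 1) _ _
    rw [this]
  · intro x _ hx
    rw [iota_apply, Pi.single_eq_of_ne (Ne.symm hx)]
    rfl
  · intro h
    exact absurd (Finset.mem_univ _) h

/-- the element `e_4` of `K4 0` -/
noncomputable def e4 : K4 0 :=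
  ⟨fun j _ => if j = 4 then 1 else 0, mem_K4.2 fun j s => by
    by_cases h : j = 4
    · subst h
      simpa using one_mem_Fil
    · simp only [if_neg h]
      exact zero_mem _⟩

theorem base : ¬ ∃ r : K3 0 →ₗ[Lam] K4 0, r ∘ₗ dd4 0 = LinearMap.id := by
  rintro ⟨r, hr⟩
  choose w hw hf using fun x : Fin 4 => hom_col3_col4 (piK4 ∘ₗ r ∘ₗ iota x)
  have h1 : r (dd4 0 e4) = e4 := by
    have := LinearMap.congr_fun hr e4
    simpa using this
  have h2 : (piK4 (r (dd4 0 e4)) : Win UU) 4 = 1 := by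
    rw [h1, piK4_apply]
    simp [e4]
  have h3 : (piK4 (r (dd4 0 e4)) : Win UU) 4 =
      ∑ x, (coK3 x (dd4 0 e4) : Win UU) 4 * w x := by
    conv_lhs => rw [sum_iota (dd4 0 e4)]
    rw [map_sum, map_sum, Submodule.coe_sum]
    have h : (∑ x, (piK4 (r (iota x (coK3 x (dd4 0 e4)))) : Win UU)) 4 =
        ∑ x, (piK4 (r (iota x (coK3 x (dd4 0 e4)))) : Win UU) 4 :=
      Finset.sum_apply (M := fun _ => UU) 4 Finset.univ _
    rw [h]
    exact Finset.sum_congr rfl fun x _ => hf x _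
  rw [h2, Fin.sum_univ_four] at h3
  exact one_ne_sum_mul (fun x => (coK3 x (dd4 0 e4) : Win UU) 4) w hw h3.symm

/-! ## projectivity -/

theorem projK (n : ℕ) (i : Fin 5) : Module.Projective Lam ((FN n).win ((i : ℕ) : ℤ)) := by
  have := FM.projective_U i
  exact FM.projective_pi FM.U (Fin (n + 1)) ((i : ℕ) : ℤ)

theorem projK_pi (n : ℕ) (κ : Type) [Finite κ] (i : Fin 5) :
    Module.Projective Lam (((FN n).pi κ).win ((i : ℕ) : ℤ)) := by
  have := projK n i
  exact FM.projective_pi (FN n) κ ((i : ℕ) : ℤ)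

/-! ## the sequence `0 → F_n → E_n → F_{n+1} → 0` -/

theorem mapI_injective (n : ℕ) : Function.Injective (Win.map (iE n)) := by
  intro v w h
  refine Win.ext' fun j => ?_
  have h1 : EM.mk (0 : Fin (n + 1) → ℂ) (v j) = EM.mk 0 (w j) := congrFun h j
  exact congrArg EM.snd h1

theorem mapQ_surjective (n : ℕ) : Function.Surjective (Win.map (qE n)) := by
  intro v
  refine ⟨fun j => EM.mk (v j) 0, ?_⟩
  exact Win.ext' fun j => rfl

theorem mapIQ (n : ℕ) : LinearMap.range (Win.map (iE n)) = LinearMap.ker (Win.map (qE n)) := by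
  apply le_antisymm
  · rintro _ ⟨v, rfl⟩
    rw [LinearMap.mem_ker]
    exact Win.ext' fun j => rfl
  · intro v hv
    rw [LinearMap.mem_ker] at hv
    refine ⟨fun j => (v j).snd, ?_⟩
    refine Win.ext' fun j => ?_
    have h1 : (v j).fst = 0 := congrFun hv j
    exact EM.ext' h1.symm rfl

theorem final (n : ℕ) :
    (¬ HasProjectiveDimensionLT (ModuleCat.of Lam (FF (n + 1))) (2 * n + 4)) ∧
      ∃ k, HasProjectiveDimensionLT (ModuleCat.of Lam (FF (n + 1))) k := by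
  refine pd_skeleton (R := Lam) (fun n => FF n) (fun n => Win (EM n)) (fun n => K0 n)
    (fun n => K1 n) (fun n => K2 n) (fun n => K3 n) (fun n => K4 n)
    (fun n => projK n 0) (fun n => projK_pi n (Fin 4) 1) (fun n => projK_pi n (Fin 6) 2)
    (fun n => projK_pi n (Fin 4) 3) (fun n => projK n 4)
    (fun n => Win.map (iE n)) (fun n => Win.map (qE n)) mapI_injective mapQ_surjective mapIQ
    ee dd1 dd2 dd3 dd4 ee_surjective dd_exact0 dd1_dd2 zmap zmap_injective dd_exact1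
    dd_exact2 dd_exact3 dd4_injective ?_ base n
  exact ⟨fun v w => Win.ext' fun j => funext fun s => Fin.elim0 s⟩

end Crest.Agent.FD
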