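import Crest.Agent.FD.Sle
import Crest.Agent.FD.CE

/-! # S0268 module F: filtered exactness of the Koszul-type complex on `ι → S` -/

set_option autoImplicit false
set_option linter.unusedSimpArgs false
set_option linter.unusedVariables false

namespace Crest.Agent.FD

open MvPolynomial

namespace LemAaux

/-- the Euler operator -/
noncomputable def EU (p : S) : S :=
  X 0 * pderiv 0 p + X 1 * pderiv 1 p + X 2 * pderiv 2 p + X 3 * pderiv 3 p

theorem sum_eq (d : Fin 4 →₀ ℕ) : (d.sum fun _ e => e) = d 0 + d 1 + d 2 + d 3 := by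
  rw [Finsupp.sum_fintype _ _ (fun _ => rfl), Fin.sum_univ_four]

theorem monomial_mem {m : ℤ} (d : Fin 4 →₀ ℕ) (c : ℂ)
    (h : ((d.sum fun _ e => e : ℕ) : ℤ) ≤ m) : (monomial d c : S) ∈ Sle m := by
  rw [mem_Sle]
  intro e he
  have := support_monomial_subset he
  rw [Finset.mem_singleton] at this
  rw [this]; exact h

theorem euler_mem {m : ℤ} {p : S} (hp : p ∈ Sle m) : EU p - C (m : ℂ) * p ∈ Sle (m - 1) := by
  refine Sle_induction (m := m) (P := fun p => EU p - C (m : ℂ) * p ∈ Sle (m - 1)) ?_ ?_ ?_ hp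
  · simp [EU]
  · intro p q hp hq
    have : EU (p + q) - C (m : ℂ) * (p + q)
        = (EU p - C (m : ℂ) * p) + (EU q - C (m : ℂ) * q) := by
      simp only [EU, map_add]; ring
    rw [this]
    exact add_mem hp hq
  · intro d c hd
    have h1 : EU (monomial d c) = C ((d.sum fun _ e => e : ℕ) : ℂ) * monomial d c := by
      rw [sum_eq]
      simp only [EU, X_mul_pderiv_monomial, nsmul_eq_mul, Nat.cast_add, map_add, map_natCast]
      ring
    rw [h1, ← sub_mul, ← map_sub]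
    by_cases h : ((d.sum fun _ e => e : ℕ) : ℤ) = m
    · have h2 : ((d.sum fun _ e => e : ℕ) : ℂ) - (m : ℂ) = 0 := by
        rw [← h]; push_cast; ring
      rw [h2]; simp
    · have h3 : ((d.sum fun _ e => e : ℕ) : ℤ) ≤ m - 1 := by omega
      rw [C_mul_monomial]
      exact monomial_mem _ _ h3

theorem pd_X_mul (i j : Fin 4) (p : S) :
    pderiv i (X j * p) = (if i = j then p else 0) + X j * pderiv i p := by
  rw [Derivation.leibniz, smul_eq_mul, smul_eq_mul]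
  by_cases h : i = j
  · subst h; simp; ring
  · rw [pderiv_X_of_ne (Ne.symm h)]; simp [h]

/-- the general filtered exactness induction -/
theorem filt_exact {M₁ M₂ : Type*} [AddCommGroup M₁] [Module ℂ M₁] [AddCommGroup M₂]
    [Module ℂ M₂] (D : M₂ →ₗ[ℂ] M₁) (PA : ℤ → M₁ → Prop) (PB : ℤ → M₂ → Prop) (Z : M₁ → Prop)
    (hPB0 : ∀ m, PB m 0) (hPB : ∀ m g g', PB (m - 1) g → PB m g' → PB m (g + g'))
    (hPA : ∀ m < 0, ∀ f, PA m f → f = 0)
    (hZ : ∀ f g, Z f → Z (f - D g))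
    (step : ∀ m, 0 ≤ m → ∀ f, PA m f → Z f → ∃ g, PB (m - 1) g ∧ PA (m - 1) (f - D g))
    (m : ℤ) (f : M₁) (hf : PA m f) (hfZ : Z f) : ∃ g, PB (m - 1) g ∧ f = D g := by
  obtain ⟨n, hn⟩ : ∃ n : ℕ, m < n := ⟨(m + 1).toNat, by omega⟩
  induction n generalizing m f with
  | zero => exact ⟨0, hPB0 _, by rw [map_zero]; exact hPA m (by simpa using hn) f hf⟩
  | succ n ih =>
    by_cases hm : m < 0
    · exact ⟨0, hPB0 _, by rw [map_zero]; exact hPA m hm f hf⟩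
    · obtain ⟨g, hg, hfg⟩ := step m (by omega) f hf hfZ
      obtain ⟨g', hg', hfg'⟩ := ih (m - 1) (f - D g) hfg (hZ f g hfZ) (by push_cast at hn; omega)
      refine ⟨g' + g, hPB _ _ _ hg' hg, ?_⟩
      rw [map_add, ← hfg']; abel

end LemAaux

open LemAaux

section
variable {ι : Type*} (r : Fin 4 → (ι → S) →ₗ[ℂ] (ι → S))
  (hdeg : ∀ (x : Fin 4) (m : ℤ) (f : ι → S), (∀ s, f s ∈ Sle m) →
    ∀ s, r x f s - X x * f s ∈ Sle m)
  (hop : IsOp r)

theorem smul_inv_aux {m : ℤ} {c : ℂ} (hc : c ≠ 0) {p q : S}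
    (h : C c * p - q ∈ Sle m) : p - c⁻¹ • q ∈ Sle m := by
  have : p - c⁻¹ • q = c⁻¹ • (C c * p - q) := by
    rw [smul_sub, ← smul_eq_C_mul, smul_smul, inv_mul_cancel₀ hc, one_smul]
  rw [this]
  exact Submodule.smul_mem _ _ h

theorem Sle_le1 (m : ℤ) : Sle (m - 1) ≤ Sle m := Sle_mono (by omega)

theorem cast_ne {m : ℤ} (hm : 0 ≤ m) (k : ℕ) (hk : 0 < k) : (m : ℂ) + k ≠ 0 := by
  have : (((m + k : ℤ)) : ℂ) ≠ 0 := by
    rw [Int.cast_ne_zero]; omega
  simpa using this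

/-- derivative tuple -/
noncomputable def pd (x : Fin 4) (f : ι → S) : ι → S := fun s => pderiv x (f s)

theorem pd_mem {m : ℤ} {f : ι → S} (hf : ∀ s, f s ∈ Sle m) (x : Fin 4) (s : ι) :
    pd x f s ∈ Sle (m - 1) := pderiv_mem_Sle (hf s) x

include hdeg in
theorem lemA0 (m : ℤ) (f : ι → S) (hf : ∀ s, f s ∈ Sle m) :
    ∃ (c : ι → ℂ) (g : Fin 4 → ι → S), (∀ t s, g t s ∈ Sle (m - 1)) ∧
      f = (fun s => C (c s)) + D1 r g := by
  obtain ⟨n, hn⟩ : ∃ n : ℕ, m < n := ⟨(m + 1).toNat, by omega⟩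
  induction n generalizing m f with
  | zero =>
    refine ⟨0, 0, fun t s => zero_mem _, ?_⟩
    rw [map_zero]
    funext s
    simpa using eq_zero_of_mem_Sle (by simpa using hn) (hf s)
  | succ n ih =>
    by_cases hm : m < 0
    · refine ⟨0, 0, fun t s => zero_mem _, ?_⟩
      rw [map_zero]
      funext s
      simpa using eq_zero_of_mem_Sle hm (hf s)
    by_cases hm0 : m = 0
    · subst hm0
      choose c hc using fun s => exists_C_of_mem_Sle_zero (hf s)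
      refine ⟨c, 0, fun t s => zero_mem _, ?_⟩
      rw [map_zero]
      funext s
      simpa using hc s
    · have hmc : (m : ℂ) ≠ 0 := by exact_mod_cast hm0
      let g : Fin 4 → ι → S := fun x => pd x f
      have hg : ∀ t s, g t s ∈ Sle (m - 1) := fun t s => pd_mem hf t s
      have key : ∀ s, (f - D1 r ((m : ℂ)⁻¹ • g)) s ∈ Sle (m - 1) := by
        intro s
        rw [map_smul]
        refine smul_inv_aux hmc ?_
        have e : C (m : ℂ) * f s - D1 r g s = -(EU (f s) - C (m : ℂ) * f s)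
            - (r 0 (g 0) s - X 0 * g 0 s) - (r 1 (g 1) s - X 1 * g 1 s)
            - (r 2 (g 2) s - X 2 * g 2 s) - (r 3 (g 3) s - X 3 * g 3 s) := by
          simp only [D1_apply, Pi.add_apply, EU, g, pd]
          ring
        rw [e]
        exact sub_mem (sub_mem (sub_mem (sub_mem (neg_mem (euler_mem (hf s)))
          (hdeg 0 _ _ (hg 0) s)) (hdeg 1 _ _ (hg 1) s)) (hdeg 2 _ _ (hg 2) s))
          (hdeg 3 _ _ (hg 3) s)
      obtain ⟨c, g', hg', h'⟩ := ih (m - 1) _ key (by push_cast at hn; omega)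
      refine ⟨c, g' + (m : ℂ)⁻¹ • g, fun t s => ?_, ?_⟩
      · exact add_mem (Sle_le1 _ (hg' t s)) (Submodule.smul_mem _ _ (hg t s))
      · rw [map_add, ← add_assoc, ← h']; abel

include hdeg hop in
theorem lemA1 (m : ℤ) (f : Fin 4 → ι → S) (hf : ∀ t s, f t s ∈ Sle m) (h : D1 r f = 0) :
    ∃ g : Fin 6 → ι → S, (∀ t s, g t s ∈ Sle (m - 1)) ∧ f = D2 r g := by
  refine filt_exact (D2 r) (fun m f => ∀ t s, f t s ∈ Sle m) (fun m g => ∀ t s, g t s ∈ Sle m)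
    (fun f => D1 r f = 0) (fun m t s => zero_mem _)
    (fun m g g' hg hg' t s => add_mem (Sle_le1 _ (hg t s)) (hg' t s))
    (fun m hm f hf => by funext t s; exact eq_zero_of_mem_Sle hm (hf t s))
    (fun f g hf => by rw [map_sub, D1_D2 r hop, hf, sub_zero]) ?_ m f hf h
  clear h hf f m
  intro m hm f hf h
  let g : Fin 6 → ι → S := ![pd 0 (f 1) - pd 1 (f 0), pd 0 (f 2) - pd 2 (f 0),
    pd 0 (f 3) - pd 3 (f 0), pd 1 (f 2) - pd 2 (f 1), pd 1 (f 3) - pd 3 (f 1),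
    pd 2 (f 3) - pd 3 (f 2)]
  have hg : ∀ t s, g t s ∈ Sle (m - 1) := by
    intro t s
    fin_cases t <;> exact sub_mem (pd_mem (hf _) _ s) (pd_mem (hf _) _ s)
  -- the sum `∑ X_x f_x`
  let σ : ι → S := fun s => X 0 * f 0 s + X 1 * f 1 s + X 2 * f 2 s + X 3 * f 3 s
  have hσ : ∀ s, σ s ∈ Sle m := by
    intro s
    have h0 : (r 0 (f 0) s + r 1 (f 1) s + r 2 (f 2) s + r 3 (f 3) s) = 0 := congrFun h s
    have e : σ s = -(r 0 (f 0) s - X 0 * f 0 s) - (r 1 (f 1) s - X 1 * f 1 s)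
        - (r 2 (f 2) s - X 2 * f 2 s) - (r 3 (f 3) s - X 3 * f 3 s) := by
      simp only [σ]
      linear_combination h0
    rw [e]
    exact sub_mem (sub_mem (sub_mem (neg_mem (hdeg 0 _ _ (hf 0) s)) (hdeg 1 _ _ (hf 1) s))
      (hdeg 2 _ _ (hf 2) s)) (hdeg 3 _ _ (hf 3) s)
  have hmc : (m : ℂ) + (1 : ℕ) ≠ 0 := cast_ne hm 1 one_pos
  refine ⟨((m : ℂ) + (1 : ℕ))⁻¹ • g, fun t s => Submodule.smul_mem _ _ (hg t s), fun t s => ?_⟩
  rw [map_smul]
  refine smul_inv_aux hmc ?_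
  have hr : ∀ (x : Fin 4) (t : Fin 6), r x (g t) s - X x * g t s ∈ Sle (m - 1) :=
    fun x t => hdeg x _ _ (hg t) s
  have hE : ∀ t, EU (f t s) - C (m : ℂ) * f t s ∈ Sle (m - 1) := fun t => euler_mem (hf t s)
  have hσ' : ∀ x, pd x σ s ∈ Sle (m - 1) := fun x => pd_mem hσ x s
  have hC : C ((m : ℂ) + (1 : ℕ)) = (C (m : ℂ) + 1 : S) := by simp
  fin_cases t
  · have e : C ((m : ℂ) + (1 : ℕ)) * f 0 s - D2 r g 0 s =
        (r 1 (g 0) s - X 1 * g 0 s) + (r 2 (g 1) s - X 2 * g 1 s) + (r 3 (g 2) s - X 3 * g 2 s)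
        + g 3 s - (EU (f 0 s) - C (m : ℂ) * f 0 s) + pd 0 σ s := by
      have g0 : g 0 s = pderiv 0 (f 1 s) - pderiv 1 (f 0 s) := rfl
      have g1 : g 1 s = pderiv 0 (f 2 s) - pderiv 2 (f 0 s) := rfl
      have g2 : g 2 s = pderiv 0 (f 3 s) - pderiv 3 (f 0 s) := rfl
      simp only [hC, D2_apply_0, Pi.sub_apply, Pi.neg_apply, EU, g0, g1, g2, pd, σ, map_add, pd_X_mul,
        Fin.isValue, Fin.reduceEq, reduceIte, hC]
      ring
    show C ((m : ℂ) + (1 : ℕ)) * f 0 s - D2 r g 0 s ∈ Sle (m - 1)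
    rw [e]
    exact add_mem (sub_mem (add_mem (add_mem (add_mem (hr _ _) (hr _ _)) (hr _ _)) (hg _ s))
      (hE _)) (hσ' _)
  · have e : C ((m : ℂ) + (1 : ℕ)) * f 1 s - D2 r g 1 s =
        -(r 0 (g 0) s - X 0 * g 0 s) + (r 2 (g 3) s - X 2 * g 3 s) + (r 3 (g 4) s - X 3 * g 4 s)
        + g 0 s + g 4 s - (EU (f 1 s) - C (m : ℂ) * f 1 s) + pd 1 σ s := by
      have g0 : g 0 s = pderiv 0 (f 1 s) - pderiv 1 (f 0 s) := rfl
      have g3 : g 3 s = pderiv 1 (f 2 s) - pderiv 2 (f 1 s) := rfl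
      have g4 : g 4 s = pderiv 1 (f 3 s) - pderiv 3 (f 1 s) := rfl
      simp only [hC, D2_apply_1, Pi.sub_apply, Pi.neg_apply, EU, g0, g3, g4, pd, σ, map_add, pd_X_mul,
        Fin.isValue, Fin.reduceEq, reduceIte, hC]
      ring
    show C ((m : ℂ) + (1 : ℕ)) * f 1 s - D2 r g 1 s ∈ Sle (m - 1)
    rw [e]
    exact add_mem (sub_mem (add_mem (add_mem (add_mem (add_mem (neg_mem (hr _ _)) (hr _ _))
      (hr _ _)) (hg _ s)) (hg _ s)) (hE _)) (hσ' _)
  · have e : C ((m : ℂ) + (1 : ℕ)) * f 2 s - D2 r g 2 s =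
        -(r 0 (g 1) s - X 0 * g 1 s) - (r 1 (g 3) s - X 1 * g 3 s) + (r 3 (g 5) s - X 3 * g 5 s)
        - g 1 s - g 5 s - (EU (f 2 s) - C (m : ℂ) * f 2 s) + pd 2 σ s := by
      have g1 : g 1 s = pderiv 0 (f 2 s) - pderiv 2 (f 0 s) := rfl
      have g3 : g 3 s = pderiv 1 (f 2 s) - pderiv 2 (f 1 s) := rfl
      have g5 : g 5 s = pderiv 2 (f 3 s) - pderiv 3 (f 2 s) := rfl
      simp only [hC, D2_apply_2, Pi.sub_apply, Pi.add_apply, EU, g1, g3, g5, pd, σ, map_add, pd_X_mul,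
        Fin.isValue, Fin.reduceEq, reduceIte, hC]
      ring
    show C ((m : ℂ) + (1 : ℕ)) * f 2 s - D2 r g 2 s ∈ Sle (m - 1)
    rw [e]
    exact add_mem (sub_mem (sub_mem (sub_mem (add_mem (sub_mem (neg_mem (hr _ _)) (hr _ _))
      (hr _ _)) (hg _ s)) (hg _ s)) (hE _)) (hσ' _)
  · have e : C ((m : ℂ) + (1 : ℕ)) * f 3 s - D2 r g 3 s =
        -(r 0 (g 2) s - X 0 * g 2 s) - (r 1 (g 4) s - X 1 * g 4 s) - (r 2 (g 5) s - X 2 * g 5 s)
        - g 3 s - (EU (f 3 s) - C (m : ℂ) * f 3 s) + pd 3 σ s := by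
      have g2 : g 2 s = pderiv 0 (f 3 s) - pderiv 3 (f 0 s) := rfl
      have g4 : g 4 s = pderiv 1 (f 3 s) - pderiv 3 (f 1 s) := rfl
      have g5 : g 5 s = pderiv 2 (f 3 s) - pderiv 3 (f 2 s) := rfl
      simp only [hC, D2_apply_3, Pi.sub_apply, Pi.add_apply, EU, g2, g4, g5, pd, σ, map_add, pd_X_mul,
        Fin.isValue, Fin.reduceEq, reduceIte, hC]
      ring
    show C ((m : ℂ) + (1 : ℕ)) * f 3 s - D2 r g 3 s ∈ Sle (m - 1)
    rw [e]
    exact add_mem (sub_mem (sub_mem (sub_mem (sub_mem (neg_mem (hr _ _)) (hr _ _))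
      (hr _ _)) (hg _ s)) (hE _)) (hσ' _)

set_option maxHeartbeats 1000000 in
include hdeg hop in
theorem lemA2 (m : ℤ) (f : Fin 6 → ι → S) (hf : ∀ t s, f t s ∈ Sle m) (h : D2 r f = 0) :
    ∃ g : Fin 4 → ι → S, (∀ t s, g t s ∈ Sle (m - 1)) ∧ f = D3 r g := by
  refine filt_exact (D3 r) (fun m f => ∀ t s, f t s ∈ Sle m) (fun m g => ∀ t s, g t s ∈ Sle m)
    (fun f => D2 r f = 0) (fun m t s => zero_mem _)
    (fun m g g' hg hg' t s => add_mem (Sle_le1 _ (hg t s)) (hg' t s))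
    (fun m hm f hf => by funext t s; exact eq_zero_of_mem_Sle hm (hf t s))
    (fun f g hf => by rw [map_sub, D2_D3 r hop, hf, sub_zero]) ?_ m f hf h
  clear h hf f m
  intro m hm f hf h
  let g : Fin 4 → ι → S := ![pd 0 (f 3) - pd 1 (f 1) + pd 2 (f 0),
    pd 0 (f 4) - pd 1 (f 2) + pd 3 (f 0), pd 0 (f 5) - pd 2 (f 2) + pd 3 (f 1),
    pd 1 (f 5) - pd 2 (f 4) + pd 3 (f 3)]
  have hg : ∀ t s, g t s ∈ Sle (m - 1) := by
    intro t s
    fin_cases t <;>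
      exact add_mem (sub_mem (pd_mem (hf _) _ s) (pd_mem (hf _) _ s)) (pd_mem (hf _) _ s)
  let σ : Fin 4 → ι → S := ![
    fun s => -(X 1 * f 0 s) - X 2 * f 1 s - X 3 * f 2 s,
    fun s => X 0 * f 0 s - X 2 * f 3 s - X 3 * f 4 s,
    fun s => X 0 * f 1 s + X 1 * f 3 s - X 3 * f 5 s,
    fun s => X 0 * f 2 s + X 1 * f 4 s + X 2 * f 5 s]
  have hσ : ∀ x s, σ x s ∈ Sle m := by
    intro x s
    have hr : ∀ (x : Fin 4) (t : Fin 6), r x (f t) s - X x * f t s ∈ Sle m :=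
      fun x t => hdeg x _ _ (hf t) s
    fin_cases x
    · have h0 : D2 r f 0 s = 0 := congrFun (congrFun h 0) s
      simp only [D2_apply_0, Pi.sub_apply, Pi.neg_apply, Pi.add_apply] at h0
      have e : σ 0 s = (r 1 (f 0) s - X 1 * f 0 s) + (r 2 (f 1) s - X 2 * f 1 s)
          + (r 3 (f 2) s - X 3 * f 2 s) + f 3 s := by
        show -(X 1 * f 0 s) - X 2 * f 1 s - X 3 * f 2 s = _
        linear_combination h0
      show σ 0 s ∈ Sle m
      rw [e]
      exact add_mem (add_mem (add_mem (hr _ _) (hr _ _)) (hr _ _)) (hf _ s)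
    · have h0 : D2 r f 1 s = 0 := congrFun (congrFun h 1) s
      simp only [D2_apply_1, Pi.sub_apply, Pi.neg_apply, Pi.add_apply] at h0
      have e : σ 1 s = -(r 0 (f 0) s - X 0 * f 0 s) + (r 2 (f 3) s - X 2 * f 3 s)
          + (r 3 (f 4) s - X 3 * f 4 s) + f 0 s + f 4 s := by
        show X 0 * f 0 s - X 2 * f 3 s - X 3 * f 4 s = _
        linear_combination h0
      show σ 1 s ∈ Sle m
      rw [e]
      exact add_mem (add_mem (add_mem (add_mem (neg_mem (hr _ _)) (hr _ _)) (hr _ _)) (hf _ s))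
        (hf _ s)
    · have h0 : D2 r f 2 s = 0 := congrFun (congrFun h 2) s
      simp only [D2_apply_2, Pi.sub_apply, Pi.neg_apply, Pi.add_apply] at h0
      have e : σ 2 s = -(r 0 (f 1) s - X 0 * f 1 s) - (r 1 (f 3) s - X 1 * f 3 s)
          + (r 3 (f 5) s - X 3 * f 5 s) - f 1 s - f 5 s := by
        show X 0 * f 1 s + X 1 * f 3 s - X 3 * f 5 s = _
        linear_combination h0
      show σ 2 s ∈ Sle m
      rw [e]
      exact sub_mem (sub_mem (add_mem (sub_mem (neg_mem (hr _ _)) (hr _ _)) (hr _ _)) (hf _ s))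
        (hf _ s)
    · have h0 : D2 r f 3 s = 0 := congrFun (congrFun h 3) s
      simp only [D2_apply_3, Pi.sub_apply, Pi.neg_apply, Pi.add_apply] at h0
      have e : σ 3 s = -(r 0 (f 2) s - X 0 * f 2 s) - (r 1 (f 4) s - X 1 * f 4 s)
          - (r 2 (f 5) s - X 2 * f 5 s) - f 3 s := by
        show X 0 * f 2 s + X 1 * f 4 s + X 2 * f 5 s = _
        linear_combination h0
      show σ 3 s ∈ Sle m
      rw [e]
      exact sub_mem (sub_mem (sub_mem (neg_mem (hr _ _)) (hr _ _)) (hr _ _)) (hf _ s)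
  have hmc : (m : ℂ) + (2 : ℕ) ≠ 0 := cast_ne hm 2 two_pos
  refine ⟨((m : ℂ) + (2 : ℕ))⁻¹ • g, fun t s => Submodule.smul_mem _ _ (hg t s), fun t s => ?_⟩
  rw [map_smul]
  refine smul_inv_aux hmc ?_
  have hr : ∀ (x : Fin 4) (t : Fin 4), r x (g t) s - X x * g t s ∈ Sle (m - 1) :=
    fun x t => hdeg x _ _ (hg t) s
  have hE : ∀ t, EU (f t s) - C (m : ℂ) * f t s ∈ Sle (m - 1) := fun t => euler_mem (hf t s)
  have hσ' : ∀ y x, pderiv x (σ y s) ∈ Sle (m - 1) := fun y x => pd_mem (hσ y) x s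
  have hC : C ((m : ℂ) + (2 : ℕ)) = (C (m : ℂ) + 2 : S) := by
    rw [map_add, map_natCast]; norm_num
  have g0 : g 0 s = pderiv 0 (f 3 s) - pderiv 1 (f 1 s) + pderiv 2 (f 0 s) := rfl
  have g1 : g 1 s = pderiv 0 (f 4 s) - pderiv 1 (f 2 s) + pderiv 3 (f 0 s) := rfl
  have g2 : g 2 s = pderiv 0 (f 5 s) - pderiv 2 (f 2 s) + pderiv 3 (f 1 s) := rfl
  have g3 : g 3 s = pderiv 1 (f 5 s) - pderiv 2 (f 4 s) + pderiv 3 (f 3 s) := rfl
  have s0 : σ 0 s = -(X 1 * f 0 s) - X 2 * f 1 s - X 3 * f 2 s := rfl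
  have s1 : σ 1 s = X 0 * f 0 s - X 2 * f 3 s - X 3 * f 4 s := rfl
  have s2 : σ 2 s = X 0 * f 1 s + X 1 * f 3 s - X 3 * f 5 s := rfl
  have s3 : σ 3 s = X 0 * f 2 s + X 1 * f 4 s + X 2 * f 5 s := rfl
  fin_cases t
  · have e : C ((m : ℂ) + (2 : ℕ)) * f 0 s - D3 r g 0 s =
        -(r 2 (g 0) s - X 2 * g 0 s) - (r 3 (g 1) s - X 3 * g 1 s) - g 1 s
        - (EU (f 0 s) - C (m : ℂ) * f 0 s) + pderiv 0 (σ 1 s) - pderiv 1 (σ 0 s) := by
      simp only [hC, D3_apply_0, Pi.sub_apply, Pi.neg_apply, Pi.add_apply, EU, g0, g1, g2, g3,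
        s0, s1, s2, s3, map_add, map_sub, map_neg, pd_X_mul, Fin.isValue, Fin.reduceEq, reduceIte]
      ring
    show C ((m : ℂ) + (2 : ℕ)) * f 0 s - D3 r g 0 s ∈ Sle (m - 1)
    rw [e]
    exact sub_mem (add_mem (sub_mem (sub_mem (sub_mem (neg_mem (hr _ _)) (hr _ _)) (hg _ s)) (hE _)) (hσ' _ _)) (hσ' _ _)
  · have e : C ((m : ℂ) + (2 : ℕ)) * f 1 s - D3 r g 1 s =
        (r 1 (g 0) s - X 1 * g 0 s) - (r 3 (g 2) s - X 3 * g 2 s) + g 2 s
        - (EU (f 1 s) - C (m : ℂ) * f 1 s) + pderiv 0 (σ 2 s) - pderiv 2 (σ 0 s) := by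
      simp only [hC, D3_apply_1, Pi.sub_apply, Pi.neg_apply, Pi.add_apply, EU, g0, g1, g2, g3,
        s0, s1, s2, s3, map_add, map_sub, map_neg, pd_X_mul, Fin.isValue, Fin.reduceEq, reduceIte]
      ring
    show C ((m : ℂ) + (2 : ℕ)) * f 1 s - D3 r g 1 s ∈ Sle (m - 1)
    rw [e]
    exact sub_mem (add_mem (sub_mem (add_mem (sub_mem (hr _ _) (hr _ _)) (hg _ s)) (hE _)) (hσ' _ _)) (hσ' _ _)
  · have e : C ((m : ℂ) + (2 : ℕ)) * f 2 s - D3 r g 2 s =
        g 0 s + (r 1 (g 1) s - X 1 * g 1 s) + (r 2 (g 2) s - X 2 * g 2 s) + g 3 s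
        - (EU (f 2 s) - C (m : ℂ) * f 2 s) + pderiv 0 (σ 3 s) - pderiv 3 (σ 0 s) := by
      simp only [hC, D3_apply_2, Pi.sub_apply, Pi.neg_apply, Pi.add_apply, EU, g0, g1, g2, g3,
        s0, s1, s2, s3, map_add, map_sub, map_neg, pd_X_mul, Fin.isValue, Fin.reduceEq, reduceIte]
      ring
    show C ((m : ℂ) + (2 : ℕ)) * f 2 s - D3 r g 2 s ∈ Sle (m - 1)
    rw [e]
    exact sub_mem (add_mem (sub_mem (add_mem (add_mem (add_mem (hg _ s) (hr _ _)) (hr _ _)) (hg _ s)) (hE _)) (hσ' _ _)) (hσ' _ _)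
  · have e : C ((m : ℂ) + (2 : ℕ)) * f 3 s - D3 r g 3 s =
        -(r 0 (g 0) s - X 0 * g 0 s) - (r 3 (g 3) s - X 3 * g 3 s)
        - (EU (f 3 s) - C (m : ℂ) * f 3 s) + pderiv 1 (σ 2 s) - pderiv 2 (σ 1 s) := by
      simp only [hC, D3_apply_3, Pi.sub_apply, Pi.neg_apply, Pi.add_apply, EU, g0, g1, g2, g3,
        s0, s1, s2, s3, map_add, map_sub, map_neg, pd_X_mul, Fin.isValue, Fin.reduceEq, reduceIte]
      ring
    show C ((m : ℂ) + (2 : ℕ)) * f 3 s - D3 r g 3 s ∈ Sle (m - 1)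
    rw [e]
    exact sub_mem (add_mem (sub_mem (sub_mem (neg_mem (hr _ _)) (hr _ _)) (hE _)) (hσ' _ _)) (hσ' _ _)
  · have e : C ((m : ℂ) + (2 : ℕ)) * f 4 s - D3 r g 4 s =
        -(r 0 (g 1) s - X 0 * g 1 s) + g 1 s + (r 2 (g 3) s - X 2 * g 3 s)
        - (EU (f 4 s) - C (m : ℂ) * f 4 s) + pderiv 1 (σ 3 s) - pderiv 3 (σ 1 s) := by
      simp only [hC, D3_apply_4, Pi.sub_apply, Pi.neg_apply, Pi.add_apply, EU, g0, g1, g2, g3,
        s0, s1, s2, s3, map_add, map_sub, map_neg, pd_X_mul, Fin.isValue, Fin.reduceEq, reduceIte]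
      ring
    show C ((m : ℂ) + (2 : ℕ)) * f 4 s - D3 r g 4 s ∈ Sle (m - 1)
    rw [e]
    exact sub_mem (add_mem (sub_mem (add_mem (add_mem (neg_mem (hr _ _)) (hg _ s)) (hr _ _)) (hE _)) (hσ' _ _)) (hσ' _ _)
  · have e : C ((m : ℂ) + (2 : ℕ)) * f 5 s - D3 r g 5 s =
        -(r 0 (g 2) s - X 0 * g 2 s) - g 2 s - (r 1 (g 3) s - X 1 * g 3 s)
        - (EU (f 5 s) - C (m : ℂ) * f 5 s) + pderiv 2 (σ 3 s) - pderiv 3 (σ 2 s) := by
      simp only [hC, D3_apply_5, Pi.sub_apply, Pi.neg_apply, Pi.add_apply, EU, g0, g1, g2, g3,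
        s0, s1, s2, s3, map_add, map_sub, map_neg, pd_X_mul, Fin.isValue, Fin.reduceEq, reduceIte]
      ring
    show C ((m : ℂ) + (2 : ℕ)) * f 5 s - D3 r g 5 s ∈ Sle (m - 1)
    rw [e]
    exact sub_mem (add_mem (sub_mem (sub_mem (sub_mem (neg_mem (hr _ _)) (hg _ s)) (hr _ _)) (hE _)) (hσ' _ _)) (hσ' _ _)

set_option maxHeartbeats 1000000 in
include hdeg hop in
theorem lemA3 (m : ℤ) (f : Fin 4 → ι → S) (hf : ∀ t s, f t s ∈ Sle m) (h : D3 r f = 0) :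
    ∃ g : ι → S, (∀ s, g s ∈ Sle (m - 1)) ∧ f = D4 r g := by
  refine filt_exact (D4 r) (fun m f => ∀ t s, f t s ∈ Sle m) (fun m g => ∀ s, g s ∈ Sle m)
    (fun f => D3 r f = 0) (fun m s => zero_mem _)
    (fun m g g' hg hg' s => add_mem (Sle_le1 _ (hg s)) (hg' s))
    (fun m hm f hf => by funext t s; exact eq_zero_of_mem_Sle hm (hf t s))
    (fun f g hf => by rw [map_sub, D3_D4 r hop, hf, sub_zero]) ?_ m f hf h
  clear h hf f m
  intro m hm f hf h
  let g : ι → S := pd 0 (f 3) - pd 1 (f 2) + pd 2 (f 1) - pd 3 (f 0)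
  have hg : ∀ s, g s ∈ Sle (m - 1) := fun s =>
    sub_mem (add_mem (sub_mem (pd_mem (hf _) _ s) (pd_mem (hf _) _ s)) (pd_mem (hf _) _ s))
      (pd_mem (hf _) _ s)
  let σ : Fin 6 → ι → S := ![
    fun s => X 2 * f 0 s + X 3 * f 1 s,
    fun s => -(X 1 * f 0 s) + X 3 * f 2 s,
    fun s => -(X 1 * f 1 s) - X 2 * f 2 s,
    fun s => X 0 * f 0 s + X 3 * f 3 s,
    fun s => X 0 * f 1 s - X 2 * f 3 s,
    fun s => X 0 * f 2 s + X 1 * f 3 s]
  have hσ : ∀ x s, σ x s ∈ Sle m := by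
    intro x s
    have hr : ∀ (x : Fin 4) (t : Fin 4), r x (f t) s - X x * f t s ∈ Sle m :=
      fun x t => hdeg x _ _ (hf t) s
    fin_cases x
    · have h0 : D3 r f 0 s = 0 := congrFun (congrFun h 0) s
      simp only [D3_apply_0, Pi.sub_apply, Pi.neg_apply, Pi.add_apply] at h0
      have e : σ 0 s = -(r 2 (f 0) s - X 2 * f 0 s) - (r 3 (f 1) s - X 3 * f 1 s) - f 1 s := by
        show X 2 * f 0 s + X 3 * f 1 s = _
        linear_combination h0
      show σ 0 s ∈ Sle m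
      rw [e]
      exact sub_mem (sub_mem (neg_mem (hr _ _)) (hr _ _)) (hf _ s)
    · have h0 : D3 r f 1 s = 0 := congrFun (congrFun h 1) s
      simp only [D3_apply_1, Pi.sub_apply, Pi.neg_apply, Pi.add_apply] at h0
      have e : σ 1 s = (r 1 (f 0) s - X 1 * f 0 s) - (r 3 (f 2) s - X 3 * f 2 s) + f 2 s := by
        show -(X 1 * f 0 s) + X 3 * f 2 s = _
        linear_combination h0
      show σ 1 s ∈ Sle m
      rw [e]
      exact add_mem (sub_mem (hr _ _) (hr _ _)) (hf _ s)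
    · have h0 : D3 r f 2 s = 0 := congrFun (congrFun h 2) s
      simp only [D3_apply_2, Pi.sub_apply, Pi.neg_apply, Pi.add_apply] at h0
      have e : σ 2 s = f 0 s + (r 1 (f 1) s - X 1 * f 1 s) + (r 2 (f 2) s - X 2 * f 2 s) + f 3 s := by
        show -(X 1 * f 1 s) - X 2 * f 2 s = _
        linear_combination h0
      show σ 2 s ∈ Sle m
      rw [e]
      exact add_mem (add_mem (add_mem (hf _ s) (hr _ _)) (hr _ _)) (hf _ s)
    · have h0 : D3 r f 3 s = 0 := congrFun (congrFun h 3) s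
      simp only [D3_apply_3, Pi.sub_apply, Pi.neg_apply, Pi.add_apply] at h0
      have e : σ 3 s = -(r 0 (f 0) s - X 0 * f 0 s) - (r 3 (f 3) s - X 3 * f 3 s) := by
        show X 0 * f 0 s + X 3 * f 3 s = _
        linear_combination h0
      show σ 3 s ∈ Sle m
      rw [e]
      exact sub_mem (neg_mem (hr _ _)) (hr _ _)
    · have h0 : D3 r f 4 s = 0 := congrFun (congrFun h 4) s
      simp only [D3_apply_4, Pi.sub_apply, Pi.neg_apply, Pi.add_apply] at h0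
      have e : σ 4 s = -(r 0 (f 1) s - X 0 * f 1 s) + f 1 s + (r 2 (f 3) s - X 2 * f 3 s) := by
        show X 0 * f 1 s - X 2 * f 3 s = _
        linear_combination h0
      show σ 4 s ∈ Sle m
      rw [e]
      exact add_mem (add_mem (neg_mem (hr _ _)) (hf _ s)) (hr _ _)
    · have h0 : D3 r f 5 s = 0 := congrFun (congrFun h 5) s
      simp only [D3_apply_5, Pi.sub_apply, Pi.neg_apply, Pi.add_apply] at h0
      have e : σ 5 s = -(r 0 (f 2) s - X 0 * f 2 s) - f 2 s - (r 1 (f 3) s - X 1 * f 3 s) := by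
        show X 0 * f 2 s + X 1 * f 3 s = _
        linear_combination h0
      show σ 5 s ∈ Sle m
      rw [e]
      exact sub_mem (sub_mem (neg_mem (hr _ _)) (hf _ s)) (hr _ _)
  have hmc : (m : ℂ) + (3 : ℕ) ≠ 0 := cast_ne hm 3 (by norm_num)
  refine ⟨((m : ℂ) + (3 : ℕ))⁻¹ • g, fun s => Submodule.smul_mem _ _ (hg s), fun t s => ?_⟩
  rw [map_smul]
  refine smul_inv_aux hmc ?_
  have hr : ∀ (x : Fin 4), r x g s - X x * g s ∈ Sle (m - 1) :=
    fun x => hdeg x _ _ hg s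
  have hE : ∀ t, EU (f t s) - C (m : ℂ) * f t s ∈ Sle (m - 1) := fun t => euler_mem (hf t s)
  have hσ' : ∀ y x, pderiv x (σ y s) ∈ Sle (m - 1) := fun y x => pd_mem (hσ y) x s
  have hC : C ((m : ℂ) + (3 : ℕ)) = (C (m : ℂ) + 3 : S) := by
    rw [map_add, map_natCast]; norm_num
  have g0 : g s = pderiv 0 (f 3 s) - pderiv 1 (f 2 s) + pderiv 2 (f 1 s) - pderiv 3 (f 0 s) := rfl
  have s0 : σ 0 s = X 2 * f 0 s + X 3 * f 1 s := rfl
  have s1 : σ 1 s = -(X 1 * f 0 s) + X 3 * f 2 s := rfl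
  have s2 : σ 2 s = -(X 1 * f 1 s) - X 2 * f 2 s := rfl
  have s3 : σ 3 s = X 0 * f 0 s + X 3 * f 3 s := rfl
  have s4 : σ 4 s = X 0 * f 1 s - X 2 * f 3 s := rfl
  have s5 : σ 5 s = X 0 * f 2 s + X 1 * f 3 s := rfl
  fin_cases t
  · have e : C ((m : ℂ) + (3 : ℕ)) * f 0 s - D4 r g 0 s =
        (r 3 g s - X 3 * g s) - (EU (f 0 s) - C (m : ℂ) * f 0 s) + pderiv 0 (σ 3 s)
        - pderiv 1 (σ 1 s) + pderiv 2 (σ 0 s) := by
      simp only [hC, D4_apply_0, Pi.sub_apply, Pi.neg_apply, Pi.add_apply, EU, g0,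
        s0, s1, s2, s3, s4, s5, map_add, map_sub, map_neg, pd_X_mul, Fin.isValue, Fin.reduceEq,
        reduceIte]
      ring
    show C ((m : ℂ) + (3 : ℕ)) * f 0 s - D4 r g 0 s ∈ Sle (m - 1)
    rw [e]
    exact add_mem (sub_mem (add_mem (sub_mem (hr _) (hE _)) (hσ' _ _)) (hσ' _ _)) (hσ' _ _)
  · have e : C ((m : ℂ) + (3 : ℕ)) * f 1 s - D4 r g 1 s =
        -(r 2 g s - X 2 * g s) - (EU (f 1 s) - C (m : ℂ) * f 1 s) + pderiv 0 (σ 4 s)
        - pderiv 1 (σ 2 s) + pderiv 3 (σ 0 s) := by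
      simp only [hC, D4_apply_1, Pi.sub_apply, Pi.neg_apply, Pi.add_apply, EU, g0,
        s0, s1, s2, s3, s4, s5, map_add, map_sub, map_neg, pd_X_mul, Fin.isValue, Fin.reduceEq,
        reduceIte]
      ring
    show C ((m : ℂ) + (3 : ℕ)) * f 1 s - D4 r g 1 s ∈ Sle (m - 1)
    rw [e]
    exact add_mem (sub_mem (add_mem (sub_mem (neg_mem (hr _)) (hE _)) (hσ' _ _)) (hσ' _ _)) (hσ' _ _)
  · have e : C ((m : ℂ) + (3 : ℕ)) * f 2 s - D4 r g 2 s =
        (r 1 g s - X 1 * g s) - (EU (f 2 s) - C (m : ℂ) * f 2 s) + pderiv 0 (σ 5 s)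
        - pderiv 2 (σ 2 s) + pderiv 3 (σ 1 s) := by
      simp only [hC, D4_apply_2, Pi.sub_apply, Pi.neg_apply, Pi.add_apply, EU, g0,
        s0, s1, s2, s3, s4, s5, map_add, map_sub, map_neg, pd_X_mul, Fin.isValue, Fin.reduceEq,
        reduceIte]
      ring
    show C ((m : ℂ) + (3 : ℕ)) * f 2 s - D4 r g 2 s ∈ Sle (m - 1)
    rw [e]
    exact add_mem (sub_mem (add_mem (sub_mem (hr _) (hE _)) (hσ' _ _)) (hσ' _ _)) (hσ' _ _)
  · have e : C ((m : ℂ) + (3 : ℕ)) * f 3 s - D4 r g 3 s =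
        -(r 0 g s - X 0 * g s) - (EU (f 3 s) - C (m : ℂ) * f 3 s) + pderiv 1 (σ 5 s)
        - pderiv 2 (σ 4 s) + pderiv 3 (σ 3 s) := by
      simp only [hC, D4_apply_3, Pi.sub_apply, Pi.neg_apply, Pi.add_apply, EU, g0,
        s0, s1, s2, s3, s4, s5, map_add, map_sub, map_neg, pd_X_mul, Fin.isValue, Fin.reduceEq,
        reduceIte]
      ring
    show C ((m : ℂ) + (3 : ℕ)) * f 3 s - D4 r g 3 s ∈ Sle (m - 1)
    rw [e]
    exact add_mem (sub_mem (add_mem (sub_mem (neg_mem (hr _)) (hE _)) (hσ' _ _)) (hσ' _ _)) (hσ' _ _)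

include hdeg in
theorem lemA4 (m : ℤ) (f : ι → S) (hf : ∀ s, f s ∈ Sle m) (h : D4 r f = 0) : f = 0 := by
  obtain ⟨n, hn⟩ : ∃ n : ℕ, m < n := ⟨(m + 1).toNat, by omega⟩
  induction n generalizing m with
  | zero => funext s; exact eq_zero_of_mem_Sle (by simpa using hn) (hf s)
  | succ n ih =>
    by_cases hm : m < 0
    · funext s; exact eq_zero_of_mem_Sle hm (hf s)
    refine ih (m - 1) (fun s => ?_) (by push_cast at hn; omega)
    have h0 : ∀ x s, r x f s = 0 := by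
      intro x s
      have e0 : D4 r f 0 s = 0 := congrFun (congrFun h 0) s
      have e1 : D4 r f 1 s = 0 := congrFun (congrFun h 1) s
      have e2 : D4 r f 2 s = 0 := congrFun (congrFun h 2) s
      have e3 : D4 r f 3 s = 0 := congrFun (congrFun h 3) s
      simp only [D4_apply_0, D4_apply_1, D4_apply_2, D4_apply_3, Pi.neg_apply, neg_eq_zero]
        at e0 e1 e2 e3
      fin_cases x
      · exact e3
      · exact e2
      · exact e1
      · exact e0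
    have hX : ∀ x, X x * f s ∈ Sle m := by
      intro x
      have := hdeg x m f hf s
      rw [h0, zero_sub] at this
      simpa using neg_mem this
    have hd : ∀ x y, pderiv y (X x * f s) ∈ Sle (m - 1) := fun x y => pderiv_mem_Sle (hX x) y
    have hmc : (m : ℂ) + (4 : ℕ) ≠ 0 := cast_ne (by omega) 4 (by norm_num)
    have hC : C ((m : ℂ) + (4 : ℕ)) = (C (m : ℂ) + 4 : S) := by
      rw [map_add, map_natCast]; norm_num
    have e : C ((m : ℂ) + (4 : ℕ)) * f s - 0 = -(EU (f s) - C (m : ℂ) * f s)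
        + pderiv 0 (X 0 * f s) + pderiv 1 (X 1 * f s) + pderiv 2 (X 2 * f s)
        + pderiv 3 (X 3 * f s) := by
      simp only [hC, EU, pd_X_mul, reduceIte]
      ring
    have e2 : f s - ((m : ℂ) + (4 : ℕ))⁻¹ • (0 : S) ∈ Sle (m - 1) := by
      refine smul_inv_aux hmc ?_
      rw [e]
      exact add_mem (add_mem (add_mem (add_mem (neg_mem (euler_mem (hf s))) (hd _ _)) (hd _ _))
        (hd _ _)) (hd _ _)
    simpa using e2

end

end Crest.Agent.FD
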