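import Crest.Agent.FD.Ops

/-! # S0268 module G: strictness of `T` -/

set_option autoImplicit false

namespace Crest.Agent.FD

open MvPolynomial

/-- the determinant `X0 X3 - X1 X2` has total degree `2` -/
theorem det_deg : (2 : ℤ) ≤ ((X 0 * X 3 - X 1 * X 2 : S).totalDegree : ℤ) := by
  have hmem : (Finsupp.single (0 : Fin 4) 1 + Finsupp.single 3 1 : Fin 4 →₀ ℕ)
      ∈ (X 0 * X 3 - X 1 * X 2 : S).support := by
    rw [MvPolynomial.mem_support_iff, MvPolynomial.coeff_sub]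
    have e1 : (X 0 * X 3 : S) = monomial (Finsupp.single (0 : Fin 4) 1 + Finsupp.single 3 1) 1 := by
      simp [X, monomial_mul]
    have e2 : (X 1 * X 2 : S) = monomial (Finsupp.single (1 : Fin 4) 1 + Finsupp.single 2 1) 1 := by
      simp [X, monomial_mul]
    rw [e1, e2, coeff_monomial, coeff_monomial, if_pos rfl, if_neg]
    · norm_num
    · intro h
      have := DFunLike.congr_fun h (0 : Fin 4)
      simp at this
  have := MvPolynomial.le_totalDegree hmem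
  rw [Finsupp.sum_add_index' (by simp) (by simp)] at this
  simp only [Finsupp.sum_single_index] at this
  exact_mod_cast this

theorem det_ne_zero : (X 0 * X 3 - X 1 * X 2 : S) ≠ 0 := by
  intro h
  have := det_deg
  rw [h] at this
  simp at this

theorem mem_of_det_mul {k : ℤ} {w : S} (h : (X 0 * X 3 - X 1 * X 2) * w ∈ Sle (k + 1)) :
    w ∈ Sle (k - 1) := by
  rw [mem_Sle_iff] at h ⊢
  rcases h with h | h
  · left
    rcases mul_eq_zero.1 h with h | h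
    · exact absurd h det_ne_zero
    · exact h
  · by_cases hw : w = 0
    · exact Or.inl hw
    · right
      rw [MvPolynomial.totalDegree_mul_of_isDomain det_ne_zero hw] at h
      have := det_deg
      push_cast at h
      omega

theorem T_strict_step {k : ℤ} {w₁ w₂ : S} (h₁ : T1 w₁ w₂ ∈ Sle k) (h₂ : T2 w₁ w₂ ∈ Sle k)
    (hw₁ : w₁ ∈ Sle k) (hw₂ : w₂ ∈ Sle k) : w₁ ∈ Sle (k - 1) ∧ w₂ ∈ Sle (k - 1) := by
  have e1 : -(X 3 * w₁) + X 1 * w₂ ∈ Sle k := by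
    have a1 : Ld w₁ - X 3 * w₁ ∈ Sle k := Lop_sub_mem hw₁ 3
    have a2 : Lb w₂ - X 1 * w₂ ∈ Sle k := Lop_sub_mem hw₂ 1
    have : -(X 3 * w₁) + X 1 * w₂
        = T1 w₁ w₂ + (Ld w₁ - X 3 * w₁) + w₁ - (Lb w₂ - X 1 * w₂) := by
      unfold T1; ring
    rw [this]
    exact sub_mem (add_mem (add_mem h₁ a1) hw₁) a2
  have e2 : X 2 * w₁ - X 0 * w₂ ∈ Sle k := by
    have a1 : Lc w₁ - X 2 * w₁ ∈ Sle k := Lop_sub_mem hw₁ 2
    have a2 : La w₂ - X 0 * w₂ ∈ Sle k := Lop_sub_mem hw₂ 0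
    have : X 2 * w₁ - X 0 * w₂
        = T2 w₁ w₂ + (La w₂ - X 0 * w₂) + w₂ - (Lc w₁ - X 2 * w₁) := by
      unfold T2; ring
    rw [this]
    exact sub_mem (add_mem (add_mem h₂ a2) hw₂) a1
  constructor
  · apply mem_of_det_mul
    have : (X 0 * X 3 - X 1 * X 2) * w₁
        = -(X 0 * (-(X 3 * w₁) + X 1 * w₂)) - X 1 * (X 2 * w₁ - X 0 * w₂) := by ring
    rw [this, add_comm k 1]
    exact sub_mem (neg_mem (mul_mem_Sle (X_mem_Sle 0) e1)) (mul_mem_Sle (X_mem_Sle 1) e2)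
  · apply mem_of_det_mul
    have : (X 0 * X 3 - X 1 * X 2) * w₂
        = -(X 2 * (-(X 3 * w₁) + X 1 * w₂)) - X 3 * (X 2 * w₁ - X 0 * w₂) := by ring
    rw [this, add_comm k 1]
    exact sub_mem (neg_mem (mul_mem_Sle (X_mem_Sle 2) e1)) (mul_mem_Sle (X_mem_Sle 3) e2)

/-- `T` is strict (hence injective): the symbol `[[-X3, X1], [X2, -X0]]` has nonzero determinant. -/
theorem T_strict {m : ℤ} {w₁ w₂ : S} (h₁ : T1 w₁ w₂ ∈ Sle m) (h₂ : T2 w₁ w₂ ∈ Sle m) :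
    w₁ ∈ Sle (m - 1) ∧ w₂ ∈ Sle (m - 1) := by
  have key : ∀ j : ℕ, w₁ ∈ Sle (m - 1 + j) → w₂ ∈ Sle (m - 1 + j) →
      w₁ ∈ Sle (m - 1) ∧ w₂ ∈ Sle (m - 1) := by
    intro j
    induction j with
    | zero => intro a b; simpa using And.intro a b
    | succ j ih =>
      intro a b
      have := T_strict_step (k := m - 1 + (j + 1 : ℕ)) (Sle_mono (by push_cast; omega) h₁)
        (Sle_mono (by push_cast; omega) h₂) a b
      have hk : m - 1 + ((j + 1 : ℕ) : ℤ) - 1 = m - 1 + (j : ℤ) := by push_cast; ring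
      rw [hk] at this
      exact ih this.1 this.2
  obtain ⟨k₁, hk₁, hw₁⟩ := exists_mem_Sle w₁
  obtain ⟨k₂, hk₂, hw₂⟩ := exists_mem_Sle w₂
  refine key (k₁.toNat + k₂.toNat + m.natAbs + 1) (Sle_mono ?_ hw₁) (Sle_mono ?_ hw₂) <;>
    omega

theorem T_injective {w₁ w₂ : S} (h₁ : T1 w₁ w₂ = 0) (h₂ : T2 w₁ w₂ = 0) :
    w₁ = 0 ∧ w₂ = 0 := by
  have := T_strict (m := -1) (w₁ := w₁) (w₂ := w₂) (by rw [h₁]; exact zero_mem _)
    (by rw [h₂]; exact zero_mem _)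
  exact ⟨eq_zero_of_mem_Sle (by norm_num) this.1, eq_zero_of_mem_Sle (by norm_num) this.2⟩

/-- `T` raises degrees by at most one -/
theorem T1_mem {m : ℤ} {w₁ w₂ : S} (h₁ : w₁ ∈ Sle m) (h₂ : w₂ ∈ Sle m) :
    T1 w₁ w₂ ∈ Sle (m + 1) := by
  unfold T1
  exact add_mem (neg_mem (add_mem (Lop_mem h₁ 3) (Sle_mono (by omega) h₁))) (Lop_mem h₂ 1)
theorem T2_mem {m : ℤ} {w₁ w₂ : S} (h₁ : w₁ ∈ Sle m) (h₂ : w₂ ∈ Sle m) :
    T2 w₁ w₂ ∈ Sle (m + 1) := by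
  unfold T2
  exact sub_mem (Lop_mem h₁ 2) (add_mem (Lop_mem h₂ 0) (Sle_mono (by omega) h₂))

end Crest.Agent.FD
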