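import Crest.Agent.FD.Defs

/-! # S0268 module C: normal ordering in `UU` -/

set_option autoImplicit false

namespace Crest.Agent.FD

open MvPolynomial

/-! ### basic facts on `phi` -/

theorem phi_induction {P : S → Prop} (hadd : ∀ p q, P p → P q → P (p + q))
    (hsmul : ∀ (r : ℂ) p, P p → P (r • p))
    (h1 : ∀ j : ℕ, P (X 1 ^ j)) (hX2 : ∀ p, P p → P (X 2 * p)) (hX0 : ∀ p, P p → P (p * X 0))
    (hX3 : ∀ p, P p → P (p * X 3)) (p : S) : P p := by
  have key : ∀ (i j k l : ℕ), P (X 2 ^ i * X 1 ^ j * X 0 ^ k * X 3 ^ l) := by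
    intro i j k l
    induction l with
    | zero =>
      rw [pow_zero, mul_one]
      induction k with
      | zero =>
        rw [pow_zero, mul_one]
        induction i with
        | zero => rw [pow_zero, one_mul]; exact h1 j
        | succ i ih =>
          have := hX2 _ ih
          rwa [show (X 2 : S) ^ (i + 1) * X 1 ^ j = X 2 * (X 2 ^ i * X 1 ^ j) by ring]
      | succ k ih =>
        have := hX0 _ ih
        rwa [pow_succ, ← mul_assoc]
    | succ l ih =>
      have := hX3 _ ih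
      rwa [pow_succ, ← mul_assoc]
  have hmon : ∀ d : Fin 4 →₀ ℕ, (monomial d (1 : ℂ) : S)
      = X 2 ^ d 2 * X 1 ^ d 1 * X 0 ^ d 0 * X 3 ^ d 3 := by
    intro d
    rw [MvPolynomial.monomial_eq, map_one, one_mul, Finsupp.prod_fintype _ _ (by simp),
      Fin.prod_univ_four]
    ring
  induction p using MvPolynomial.induction_on' with
  | monomial d r =>
    have := hsmul r _ (key (d 2) (d 1) (d 0) (d 3))
    rw [← hmon, MvPolynomial.smul_monomial, smul_eq_mul, mul_one] at this
    exact this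
  | add p q hp hq => exact hadd p q hp hq

theorem phi_ext {f g : S →ₗ[ℂ] UU} (h : ∀ d : Fin 4 →₀ ℕ, f (monomial d 1) = g (monomial d 1)) :
    f = g := by
  apply (MvPolynomial.basisMonomials (Fin 4) ℂ).ext
  intro d
  simpa using h d

theorem monomial_mul_X' (d : Fin 4 →₀ ℕ) (i : Fin 4) :
    (monomial d (1 : ℂ) : S) * X i = monomial (d + Finsupp.single i 1) 1 := by
  rw [MvPolynomial.X, MvPolynomial.monomial_mul, one_mul]

theorem phi_X2_mul (p : S) : phi (X 2 * p) = ug 2 * phi p := by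
  have : phi ∘ₗ LinearMap.mulLeft ℂ (X 2 : S) = LinearMap.mulLeft ℂ (ug 2) ∘ₗ phi := by
    apply phi_ext
    intro d
    have e : (X 2 : S) * monomial d (1 : ℂ) = monomial (d + Finsupp.single 2 1) 1 := by
      rw [mul_comm, monomial_mul_X']
    simp only [LinearMap.comp_apply, LinearMap.mulLeft_apply, e, phi_monomial, Finsupp.add_apply]
    simp [pow_succ', mul_assoc]
  exact congrArg (fun f => f p) this

theorem phi_mul_X3 (p : S) : phi (p * X 3) = phi p * ug 3 := by
  have : phi ∘ₗ LinearMap.mulRight ℂ (X 3 : S) = LinearMap.mulRight ℂ (ug 3) ∘ₗ phi := by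
    apply phi_ext
    intro d
    simp only [LinearMap.comp_apply, LinearMap.mulRight_apply, monomial_mul_X',
      phi_monomial, Finsupp.add_apply]
    simp [pow_succ, mul_assoc]
  exact congrArg (fun f => f p) this

theorem phi_mul_X0 (p : S) : phi (p * X 0) = phi p * ug 0 := by
  have : phi ∘ₗ LinearMap.mulRight ℂ (X 0 : S) = LinearMap.mulRight ℂ (ug 0) ∘ₗ phi := by
    apply phi_ext
    intro d
    have hc : Commute (ug 3) (ug 0) := (isRep_ug.ad).symm
    have hc' : ug 3 ^ d 3 * ug 0 = ug 0 * ug 3 ^ d 3 := (hc.pow_left (d 3)).eq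
    simp only [LinearMap.comp_apply, LinearMap.mulRight_apply, monomial_mul_X',
      phi_monomial, Finsupp.add_apply]
    simp [pow_succ, mul_assoc, hc']
  exact congrArg (fun f => f p) this

theorem phi_X1_pow (j : ℕ) : phi (X 1 ^ j) = ug 1 ^ j := by
  have := phi_monomial (Finsupp.single 1 j)
  rw [MvPolynomial.X_pow_eq_monomial, this]
  simp

/-! ### powers of `b` -/

theorem a_b_pow (j : ℕ) : ug 0 * ug 1 ^ j = ug 1 ^ j * ug 0 + (j : ℂ) • ug 1 ^ j := by
  induction j with
  | zero => simp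
  | succ j ih =>
    rw [pow_succ, ← mul_assoc, ih, add_mul, mul_assoc, isRep_ug.ab]
    simp only [mul_add, smul_mul_assoc, Nat.cast_add, Nat.cast_one, add_smul, one_smul, mul_assoc]
    abel

theorem d_b_pow (j : ℕ) : ug 3 * ug 1 ^ j = ug 1 ^ j * ug 3 - (j : ℂ) • ug 1 ^ j := by
  induction j with
  | zero => simp
  | succ j ih =>
    have h : ug 3 * ug 1 = ug 1 * ug 3 - ug 1 := by rw [isRep_ug.bd]; abel
    rw [pow_succ, ← mul_assoc, ih, sub_mul, mul_assoc, h]
    simp only [mul_sub, smul_mul_assoc, Nat.cast_add, Nat.cast_one, add_smul, one_smul, mul_assoc]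
    abel

theorem b_pow_c (j : ℕ) : ug 1 ^ (j + 1) * ug 2 = ug 2 * ug 1 ^ (j + 1)
    + ((j : ℂ) + 1) • (ug 1 ^ j * (ug 0 - ug 3)) + (((j : ℂ) + 1) * j) • ug 1 ^ j := by
  induction j with
  | zero => simp [isRep_ug.bc]; abel
  | succ j ih =>
    rw [pow_succ' _ (j + 1), mul_assoc, ih]
    have h1 : ug 1 * (ug 2 * ug 1 ^ (j + 1)) = ug 2 * (ug 1 * ug 1 ^ (j + 1))
        + (ug 0 - ug 3) * ug 1 ^ (j + 1) := by
      rw [← mul_assoc, isRep_ug.bc]
      simp only [add_mul, sub_mul, mul_assoc]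
      abel
    have h2 : (ug 0 - ug 3) * ug 1 ^ (j + 1) = ug 1 ^ (j + 1) * (ug 0 - ug 3)
        + (2 * ((j : ℂ) + 1)) • ug 1 ^ (j + 1) := by
      rw [sub_mul, a_b_pow, d_b_pow, mul_sub]
      push_cast
      module
    rw [mul_add, mul_add, h1, h2, mul_smul_comm, mul_smul_comm, ← mul_assoc (ug 1) (ug 1 ^ j),
      ← pow_succ', ← pow_succ']
    push_cast
    module

/-! ### left multiplications -/

theorem La_X2_mul (p : S) : La (X 2 * p) = X 2 * La p - X 2 * p := by
  simp only [La_apply, Derivation.leibniz, pderiv_X_self, smul_eq_mul,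
    pderiv_X_of_ne (show (2 : Fin 4) ≠ 1 by decide)]
  ring

theorem Ld_X2_mul (p : S) : Ld (X 2 * p) = X 2 * Ld p + X 2 * p := by
  simp only [Ld_apply, Derivation.leibniz, pderiv_X_self, smul_eq_mul,
    pderiv_X_of_ne (show (2 : Fin 4) ≠ 1 by decide)]
  ring

theorem Lb_X2_mul (p : S) : Lb (X 2 * p) = X 2 * Lb p + La p - Ld p := by
  simp only [La_apply, Lb_apply, Ld_apply, Derivation.leibniz, pderiv_X_self, smul_eq_mul, map_add,
    pderiv_X_of_ne (show (2 : Fin 4) ≠ 1 by decide), Derivation.map_one_eq_zero, map_zero]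
  ring

theorem L_mul_X0 (x : Fin 4) (p : S) : Lop x (p * X 0) = Lop x p * X 0 := by
  fin_cases x <;>
  · simp [Lop, La_apply, Lb_apply, Lc_apply, Ld_apply, Derivation.leibniz, 
      pderiv_X_of_ne (show (0 : Fin 4) ≠ 1 by decide),
      pderiv_X_of_ne (show (0 : Fin 4) ≠ 2 by decide)]
    ring

theorem L_mul_X3 (x : Fin 4) (p : S) : Lop x (p * X 3) = Lop x p * X 3 := by
  fin_cases x <;>
  · simp [Lop, La_apply, Lb_apply, Lc_apply, Ld_apply, Derivation.leibniz, 
      pderiv_X_of_ne (show (3 : Fin 4) ≠ 1 by decide),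
      pderiv_X_of_ne (show (3 : Fin 4) ≠ 2 by decide)]
    ring

theorem phi_Lall (p : S) : phi (La p) = ug 0 * phi p ∧ phi (Lb p) = ug 1 * phi p ∧
    phi (Ld p) = ug 3 * phi p := by
  induction p using phi_induction with
  | hadd p q hp hq =>
    simp only [map_add, hp.1, hp.2.1, hp.2.2, hq.1, hq.2.1, hq.2.2, mul_add, and_self]
  | hsmul r p hp =>
    simp only [map_smul, hp.1, hp.2.1, hp.2.2, mul_smul_comm, and_self]
  | h1 j =>
    have e1 : X 1 * pderiv 1 (X 1 ^ j : S) = (j : ℂ) • X 1 ^ j := by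
      cases j with
      | zero => simp
      | succ j => 
        rw [Derivation.leibniz_pow, pderiv_X_self]
        simp [MvPolynomial.smul_eq_C_mul]
        ring
    have e2 : pderiv 2 (X 1 ^ j : S) = 0 := by
      rw [Derivation.leibniz_pow, pderiv_X_of_ne (show (1 : Fin 4) ≠ 2 by decide)]
      simp
    refine ⟨?_, ?_, ?_⟩
    · rw [La_apply, e1, e2, mul_comm (X 0), mul_zero, sub_zero, map_add, phi_mul_X0, map_smul,
        phi_X1_pow, a_b_pow]
    · rw [Lb_apply, e2, map_zero, map_zero, mul_zero, mul_zero, mul_zero, add_zero, add_zero,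
        sub_zero, ← pow_succ', phi_X1_pow, phi_X1_pow, pow_succ']
    · rw [Ld_apply, e1, e2, mul_comm (X 3), mul_zero, add_zero, map_sub, phi_mul_X3, map_smul,
        phi_X1_pow, d_b_pow]
  | hX2 p hp =>
    refine ⟨?_, ?_, ?_⟩
    · rw [La_X2_mul, map_sub, phi_X2_mul, phi_X2_mul, hp.1, ← mul_assoc, ← mul_assoc, isRep_ug.ac,
        sub_mul]
    · rw [Lb_X2_mul, map_sub, map_add, phi_X2_mul, phi_X2_mul, hp.1, hp.2.1, hp.2.2, ← mul_assoc,
        ← mul_assoc, isRep_ug.bc, sub_mul, add_mul]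
    · rw [Ld_X2_mul, map_add, phi_X2_mul, phi_X2_mul, hp.2.2, ← mul_assoc, ← mul_assoc,
        isRep_ug.dc, add_mul]
  | hX0 p hp =>
    refine ⟨?_, ?_, ?_⟩
    · rw [show La (p * X 0) = La p * X 0 from L_mul_X0 0 p, phi_mul_X0, phi_mul_X0, hp.1, mul_assoc]
    · rw [show Lb (p * X 0) = Lb p * X 0 from L_mul_X0 1 p, phi_mul_X0, phi_mul_X0, hp.2.1,
        mul_assoc]
    · rw [show Ld (p * X 0) = Ld p * X 0 from L_mul_X0 3 p, phi_mul_X0, phi_mul_X0, hp.2.2,
        mul_assoc]
  | hX3 p hp =>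
    refine ⟨?_, ?_, ?_⟩
    · rw [show La (p * X 3) = La p * X 3 from L_mul_X3 0 p, phi_mul_X3, phi_mul_X3, hp.1, mul_assoc]
    · rw [show Lb (p * X 3) = Lb p * X 3 from L_mul_X3 1 p, phi_mul_X3, phi_mul_X3, hp.2.1,
        mul_assoc]
    · rw [show Ld (p * X 3) = Ld p * X 3 from L_mul_X3 3 p, phi_mul_X3, phi_mul_X3, hp.2.2,
        mul_assoc]

/-- left multiplication by a generator in the PBW basis -/
theorem phi_L (x : Fin 4) (p : S) : phi (Lop x p) = gx x * phi p := by
  fin_cases x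
  · exact (phi_Lall p).1
  · exact (phi_Lall p).2.1
  · exact phi_X2_mul p
  · exact (phi_Lall p).2.2

/-! ### right multiplications -/

theorem sig_X (i : Fin 4) : sig (X i) = (![X 0 + 1, X 1, X 2, X 3 - 1] : Fin 4 → S) i := by
  simp [sig]

theorem sig'_X (i : Fin 4) : sig' (X i) = (![X 0 - 1, X 1, X 2, X 3 + 1] : Fin 4 → S) i := by
  simp [sig']

theorem phi_Rb (p : S) : phi (Rb p) = phi p * ug 1 := by
  induction p using phi_induction with
  | hadd p q hp hq => simp only [map_add, hp, hq, add_mul]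
  | hsmul r p hp => simp only [map_smul, hp, smul_mul_assoc]
  | h1 j =>
    rw [Rb_apply, map_pow, sig_X]
    show phi (X 1 * X 1 ^ j) = _
    rw [← pow_succ', phi_X1_pow, phi_X1_pow, pow_succ]
  | hX2 p hp =>
    have : Rb (X 2 * p) = X 2 * Rb p := by
      rw [Rb_apply, Rb_apply, map_mul, sig_X]
      show X 1 * (X 2 * _) = _
      ring
    rw [this, phi_X2_mul, phi_X2_mul, hp, mul_assoc]
  | hX0 p hp =>
    have : Rb (p * X 0) = Rb p * X 0 + Rb p := by
      rw [Rb_apply, Rb_apply, map_mul, sig_X]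
      show X 1 * (_ * (X 0 + 1)) = _
      ring
    rw [this, map_add, phi_mul_X0, phi_mul_X0, hp, mul_assoc, mul_assoc, isRep_ug.ab, mul_add]
  | hX3 p hp =>
    have : Rb (p * X 3) = Rb p * X 3 - Rb p := by
      rw [Rb_apply, Rb_apply, map_mul, sig_X]
      show X 1 * (_ * (X 3 - 1)) = _
      ring
    rw [this, map_sub, phi_mul_X3, phi_mul_X3, hp, mul_assoc, mul_assoc, isRep_ug.bd, mul_add]
    abel

theorem phi_Rc (p : S) : phi (Rc p) = phi p * ug 2 := by
  induction p using phi_induction with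
  | hadd p q hp hq => simp only [map_add, hp, hq, add_mul]
  | hsmul r p hp => simp only [map_smul, hp, smul_mul_assoc]
  | h1 j =>
    have hs : sig' (X 1 ^ j) = X 1 ^ j := by
      rw [map_pow, sig'_X]; rfl
    rw [Rc_apply, hs]
    cases j with
    | zero =>
      simp only [pow_zero, Derivation.map_one_eq_zero, map_zero, mul_zero, add_zero, phi_X2_mul,
        phi_one, one_mul]
      exact mul_one _
    | succ j =>
      have e1 : pderiv 1 (X 1 ^ (j + 1) : S) = ((j : ℂ) + 1) • X 1 ^ j := by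
        rw [Derivation.leibniz_pow, pderiv_X_self]
        simp [MvPolynomial.smul_eq_C_mul]
      have e2 : X 1 * pderiv 1 (X 1 ^ j : S) = (j : ℂ) • X 1 ^ j := by
        cases j with
        | zero => simp
        | succ j => 
          rw [Derivation.leibniz_pow, pderiv_X_self]
          simp [MvPolynomial.smul_eq_C_mul]
          ring
      rw [e1, Derivation.map_smul, mul_smul_comm, mul_smul_comm, e2, smul_smul]
      have e3 : (X 0 - X 3 : S) * X 1 ^ j = X 1 ^ j * X 0 - X 1 ^ j * X 3 := by ring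
      rw [e3, map_add, map_add, map_smul, map_smul, map_sub, phi_X2_mul, phi_mul_X0, phi_mul_X3,
        phi_X1_pow, phi_X1_pow, b_pow_c, mul_sub]
  | hX2 p hp =>
    have : Rc (X 2 * p) = X 2 * Rc p := by
      have h : sig' (X 2 * p) = X 2 * sig' p := by
        rw [map_mul, sig'_X]; rfl
      simp only [Rc_apply, h, Derivation.leibniz, smul_eq_mul, map_add,
        pderiv_X_of_ne (show (2 : Fin 4) ≠ 1 by decide), map_zero, mul_zero]
      ring
    rw [this, phi_X2_mul, phi_X2_mul, hp, mul_assoc]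
  | hX0 p hp =>
    have : Rc (p * X 0) = Rc p * X 0 - Rc p := by
      have h : sig' (p * X 0) = sig' p * (X 0 - 1) := by
        rw [map_mul, sig'_X]; rfl
      simp only [Rc_apply, h, Derivation.leibniz, smul_eq_mul, map_add, map_sub,
        pderiv_X_of_ne (show (0 : Fin 4) ≠ 1 by decide), map_zero, mul_zero,
        Derivation.map_one_eq_zero, sub_zero, zero_add]
      ring
    rw [this, map_sub, phi_mul_X0, phi_mul_X0, hp, mul_assoc, mul_assoc, isRep_ug.ac, mul_sub]
  | hX3 p hp =>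
    have : Rc (p * X 3) = Rc p * X 3 + Rc p := by
      have h : sig' (p * X 3) = sig' p * (X 3 + 1) := by
        rw [map_mul, sig'_X]; rfl
      simp only [Rc_apply, h, Derivation.leibniz, smul_eq_mul, map_add, map_sub,
        pderiv_X_of_ne (show (3 : Fin 4) ≠ 1 by decide), map_zero, mul_zero,
        Derivation.map_one_eq_zero, add_zero, zero_add]
      ring
    rw [this, map_add, phi_mul_X3, phi_mul_X3, hp, mul_assoc, mul_assoc, isRep_ug.dc, mul_add]

/-- right multiplication by a generator in the PBW basis -/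
theorem phi_R (x : Fin 4) (p : S) : phi (Rop x p) = phi p * gx x := by
  fin_cases x
  · show phi (Ra p) = phi p * ug 0
    rw [Ra_apply, mul_comm, phi_mul_X0]
  · exact phi_Rb p
  · exact phi_Rc p
  · show phi (Rd p) = phi p * ug 3
    rw [Rd_apply, mul_comm, phi_mul_X3]

end Crest.Agent.FD
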