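import Crest.Agent.FD.Ops
import Crest.Agent.FD.Phi

/-! # S0268 module D: the PBW theorem for `UU` -/

set_option autoImplicit false

namespace Crest.Agent.FD

open MvPolynomial

/-! ## The model space -/

/-- `T` as a linear map -/
noncomputable def Tl : (S × S) →ₗ[ℂ] (S × S) :=
  LinearMap.prod
    (-(Ld ∘ₗ LinearMap.fst ℂ S S + LinearMap.fst ℂ S S) + Lb ∘ₗ LinearMap.snd ℂ S S)
    (Lc ∘ₗ LinearMap.fst ℂ S S - (La ∘ₗ LinearMap.snd ℂ S S + LinearMap.snd ℂ S S))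

theorem Tl_apply (w : S × S) : Tl w = (T1 w.1 w.2, T2 w.1 w.2) := rfl

/-- the action of `gl₂` on pairs -/
noncomputable def psA : (S × S) →ₗ[ℂ] (S × S) :=
  LinearMap.prod (La ∘ₗ LinearMap.fst ℂ S S - LinearMap.fst ℂ S S) (La ∘ₗ LinearMap.snd ℂ S S)
noncomputable def psB : (S × S) →ₗ[ℂ] (S × S) :=
  LinearMap.prod (Lb ∘ₗ LinearMap.fst ℂ S S) (Lb ∘ₗ LinearMap.snd ℂ S S - LinearMap.fst ℂ S S)
noncomputable def psC : (S × S) →ₗ[ℂ] (S × S) :=
  LinearMap.prod (Lc ∘ₗ LinearMap.fst ℂ S S - LinearMap.snd ℂ S S) (Lc ∘ₗ LinearMap.snd ℂ S S)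
noncomputable def psD : (S × S) →ₗ[ℂ] (S × S) :=
  LinearMap.prod (Ld ∘ₗ LinearMap.fst ℂ S S) (Ld ∘ₗ LinearMap.snd ℂ S S - LinearMap.snd ℂ S S)

theorem psA_apply (w : S × S) : psA w = (La w.1 - w.1, La w.2) := rfl
theorem psB_apply (w : S × S) : psB w = (Lb w.1, Lb w.2 - w.1) := rfl
theorem psC_apply (w : S × S) : psC w = (Lc w.1 - w.2, Lc w.2) := rfl
theorem psD_apply (w : S × S) : psD w = (Ld w.1, Ld w.2 - w.2) := rfl

/-- the range of `T` -/
noncomputable abbrev RT : Submodule ℂ (S × S) := LinearMap.range Tl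

theorem psA_T (w : S × S) : psA (Tl w) = Tl (psA w) := by
  simp only [psA_apply, Tl_apply, T1, T2, map_add, map_sub, map_neg, L_ab, L_ac, L_ad]
  refine Prod.ext ?_ ?_ <;> simp only <;> abel
theorem psB_T (w : S × S) : psB (Tl w) = Tl (psB w) := by
  simp only [psB_apply, Tl_apply, T1, T2, map_add, map_sub, map_neg, L_ab, L_bc, L_bd]
  refine Prod.ext ?_ ?_ <;> simp only <;> abel
theorem psC_T (w : S × S) : psC (Tl w) = Tl (psC w) := by
  simp only [psC_apply, Tl_apply, T1, T2, map_add, map_sub, map_neg, L_ac, L_bc, L_dc]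
  refine Prod.ext ?_ ?_ <;> simp only <;> abel
theorem psD_T (w : S × S) : psD (Tl w) = Tl (psD w) := by
  simp only [psD_apply, Tl_apply, T1, T2, map_add, map_sub, map_neg, L_ad, L_bd, L_dc]
  refine Prod.ext ?_ ?_ <;> simp only <;> abel

theorem le_of_comm (f : (S × S) →ₗ[ℂ] (S × S)) (h : ∀ w, f (Tl w) = Tl (f w)) :
    RT ≤ RT.comap f := by
  rintro _ ⟨w, rfl⟩
  exact ⟨f w, (h w).symm⟩

/-- the model space -/
abbrev MM : Type := S × ((S × S) ⧸ RT)

/-- class of a pair -/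
noncomputable abbrev cl (w : S × S) : (S × S) ⧸ RT := Submodule.Quotient.mk w

noncomputable def opA : Module.End ℂ MM :=
  LinearMap.prodMap La (RT.mapQ RT psA (le_of_comm _ psA_T))
noncomputable def opB : Module.End ℂ MM :=
  LinearMap.prodMap Lb (RT.mapQ RT psB (le_of_comm _ psB_T))
noncomputable def opC : Module.End ℂ MM :=
  LinearMap.prodMap Lc (RT.mapQ RT psC (le_of_comm _ psC_T))
noncomputable def opD : Module.End ℂ MM :=
  LinearMap.prodMap Ld (RT.mapQ RT psD (le_of_comm _ psD_T))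
noncomputable def opT : Module.End ℂ MM :=
  LinearMap.prod 0 (RT.mkQ ∘ₗ LinearMap.inl ℂ S S ∘ₗ LinearMap.fst ℂ S _)
noncomputable def opU : Module.End ℂ MM :=
  LinearMap.prod 0 (RT.mkQ ∘ₗ LinearMap.inr ℂ S S ∘ₗ LinearMap.fst ℂ S _)

theorem opA_apply (s : S) (w : S × S) : opA (s, cl w) = (La s, cl (psA w)) := rfl
theorem opB_apply (s : S) (w : S × S) : opB (s, cl w) = (Lb s, cl (psB w)) := rfl
theorem opC_apply (s : S) (w : S × S) : opC (s, cl w) = (Lc s, cl (psC w)) := rfl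
theorem opD_apply (s : S) (w : S × S) : opD (s, cl w) = (Ld s, cl (psD w)) := rfl
theorem opT_apply (s : S) (w : S × S) : opT (s, cl w) = (0, cl (s, 0)) := rfl
theorem opU_apply (s : S) (w : S × S) : opU (s, cl w) = (0, cl (0, s)) := rfl

theorem cl_add (v w : S × S) : cl (v + w) = cl v + cl w := rfl
theorem cl_sub (v w : S × S) : cl (v - w) = cl v - cl w := rfl

theorem cl_eq {v w : S × S} (a b : S) (h₁ : v.1 - w.1 = T1 a b) (h₂ : v.2 - w.2 = T2 a b) :
    cl v = cl w := by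
  refine (Submodule.Quotient.eq RT).2 ⟨(a, b), ?_⟩
  rw [Tl_apply]
  exact Prod.ext h₁.symm h₂.symm

theorem MM_ext {f g : Module.End ℂ MM} (h : ∀ (s : S) (w : S × S), f (s, cl w) = g (s, cl w)) :
    f = g := by
  refine LinearMap.ext fun x => ?_
  obtain ⟨s, q⟩ := x
  induction q using Submodule.Quotient.induction_on with
  | _ w => exact h s w

theorem cl_zero : cl (0, 0) = 0 := rfl

theorem isRep_op : IsRep opA opB opC opD opT opU := by
  constructor <;> refine MM_ext fun s w => ?_ <;>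
    simp only [Module.End.mul_apply, LinearMap.add_apply, LinearMap.sub_apply,
      LinearMap.zero_apply, opA_apply, opB_apply, opC_apply, opD_apply, opT_apply, opU_apply,
      psA_apply, psB_apply, psC_apply, psD_apply, map_zero, Prod.mk_add_mk, Prod.mk_sub_mk,
      ← cl_add, ← cl_sub, sub_zero, add_zero, zero_sub, Prod.mk_zero_zero]
  case ab =>
    refine Prod.ext (L_ab s) (congrArg cl (Prod.ext ?_ ?_)) <;>
      simp only [map_sub, L_ab] <;> abel
  case ac =>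
    refine Prod.ext (L_ac s) (congrArg cl (Prod.ext ?_ ?_))
    · simp only [map_sub, L_ac]
    · simp only [L_ac]
  case ad =>
    refine Prod.ext (L_ad s) (congrArg cl (Prod.ext ?_ ?_)) <;>
      simp only [map_sub, L_ad]
  case bc =>
    refine Prod.ext (L_bc s) (congrArg cl (Prod.ext ?_ ?_)) <;>
      simp only [map_sub, L_bc] <;> abel
  case bd =>
    refine Prod.ext (L_bd s) (congrArg cl (Prod.ext ?_ ?_))
    · simp only [L_bd]
    · simp only [map_sub, L_bd]; abel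
  case dc =>
    refine Prod.ext (L_dc s) (congrArg cl (Prod.ext ?_ ?_)) <;>
      simp only [map_sub, L_dc] <;> abel
  case T1 =>
    refine Prod.ext rfl (cl_eq (-s) 0 ?_ ?_)
    · simp [T1, add_comm]
    · simp [T2]
  case tt => rfl
  case tu => rfl
  case ut => rfl
  case uu => rfl
  case T2 =>
    refine Prod.ext rfl (cl_eq 0 s ?_ ?_)
    · simp [T1]
    · simp [T2]

/-- the action of `UU` on the model -/
noncomputable def act : UU →ₐ[ℂ] Module.End ℂ MM :=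
  liftU ![opA, opB, opC, opD, opT, opU] isRep_op

theorem act_0 : act (ug 0) = opA := liftU_ug _ _ 0
theorem act_1 : act (ug 1) = opB := liftU_ug _ _ 1
theorem act_2 : act (ug 2) = opC := liftU_ug _ _ 2
theorem act_3 : act (ug 3) = opD := liftU_ug _ _ 3
theorem act_4 : act (ug 4) = opT := liftU_ug _ _ 4
theorem act_5 : act (ug 5) = opU := liftU_ug _ _ 5

/-- evaluation at the vacuum -/
noncomputable def ev : UU →ₗ[ℂ] MM :=
  (LinearMap.applyₗ ((1 : S), (0 : (S × S) ⧸ RT))) ∘ₗ act.toLinearMap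

theorem ev_apply (x : UU) : ev x = act x ((1 : S), (0 : (S × S) ⧸ RT)) := rfl

theorem ev_mul (x y : UU) : ev (x * y) = act x (ev y) := by
  rw [ev_apply, map_mul, Module.End.mul_apply, ← ev_apply]

theorem ev_one : ev 1 = ((1 : S), (0 : (S × S) ⧸ RT)) := by
  rw [ev_apply, map_one]; rfl

/-- the set of symbols on which `ev ∘ phi` is the identity -/
noncomputable def WW : Submodule ℂ S :=
  LinearMap.eqLocus (ev ∘ₗ phi) (LinearMap.inl ℂ S _)

theorem mem_WW {p : S} : p ∈ WW ↔ ev (phi p) = (p, cl (0, 0)) := Iff.rfl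

theorem WW_one : (1 : S) ∈ WW := by
  rw [mem_WW, phi_one, ev_one]; rfl

theorem WW_La {p : S} (hp : p ∈ WW) : La p ∈ WW := by
  rw [mem_WW] at *
  have : phi (La p) = ug 0 * phi p := phi_L 0 p
  rw [this, ev_mul, hp, act_0, opA_apply, psA_apply]
  simp
theorem WW_Lb {p : S} (hp : p ∈ WW) : Lb p ∈ WW := by
  rw [mem_WW] at *
  have : phi (Lb p) = ug 1 * phi p := phi_L 1 p
  rw [this, ev_mul, hp, act_1, opB_apply, psB_apply]
  simp
theorem WW_Lc {p : S} (hp : p ∈ WW) : Lc p ∈ WW := by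
  rw [mem_WW] at *
  have : phi (Lc p) = ug 2 * phi p := phi_L 2 p
  rw [this, ev_mul, hp, act_2, opC_apply, psC_apply]
  simp
theorem WW_Ld {p : S} (hp : p ∈ WW) : Ld p ∈ WW := by
  rw [mem_WW] at *
  have : phi (Ld p) = ug 3 * phi p := phi_L 3 p
  rw [this, ev_mul, hp, act_3, opD_apply, psD_apply]
  simp

theorem WW_d (l : ℕ) : (X 3 ^ l : S) ∈ WW := by
  induction l with
  | zero => simpa using WW_one
  | succ l ih =>
    have h := WW_Ld ih
    have e : Ld (X 3 ^ l : S) = X 3 ^ (l + 1) := by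
      rw [Ld_apply]
      simp only [Derivation.leibniz_pow, pderiv_X_of_ne (show (3 : Fin 4) ≠ 2 by decide),
        pderiv_X_of_ne (show (3 : Fin 4) ≠ 1 by decide), smul_zero, mul_zero]
      ring
    rwa [e] at h

theorem WW_ad (k l : ℕ) : (X 0 ^ k * X 3 ^ l : S) ∈ WW := by
  induction k with
  | zero => simpa using WW_d l
  | succ k ih =>
    have h := WW_La ih
    have e : La (X 0 ^ k * X 3 ^ l : S) = X 0 ^ (k + 1) * X 3 ^ l := by
      rw [La_apply]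
      simp only [Derivation.leibniz, Derivation.leibniz_pow,
        pderiv_X_of_ne (show (3 : Fin 4) ≠ 2 by decide),
        pderiv_X_of_ne (show (0 : Fin 4) ≠ 2 by decide),
        pderiv_X_of_ne (show (0 : Fin 4) ≠ 1 by decide),
        pderiv_X_of_ne (show (3 : Fin 4) ≠ 1 by decide), smul_zero, mul_zero, add_zero]
      ring
    rwa [e] at h

theorem WW_bad (j k l : ℕ) : (X 1 ^ j * (X 0 ^ k * X 3 ^ l) : S) ∈ WW := by
  induction j with
  | zero => simpa using WW_ad k l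
  | succ j ih =>
    have h := WW_Lb ih
    have e : Lb (X 1 ^ j * (X 0 ^ k * X 3 ^ l) : S) = X 1 ^ (j + 1) * (X 0 ^ k * X 3 ^ l) := by
      rw [Lb_apply]
      simp only [Derivation.leibniz, Derivation.leibniz_pow,
        pderiv_X_of_ne (show (3 : Fin 4) ≠ 2 by decide),
        pderiv_X_of_ne (show (0 : Fin 4) ≠ 2 by decide),
        pderiv_X_of_ne (show (1 : Fin 4) ≠ 2 by decide), smul_zero, mul_zero, add_zero, map_zero]
      ring
    rwa [e] at h

theorem WW_cbad (i j k l : ℕ) : (X 2 ^ i * (X 1 ^ j * (X 0 ^ k * X 3 ^ l)) : S) ∈ WW := by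
  induction i with
  | zero => simpa using WW_bad j k l
  | succ i ih =>
    have h := WW_Lc ih
    have e : Lc (X 2 ^ i * (X 1 ^ j * (X 0 ^ k * X 3 ^ l)) : S)
        = X 2 ^ (i + 1) * (X 1 ^ j * (X 0 ^ k * X 3 ^ l)) := by
      rw [Lc_apply]; ring
    rwa [e] at h

theorem WW_all (p : S) : p ∈ WW := by
  induction p using MvPolynomial.induction_on' with
  | monomial d a =>
    have e : monomial d a = a • (X 2 ^ d 2 * (X 1 ^ d 1 * (X 0 ^ d 0 * X 3 ^ d 3)) : S) := by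
      rw [monomial_eq, Finsupp.prod_fintype _ _ (by intro i; simp), Fin.prod_univ_four,
        MvPolynomial.smul_eq_C_mul]
      ring
    rw [e]
    exact Submodule.smul_mem _ _ (WW_cbad _ _ _ _)
  | add p q hp hq => exact add_mem hp hq

theorem ev_phi (p : S) : ev (phi p) = (p, cl (0, 0)) := mem_WW.1 (WW_all p)

theorem ev_Psi (s₀ s₁ s₂ : S) : ev (Psi s₀ s₁ s₂) = (s₀, cl (s₁, s₂)) := by
  rw [Psi, map_add, map_add, ev_mul, ev_mul, ev_phi, ev_phi, ev_phi, act_4, act_5, opT_apply,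
    opU_apply, Prod.mk_add_mk, Prod.mk_add_mk, ← cl_add, ← cl_add]
  simp

theorem phi_La (p : S) : phi (La p) = ug 0 * phi p := phi_L 0 p
theorem phi_Lb (p : S) : phi (Lb p) = ug 1 * phi p := phi_L 1 p
theorem phi_Lc (p : S) : phi (Lc p) = ug 2 * phi p := phi_L 2 p
theorem phi_Ld (p : S) : phi (Ld p) = ug 3 * phi p := phi_L 3 p

theorem Psi_add (s₀ s₁ s₂ t₀ t₁ t₂ : S) :
    Psi (s₀ + t₀) (s₁ + t₁) (s₂ + t₂) = Psi s₀ s₁ s₂ + Psi t₀ t₁ t₂ := by
  simp only [Psi, map_add, mul_add]; abel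

theorem Psi_smul (c : ℂ) (s₀ s₁ s₂ : S) :
    Psi (c • s₀) (c • s₁) (c • s₂) = c • Psi s₀ s₁ s₂ := by
  simp only [Psi, map_smul, smul_add, mul_smul_comm]

theorem ug0_mul_Psi (s₀ s₁ s₂ : S) : ug 0 * Psi s₀ s₁ s₂ = Psi (La s₀) (La s₁ - s₁) (La s₂) := by
  have h := isRep_ug
  simp only [Psi, map_sub, phi_La, mul_add, mul_sub, ← mul_assoc, h.at', h.au, sub_mul]

theorem ug1_mul_Psi (s₀ s₁ s₂ : S) : ug 1 * Psi s₀ s₁ s₂ = Psi (Lb s₀) (Lb s₁) (Lb s₂ - s₁) := by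
  have h := isRep_ug
  simp only [Psi, map_sub, phi_Lb, mul_add, mul_sub, ← mul_assoc, h.bt, h.bu, sub_mul]
  abel

theorem ug2_mul_Psi (s₀ s₁ s₂ : S) : ug 2 * Psi s₀ s₁ s₂ = Psi (Lc s₀) (Lc s₁ - s₂) (Lc s₂) := by
  have h := isRep_ug
  simp only [Psi, map_sub, phi_Lc, mul_add, mul_sub, ← mul_assoc, h.ct, h.cu, sub_mul]
  abel

theorem ug3_mul_Psi (s₀ s₁ s₂ : S) : ug 3 * Psi s₀ s₁ s₂ = Psi (Ld s₀) (Ld s₁) (Ld s₂ - s₂) := by
  have h := isRep_ug
  simp only [Psi, map_sub, phi_Ld, mul_add, mul_sub, ← mul_assoc, h.dt, h.du, sub_mul]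

theorem ug4_mul_Psi (s₀ s₁ s₂ : S) : ug 4 * Psi s₀ s₁ s₂ = Psi 0 s₀ 0 := by
  have h := isRep_ug
  simp only [Psi, map_zero, mul_add, ← mul_assoc, h.tt, h.tu, zero_mul, mul_zero, add_zero,
    zero_add]

theorem ug5_mul_Psi (s₀ s₁ s₂ : S) : ug 5 * Psi s₀ s₁ s₂ = Psi 0 0 s₀ := by
  have h := isRep_ug
  simp only [Psi, map_zero, mul_add, ← mul_assoc, h.ut, h.uu, zero_mul, mul_zero, add_zero,
    zero_add]

/-- spanning half of PBW -/
theorem Psi_surjective (x : UU) : ∃ s₀ s₁ s₂ : S, x = Psi s₀ s₁ s₂ := by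
  induction x using UU_induction with
  | hone => exact ⟨1, 0, 0, by simp [Psi, phi_one]⟩
  | hadd x y hx hy =>
    obtain ⟨s₀, s₁, s₂, rfl⟩ := hx
    obtain ⟨t₀, t₁, t₂, rfl⟩ := hy
    exact ⟨_, _, _, (Psi_add _ _ _ _ _ _).symm⟩
  | hsmul r x hx =>
    obtain ⟨s₀, s₁, s₂, rfl⟩ := hx
    exact ⟨_, _, _, (Psi_smul _ _ _ _).symm⟩
  | hmul i x hx =>
    obtain ⟨s₀, s₁, s₂, rfl⟩ := hx
    fin_cases i
    · exact ⟨_, _, _, ug0_mul_Psi _ _ _⟩
    · exact ⟨_, _, _, ug1_mul_Psi _ _ _⟩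
    · exact ⟨_, _, _, ug2_mul_Psi _ _ _⟩
    · exact ⟨_, _, _, ug3_mul_Psi _ _ _⟩
    · exact ⟨_, _, _, ug4_mul_Psi _ _ _⟩
    · exact ⟨_, _, _, ug5_mul_Psi _ _ _⟩

/-- independence half of PBW -/
theorem Psi_eq_zero_iff (s₀ s₁ s₂ : S) :
    Psi s₀ s₁ s₂ = 0 ↔ s₀ = 0 ∧ ∃ w₁ w₂ : S, s₁ = T1 w₁ w₂ ∧ s₂ = T2 w₁ w₂ := by
  constructor
  · intro h
    have h' := ev_Psi s₀ s₁ s₂
    rw [h, map_zero] at h'
    have h1 : (0 : S) = s₀ := congrArg Prod.fst h'
    have h2 : (0 : (S × S) ⧸ RT) = cl (s₁, s₂) := congrArg Prod.snd h'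
    have h3 : ((s₁, s₂) : S × S) ∈ RT := (Submodule.Quotient.mk_eq_zero RT).1 h2.symm
    obtain ⟨w, hw⟩ := h3
    rw [Tl_apply] at hw
    exact ⟨h1.symm, w.1, w.2, (congrArg Prod.fst hw).symm, (congrArg Prod.snd hw).symm⟩
  · rintro ⟨rfl, w₁, w₂, rfl, rfl⟩
    have h := isRep_ug
    simp only [Psi, T1, T2, map_add, map_sub, map_neg, map_zero, phi_La, phi_Lb, phi_Lc, phi_Ld,
      mul_add, mul_sub, mul_neg, ← mul_assoc, h.T2]
    have e1 : ug 5 * ug 2 * phi w₁ = ug 4 * ug 3 * phi w₁ + ug 4 * phi w₁ := by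
      rw [← h.T1, add_mul]
    rw [e1]
    simp only [add_mul]
    abel

theorem phi_injective : Function.Injective phi := by
  rw [injective_iff_map_eq_zero]
  intro s hs
  exact ((Psi_eq_zero_iff s 0 0).1 (by simp [Psi, hs])).1

/-- left and right operators commute -/
theorem Lop_Rop (x y : Fin 4) (p : S) : Lop x (Rop y p) = Rop y (Lop x p) := by
  apply phi_injective
  rw [phi_L, phi_R, phi_R, phi_L, mul_assoc]

/-- the right operators form an op-representation -/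
theorem isOp_Rop : IsOp Rop := by
  have h := isRep_ug
  constructor <;> intro f <;> apply phi_injective <;>
    simp only [map_sub, map_add, map_neg, map_zero, phi_R, mul_assoc, ← mul_sub, ← mul_add,
      ← mul_neg]
  · show phi f * (ug 1 * ug 0 - ug 0 * ug 1) = phi f * (-ug 1)
    rw [h.ab]; congr 1; abel
  · show phi f * (ug 2 * ug 0 - ug 0 * ug 2) = phi f * (ug 2)
    rw [h.ac]; congr 1; abel
  · show phi f * (ug 3 * ug 0 - ug 0 * ug 3) = 0
    rw [h.ad]; simp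
  · show phi f * (ug 2 * ug 1 - ug 1 * ug 2) = phi f * (-ug 0 + ug 3)
    rw [h.bc]; congr 1; abel
  · show phi f * (ug 3 * ug 1 - ug 1 * ug 3) = phi f * (-ug 1)
    rw [h.bd]; congr 1; abel
  · show phi f * (ug 3 * ug 2 - ug 2 * ug 3) = phi f * (ug 2)
    rw [h.dc]; congr 1; abel

theorem T1_add (w₁ w₂ v₁ v₂ : S) : T1 (w₁ + v₁) (w₂ + v₂) = T1 w₁ w₂ + T1 v₁ v₂ := by
  simp only [T1, map_add]; abel
theorem T2_add (w₁ w₂ v₁ v₂ : S) : T2 (w₁ + v₁) (w₂ + v₂) = T2 w₁ w₂ + T2 v₁ v₂ := by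
  simp only [T2, map_add]; abel
theorem T1_smul (c : ℂ) (w₁ w₂ : S) : T1 (c • w₁) (c • w₂) = c • T1 w₁ w₂ := by
  simp only [T1, map_smul, smul_add, smul_neg]
theorem T2_smul (c : ℂ) (w₁ w₂ : S) : T2 (c • w₁) (c • w₂) = c • T2 w₁ w₂ := by
  simp only [T2, map_smul, smul_add, smul_sub]
theorem T1_Rop (y : Fin 4) (w₁ w₂ : S) : T1 (Rop y w₁) (Rop y w₂) = Rop y (T1 w₁ w₂) := by
  have h1 : Ld (Rop y w₁) = Rop y (Ld w₁) := Lop_Rop 3 y w₁
  have h2 : Lb (Rop y w₂) = Rop y (Lb w₂) := Lop_Rop 1 y w₂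
  simp only [T1, map_add, map_neg, h1, h2]
theorem T2_Rop (y : Fin 4) (w₁ w₂ : S) : T2 (Rop y w₁) (Rop y w₂) = Rop y (T2 w₁ w₂) := by
  have h1 : Lc (Rop y w₁) = Rop y (Lc w₁) := Lop_Rop 2 y w₁
  have h2 : La (Rop y w₂) = Rop y (La w₂) := Lop_Rop 0 y w₂
  simp only [T2, map_add, map_sub, h1, h2]

end Crest.Agent.FD
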