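import Crest.Agent.FD.Sle

/-! # S0268 module B: operator identities on `S` -/

set_option autoImplicit false
set_option linter.unusedSimpArgs false

namespace Crest.Agent.FD

open MvPolynomial

theorem pderiv_comm' (i j : Fin 4) (p : S) : pderiv i (pderiv j p) = pderiv j (pderiv i p) := by
  have h : ⁅(pderiv i : Derivation ℂ S S), (pderiv j : Derivation ℂ S S)⁆ = 0 := by
    apply MvPolynomial.derivation_ext
    intro k
    rw [Derivation.commutator_apply]
    simp only [pderiv_X, Pi.single_apply]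
    split_ifs <;> simp
  have h2 := congrArg (fun D : Derivation ℂ S S => D p) h
  simp only [Derivation.commutator_apply] at h2
  exact sub_eq_zero.mp h2

theorem pd00 : pderiv (R := ℂ) (1 : Fin 4) (X 0) = 0 := by simp [pderiv_X]
theorem pd12_0 : pderiv (R := ℂ) (2 : Fin 4) (X 0) = 0 := by simp [pderiv_X]
theorem pd1_1 : pderiv (R := ℂ) (1 : Fin 4) (X 1) = 1 := by simp [pderiv_X]
theorem pd1_2 : pderiv (R := ℂ) (1 : Fin 4) (X 2) = 0 := by simp [pderiv_X]
theorem pd1_3 : pderiv (R := ℂ) (1 : Fin 4) (X 3) = 0 := by simp [pderiv_X]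
theorem pd2_1 : pderiv (R := ℂ) (2 : Fin 4) (X 1) = 0 := by simp [pderiv_X]
theorem pd2_2 : pderiv (R := ℂ) (2 : Fin 4) (X 2) = 1 := by simp [pderiv_X]
theorem pd2_3 : pderiv (R := ℂ) (2 : Fin 4) (X 3) = 0 := by simp [pderiv_X]

theorem pd_two (i : Fin 4) : pderiv (R := ℂ) i (2 : S) = 0 := by
  have : (2 : S) = C 2 := (map_ofNat C 2).symm
  rw [this, pderiv_C]

theorem pd_mul (i : Fin 4) (p q : S) :
    pderiv i (p * q) = p * pderiv i q + q * pderiv i p := by
  rw [Derivation.leibniz, smul_eq_mul, smul_eq_mul]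

theorem c21 (p : S) : pderiv 2 (pderiv 1 p) = pderiv 1 (pderiv 2 p) := pderiv_comm' 2 1 p

theorem L_ab (p : S) : La (Lb p) = Lb (La p) + Lb p := by
  simp only [La_apply, Lb_apply, map_add, map_sub, pd_mul, pd00, pd12_0, pd1_1, pd1_2, pd1_3,
    pd2_1, pd2_2, pd2_3, pd_two, c21, mul_zero, mul_one, add_zero, zero_add, sub_zero, zero_sub,
    map_zero, map_neg]
  ring
theorem L_ac (p : S) : La (Lc p) = Lc (La p) - Lc p := by
  simp only [La_apply, Lc_apply, map_add, map_sub, pd_mul, pd00, pd12_0, pd1_1, pd1_2, pd1_3,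
    pd2_1, pd2_2, pd2_3, pd_two, c21, mul_zero, mul_one, add_zero, zero_add, sub_zero, zero_sub,
    map_zero, map_neg]
  ring
theorem L_ad (p : S) : La (Ld p) = Ld (La p) := by
  simp only [La_apply, Ld_apply, map_add, map_sub, pd_mul, pd00, pd12_0, pd1_1, pd1_2, pd1_3,
    pd2_1, pd2_2, pd2_3, pd_two, c21, mul_zero, mul_one, add_zero, zero_add, sub_zero, zero_sub,
    map_zero, map_neg]
  ring
theorem L_bc (p : S) : Lb (Lc p) = Lc (Lb p) + La p - Ld p := by
  simp only [La_apply, Lb_apply, Lc_apply, Ld_apply, map_add, map_sub, pd_mul, pd00, pd12_0,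
    pd1_1, pd1_2, pd1_3,
    pd2_1, pd2_2, pd2_3, pd_two, c21, mul_zero, mul_one, add_zero, zero_add, sub_zero, zero_sub,
    map_zero, map_neg]
  ring
theorem L_bd (p : S) : Lb (Ld p) = Ld (Lb p) + Lb p := by
  simp only [Lb_apply, Ld_apply, map_add, map_sub, pd_mul, pd00, pd12_0, pd1_1, pd1_2, pd1_3,
    pd2_1, pd2_2, pd2_3, pd_two, c21, mul_zero, mul_one, add_zero, zero_add, sub_zero, zero_sub,
    map_zero, map_neg]
  ring
theorem L_dc (p : S) : Ld (Lc p) = Lc (Ld p) + Lc p := by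
  simp only [Lc_apply, Ld_apply, map_add, map_sub, pd_mul, pd00, pd12_0, pd1_1, pd1_2, pd1_3,
    pd2_1, pd2_2, pd2_3, pd_two, c21, mul_zero, mul_one, add_zero, zero_add, sub_zero, zero_sub,
    map_zero, map_neg]
  ring

theorem X_mul_mem {m : ℤ} {p : S} (hp : p ∈ Sle m) (x : Fin 4) : X x * p ∈ Sle (m + 1) := by
  rw [add_comm]; exact mul_mem_Sle (X_mem_Sle x) hp

theorem X_mul_mem' {m : ℤ} {p : S} (hp : p ∈ Sle (m - 1)) (x : Fin 4) : X x * p ∈ Sle m := by
  have := X_mul_mem hp x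
  rwa [sub_add_cancel] at this

theorem X_mul_pderiv_mem {m : ℤ} {p : S} (hp : p ∈ Sle m) (x y : Fin 4) :
    X x * pderiv y p ∈ Sle m := X_mul_mem' (pderiv_mem_Sle hp y) x

theorem X_mul_pderiv2_mem {m : ℤ} {p : S} (hp : p ∈ Sle m) (x y z : Fin 4) :
    X x * pderiv y (pderiv z p) ∈ Sle m :=
  Sle_mono (by omega) (X_mul_pderiv_mem (pderiv_mem_Sle hp z) x y)

/-- `L_x - X_x` preserves the filtration -/
theorem Lop_sub_mem {m : ℤ} {p : S} (hp : p ∈ Sle m) (x : Fin 4) :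
    Lop x p - X x * p ∈ Sle m := by
  fin_cases x
  · have : Lop 0 p - X 0 * p = X 1 * pderiv 1 p - X 2 * pderiv 2 p := by
      show La p - X 0 * p = _
      rw [La_apply]; ring
    show Lop 0 p - X 0 * p ∈ Sle m
    rw [this]
    exact sub_mem (X_mul_pderiv_mem hp 1 1) (X_mul_pderiv_mem hp 2 2)
  · have : Lop 1 p - X 1 * p = X 0 * pderiv 2 p - X 3 * pderiv 2 p
        + (2 : ℂ) • (X 1 * pderiv 1 (pderiv 2 p)) - X 2 * pderiv 2 (pderiv 2 p) := by
      show Lb p - X 1 * p = _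
      rw [Lb_apply, MvPolynomial.smul_eq_C_mul, map_ofNat]; ring
    show Lop 1 p - X 1 * p ∈ Sle m
    rw [this]
    exact sub_mem (add_mem (sub_mem (X_mul_pderiv_mem hp 0 2) (X_mul_pderiv_mem hp 3 2))
      (Submodule.smul_mem _ _ (X_mul_pderiv2_mem hp 1 1 2))) (X_mul_pderiv2_mem hp 2 2 2)
  · have : Lop 2 p - X 2 * p = 0 := by
      show Lc p - X 2 * p = _
      rw [Lc_apply]; ring
    show Lop 2 p - X 2 * p ∈ Sle m
    rw [this]
    exact zero_mem _
  · have : Lop 3 p - X 3 * p = X 2 * pderiv 2 p - X 1 * pderiv 1 p := by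
      show Ld p - X 3 * p = _
      rw [Ld_apply]; ring
    show Lop 3 p - X 3 * p ∈ Sle m
    rw [this]
    exact sub_mem (X_mul_pderiv_mem hp 2 2) (X_mul_pderiv_mem hp 1 1)

theorem Lop_mem {m : ℤ} {p : S} (hp : p ∈ Sle m) (x : Fin 4) : Lop x p ∈ Sle (m + 1) := by
  have h := add_mem (Sle_mono (by omega : m ≤ m + 1) (Lop_sub_mem hp x)) (X_mul_mem hp x)
  rwa [sub_add_cancel] at h

/-- `R_x - X_x` preserves the filtration -/
theorem Rop_sub_mem {m : ℤ} {p : S} (hp : p ∈ Sle m) (x : Fin 4) :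
    Rop x p - X x * p ∈ Sle m := by
  fin_cases x
  · have : Rop 0 p - X 0 * p = 0 := by
      show Ra p - X 0 * p = _
      rw [Ra_apply]; ring
    show Rop 0 p - X 0 * p ∈ Sle m
    rw [this]
    exact zero_mem _
  · have : Rop 1 p - X 1 * p = X 1 * (sig p - p) := by
      show Rb p - X 1 * p = _
      rw [Rb_apply]; ring
    show Rop 1 p - X 1 * p ∈ Sle m
    rw [this]
    exact X_mul_mem' (sig_sub_mem_Sle hp) 1
  · have : Rop 2 p - X 2 * p = X 2 * (sig' p - p) + (X 0 * pderiv 1 (sig' p)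
        - X 3 * pderiv 1 (sig' p)) + X 1 * pderiv 1 (pderiv 1 (sig' p)) := by
      show Rc p - X 2 * p = _
      rw [Rc_apply]; ring
    show Rop 2 p - X 2 * p ∈ Sle m
    rw [this]
    have hs := sig'_mem_Sle hp
    exact add_mem (add_mem (X_mul_mem' (sig'_sub_mem_Sle hp) 2)
      (sub_mem (X_mul_pderiv_mem hs 0 1) (X_mul_pderiv_mem hs 3 1))) (X_mul_pderiv2_mem hs 1 1 1)
  · have : Rop 3 p - X 3 * p = 0 := by
      show Rd p - X 3 * p = _
      rw [Rd_apply]; ring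
    show Rop 3 p - X 3 * p ∈ Sle m
    rw [this]
    exact zero_mem _

theorem Rop_mem {m : ℤ} {p : S} (hp : p ∈ Sle m) (x : Fin 4) : Rop x p ∈ Sle (m + 1) := by
  have h := add_mem (Sle_mono (by omega : m ≤ m + 1) (Rop_sub_mem hp x)) (X_mul_mem hp x)
  rwa [sub_add_cancel] at h

end Crest.Agent.FD
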