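import Crest.Agent.FD.RowsB

/-! # S0268 module I: exactness of the rows over `UU` -/

set_option autoImplicit false
set_option maxHeartbeats 200000
set_option synthInstance.maxHeartbeats 20000

namespace Crest.Agent.FD

open MvPolynomial

/-! ## the twisted complex over `S` satisfies the hypotheses of Lemma A -/

theorem RS_deg (n : ℕ) (x : Fin 4) (m : ℤ) (f : Fin (n + 1) → S) (hf : ∀ s, f s ∈ Sle m)
    (s : Fin (n + 1)) : RS n x f s - X x * f s ∈ Sle m := RS_deg' n x m f hf s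

theorem isOp_RS (n : ℕ) : IsOp (RS n) := isOp_RS' n

/-- `Ψ` coordinatewise -/
noncomputable def PsiF {n : ℕ} (f₀ f₁ f₂ : Fin (n + 1) → S) : Fin (n + 1) → UU :=
  fun s => Psi (f₀ s) (f₁ s) (f₂ s)

theorem multh_phi_RS (n : ℕ) (x : Fin 4) (f : NS n) (u : UU) :
    (fun s => u * phi (RS n x f s)) = RU n x (fun s => u * phi (f s)) := by
  ext1 s
  have h1 := congrFun (phi_RS n x f) s
  have h2 : (fun s => u * phi (f s)) = u • (fun s => phi (f s)) := rfl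
  rw [h1, h2, map_smul]
  rfl

/-- `Ψ` intertwines the twisted right multiplications -/
theorem RU_PsiF (n : ℕ) (x : Fin 4) (f₀ f₁ f₂ : Fin (n + 1) → S) :
    RU n x (PsiF f₀ f₁ f₂) = PsiF (RS n x f₀) (RS n x f₁) (RS n x f₂) := by
  have h : ∀ g₀ g₁ g₂ : NS n, PsiF g₀ g₁ g₂ = (fun s => phi (g₀ s)) +
      (fun s => ug 4 * phi (g₁ s)) + (fun s => ug 5 * phi (g₂ s)) := fun _ _ _ => rfl
  rw [h, h, map_add, map_add, ← phi_RS, ← multh_phi_RS, ← multh_phi_RS]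

/-- `Ψ` as an additive map from `NS × NP` -/
noncomputable def PsiA (n : ℕ) : NS n × NP n →+ NU n where
  toFun f := PsiF f.1 (pf 0 f.2) (pf 1 f.2)
  map_zero' := by
    ext1 s; simp [PsiF, Psi, pf]
  map_add' f g := by
    ext1 s
    simp only [PsiF, Psi, pf, Prod.fst_add, Prod.snd_add, Pi.add_apply, map_add, mul_add]
    abel

/-- twisted right multiplications on `NS × NP` -/
noncomputable def RQ (n : ℕ) (x : Fin 4) : NS n × NP n →ₗ[ℂ] NS n × NP n :=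
  (RS n x).prodMap (RP n x)

theorem PsiA_RQ (n : ℕ) (x : Fin 4) (f : NS n × NP n) :
    PsiA n (RQ n x f) = RU n x (PsiA n f) := (RU_PsiF n x _ _ _).symm

theorem PsiA_eq_zero_iff (n : ℕ) (f : NS n) (F : NP n) :
    PsiA n (f, F) = 0 ↔ f = 0 ∧ ∃ w, F = TP n w := by
  constructor
  · intro h
    have h' : ∀ s, f s = 0 ∧ ∃ w₁ w₂ : S, F (0, s) = T1 w₁ w₂ ∧ F (1, s) = T2 w₁ w₂ := by
      intro s
      exact (Psi_eq_zero_iff _ _ _).mp (congrFun h s)
    choose h1 w₁ w₂ h2 using h'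
    refine ⟨funext h1, fun ks => ![w₁ ks.2, w₂ ks.2] ks.1, ?_⟩
    ext1 ks
    induction ks using fin2_cases with
    | h0 s => rw [TP_fst]; exact (h2 s).1
    | h1 s => rw [TP_snd]; exact (h2 s).2
  · rintro ⟨rfl, w, rfl⟩
    ext1 s
    refine (Psi_eq_zero_iff _ _ _).mpr ⟨rfl, w (0, s), w (1, s), ?_, ?_⟩
    · exact TP_fst n w s
    · exact TP_snd n w s

theorem exists_lift (n : ℕ) {m : ℤ} (f : NU n) (hf : ∀ s, f s ∈ Fil m) :
    ∃ (g : NS n) (G : NP n), g ∈ SF _ m ∧ G ∈ SF _ (m + 1) ∧ f = PsiA n (g, G) := by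
  choose g hg g1 hg1 g2 hg2 h using hf
  refine ⟨g, fun ks => ![g1 ks.2, g2 ks.2] ks.1, hg, ?_, funext h⟩
  exact fin2_cases (fun s => hg1 s) (fun s => hg2 s)

theorem PsiA_mem (n : ℕ) {m : ℤ} {g : NS n} {G : NP n} (hg : g ∈ SF _ m)
    (hG : G ∈ SF _ (m + 1)) (s : Fin (n + 1)) : PsiA n (g, G) s ∈ Fil m :=
  ⟨g s, hg s, G (0, s), hG _, G (1, s), hG _, rfl⟩

theorem exists_SF {ι : Type*} [Fintype ι] (f : ι → S) : ∃ m : ℤ, f ∈ SF ι m := by
  have h : ∀ s, ∃ m : ℤ, 0 ≤ m ∧ f s ∈ Sle m := fun s => exists_mem_Sle (f s)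
  choose m hm hf using h
  refine ⟨∑ s, m s, fun s => Sle_mono ?_ (hf s)⟩
  exact Finset.single_le_sum (fun i _ => hm i) (Finset.mem_univ s)

theorem D1_RQ (n : ℕ) (f : Fin 4 → NS n) (F : Fin 4 → NP n) :
    D1 (RQ n) (fun t => (f t, F t)) = (D1 (RS n) f, D1 (RP n) F) := rfl
theorem D2_RQ (n : ℕ) (f : Fin 6 → NS n) (F : Fin 6 → NP n) (t : Fin 4) :
    D2 (RQ n) (fun t => (f t, F t)) t = (D2 (RS n) f t, D2 (RP n) F t) := by
  fin_cases t <;> rfl
theorem D3_RQ (n : ℕ) (f : Fin 4 → NS n) (F : Fin 4 → NP n) (t : Fin 6) :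
    D3 (RQ n) (fun t => (f t, F t)) t = (D3 (RS n) f t, D3 (RP n) F t) := by
  fin_cases t <;> rfl
theorem D4_RQ (n : ℕ) (f : NS n) (F : NP n) (t : Fin 4) :
    D4 (RQ n) (f, F) t = (D4 (RS n) f t, D4 (RP n) F t) := by
  fin_cases t <;> rfl

theorem D1_PsiA (n : ℕ) (f : Fin 4 → NS n) (F : Fin 4 → NP n) :
    D1 (RU n) (fun t => PsiA n (f t, F t)) = PsiA n (D1 (RS n) f, D1 (RP n) F) := by
  rw [← D1_RQ, D1_nat (RQ n) (RU n) (PsiA n) (PsiA_RQ n)]
theorem D2_PsiA (n : ℕ) (f : Fin 6 → NS n) (F : Fin 6 → NP n) :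
    D2 (RU n) (fun t => PsiA n (f t, F t)) =
      fun t => PsiA n (D2 (RS n) f t, D2 (RP n) F t) := by
  ext1 t
  rw [← D2_RQ, D2_nat (RQ n) (RU n) (PsiA n) (PsiA_RQ n)]
theorem D3_PsiA (n : ℕ) (f : Fin 4 → NS n) (F : Fin 4 → NP n) :
    D3 (RU n) (fun t => PsiA n (f t, F t)) =
      fun t => PsiA n (D3 (RS n) f t, D3 (RP n) F t) := by
  ext1 t
  rw [← D3_RQ, D3_nat (RQ n) (RU n) (PsiA n) (PsiA_RQ n)]
theorem D4_PsiA (n : ℕ) (f : NS n) (F : NP n) :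
    D4 (RU n) (PsiA n (f, F)) = fun t => PsiA n (D4 (RS n) f t, D4 (RP n) F t) := by
  ext1 t
  rw [← D4_RQ, D4_nat (RQ n) (RU n) (PsiA n) (PsiA_RQ n)]

theorem PsiA_TP (n : ℕ) (w : NP n) : PsiA n (0, TP n w) = 0 :=
  (PsiA_eq_zero_iff n _ _).mpr ⟨rfl, w, rfl⟩

theorem PsiA_add_TP (n : ℕ) (g : NS n) (G w : NP n) :
    PsiA n (g, TP n w + G) = PsiA n (g, G) := by
  have : (g, TP n w + G) = (0, TP n w) + (g, G) := by simp
  rw [this, map_add, PsiA_TP, zero_add]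

/-! ## exactness -/

theorem row4 (n : ℕ) (f : Fin (n + 1) → UU) (h : D4 (RU n) f = 0) : f = 0 := by
  obtain ⟨g, G, rfl⟩ : ∃ (g : NS n) (G : NP n), f = PsiA n (g, G) := by
    have : ∀ s, ∃ s₀ s₁ s₂ : S, f s = Psi s₀ s₁ s₂ := fun s => Psi_surjective _
    choose g0 g1 g2 hg using this
    exact ⟨g0, fun ks => ![g1 ks.2, g2 ks.2] ks.1, funext hg⟩
  rw [D4_PsiA] at h
  have h' : ∀ t, D4 (RS n) g t = 0 ∧ ∃ w, D4 (RP n) G t = TP n w := fun t =>
    (PsiA_eq_zero_iff n _ _).mp (congrFun h t)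
  choose h1 w h2 using h'
  obtain ⟨m, hm⟩ := exists_SF g
  obtain ⟨k, hk⟩ := exists_SF G
  have hg0 := lemA4 (RS n) (RS_deg n) m g hm (funext h1)
  obtain ⟨v, -, hv⟩ := Q4 n k G hk w (funext h2)
  rw [hg0, hv, PsiA_TP]

theorem row3 (n : ℕ) (m : ℤ) (f : Fin 4 → Fin (n + 1) → UU) (hf : ∀ t s, f t s ∈ Fil m)
    (h : D3 (RU n) f = 0) :
    ∃ g : Fin (n + 1) → UU, (∀ s, g s ∈ Fil (m - 1)) ∧ f = D4 (RU n) g := by
  have hl := fun t => exists_lift n (f t) (hf t)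
  choose g G hg hG hfg using hl
  have hf' : f = fun t => PsiA n (g t, G t) := funext hfg
  rw [hf', D3_PsiA] at h
  have h' : ∀ t, D3 (RS n) g t = 0 ∧ ∃ w, D3 (RP n) G t = TP n w := fun t =>
    (PsiA_eq_zero_iff n _ _).mp (congrFun h t)
  choose h1 w h2 using h'
  obtain ⟨e, he, hge⟩ := lemA3 (RS n) (RS_deg n) (isOp_RS n) m g hg (funext h1)
  obtain ⟨v, E, hv, hE, hGE⟩ := Q3 n (m + 1) G hG w (funext h2)
  refine ⟨PsiA n (e, E), PsiA_mem n he (by simpa using hE), ?_⟩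
  rw [D4_PsiA, hf', hge, hGE]
  ext1 t
  simp only [Pi.add_apply]
  rw [PsiA_add_TP]

theorem row2 (n : ℕ) (m : ℤ) (f : Fin 6 → Fin (n + 1) → UU) (hf : ∀ t s, f t s ∈ Fil m)
    (h : D2 (RU n) f = 0) :
    ∃ g : Fin 4 → Fin (n + 1) → UU, (∀ t s, g t s ∈ Fil (m - 1)) ∧ f = D3 (RU n) g := by
  have hl := fun t => exists_lift n (f t) (hf t)
  choose g G hg hG hfg using hl
  have hf' : f = fun t => PsiA n (g t, G t) := funext hfg
  rw [hf', D2_PsiA] at h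
  have h' : ∀ t, D2 (RS n) g t = 0 ∧ ∃ w, D2 (RP n) G t = TP n w := fun t =>
    (PsiA_eq_zero_iff n _ _).mp (congrFun h t)
  choose h1 w h2 using h'
  obtain ⟨e, he, hge⟩ := lemA2 (RS n) (RS_deg n) (isOp_RS n) m g hg (funext h1)
  obtain ⟨v, E, hv, hE, hGE⟩ := Q2 n (m + 1) G hG w (funext h2)
  refine ⟨fun t => PsiA n (e t, E t), fun t => PsiA_mem n (he t) (by simpa using hE t), ?_⟩
  rw [D3_PsiA, hf', hge, hGE]
  ext1 t
  simp only [Pi.add_apply]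
  rw [PsiA_add_TP]

theorem zz_eq (n : ℕ) (p : Fin n → ℂ) :
    zz p = fun t => PsiA n (0, zP (upU p) (upV p) t) := by
  have hC : ∀ c : ℂ, phi (C c) = c • 1 := by
    intro c
    have : (C c : S) = c • (1 : S) := by rw [MvPolynomial.smul_eq_C_mul, mul_one]
    rw [this, map_smul, phi_one]
  ext1 t; ext1 s
  fin_cases t
  · show -(upV p s • ug 5) = Psi 0 (C 0) (C (-upV p s))
    simp only [Psi, hC]; simp
  · show upV p s • ug 4 = Psi 0 (C (upV p s)) (C 0)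
    simp only [Psi, hC]; simp
  · show upU p s • ug 5 = Psi 0 (C 0) (C (upU p s))
    simp only [Psi, hC]; simp
  · show -(upU p s • ug 4) = Psi 0 (C (-upU p s)) (C 0)
    simp only [Psi, hC]; simp

theorem zz_mem {n : ℕ} (p : Fin n → ℂ) (t : Fin 4) (s : Fin (n + 1)) : zz p t s ∈ Fil (-1) := by
  rw [zz_eq]
  exact PsiA_mem n (zero_mem _) (zP_mem _ _ (by norm_num) t) s

theorem D1_zP (n : ℕ) (p : Fin n → ℂ) :
    D1 (RP n) (zP (upU p) (upV p)) = TP n (fun ks => C (![upU p, upV p] ks.1 ks.2)) := by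
  have hz := D1_zP0 n (upU p) (upV p)
  obtain ⟨ht1, ht2⟩ := (Tbar_eq_zero_iff n (upU p) (upV p)).mpr ⟨p, rfl, rfl⟩
  have hz' : (fun ks => C (![-(rhoFun (n + 1) 3 (upU p) + upU p) + rhoFun (n + 1) 1 (upV p),
        rhoFun (n + 1) 2 (upU p) - (rhoFun (n + 1) 0 (upV p) + upV p)] ks.1 ks.2) : NP n) = 0 := by
    rw [ht1, ht2]
    ext1 ks
    obtain ⟨k, s⟩ := ks
    fin_cases k <;> simp
  rwa [hz', sub_zero] at hz

theorem D1_zz (n : ℕ) (p : Fin n → ℂ) : D1 (RU n) (zz p) = 0 := by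
  rw [zz_eq]
  have := D1_PsiA n 0 (zP (upU p) (upV p))
  rw [D1_zP, map_zero, PsiA_TP] at this
  exact this

theorem row1 (n : ℕ) (m : ℤ) (f : Fin 4 → Fin (n + 1) → UU) (hf : ∀ t s, f t s ∈ Fil m)
    (h : D1 (RU n) f = 0) :
    ∃ (p : Fin n → ℂ) (g : Fin 6 → Fin (n + 1) → UU), (∀ t s, g t s ∈ Fil (m - 1)) ∧
      f = zz p + D2 (RU n) g := by
  have hl := fun t => exists_lift n (f t) (hf t)
  choose g G hg hG hfg using hl
  have hf' : f = fun t => PsiA n (g t, G t) := funext hfg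
  rw [hf', D1_PsiA] at h
  obtain ⟨h1, w, h2⟩ := (PsiA_eq_zero_iff n _ _).mp h
  obtain ⟨e, he, hge⟩ := lemA1 (RS n) (RS_deg n) (isOp_RS n) m g hg h1
  obtain ⟨p, v, E, hv, hE, hGE⟩ := Q1 n (m + 1) G hG w h2
  refine ⟨p, fun t => PsiA n (e t, E t), fun t => PsiA_mem n (he t) (by simpa using hE t), ?_⟩
  rw [D2_PsiA, hf', hge, hGE, zz_eq]
  ext1 t
  simp only [Pi.add_apply]
  rw [← map_add, Prod.mk_add_mk, zero_add, add_comm (zP (upU p) (upV p) t) (TP n (v t)),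
    add_assoc, PsiA_add_TP]

theorem row1_inj (n : ℕ) (p : Fin n → ℂ) (g : Fin 6 → Fin (n + 1) → UU)
    (h : D2 (RU n) g = zz p) : p = 0 := by
  obtain ⟨g0, G, rfl⟩ : ∃ (g0 : Fin 6 → NS n) (G : Fin 6 → NP n),
      g = fun t => PsiA n (g0 t, G t) := by
    have : ∀ t s, ∃ s₀ s₁ s₂ : S, g t s = Psi s₀ s₁ s₂ := fun t s => Psi_surjective _
    choose g0 g1 g2 hg using this
    exact ⟨g0, fun t ks => ![g1 t ks.2, g2 t ks.2] ks.1, funext fun t => funext (hg t)⟩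
  rw [D2_PsiA, zz_eq] at h
  have h' : ∀ t, ∃ w, zP (upU p) (upV p) t - D2 (RP n) G t = TP n w := by
    intro t
    have h1 := congrFun h t
    have h2 : PsiA n (-(D2 (RS n) g0 t), zP (upU p) (upV p) t - D2 (RP n) G t) = 0 := by
      have h3 : ((-(D2 (RS n) g0 t), zP (upU p) (upV p) t - D2 (RP n) G t) : NS n × NP n) =
        (0, zP (upU p) (upV p) t) - (D2 (RS n) g0 t, D2 (RP n) G t) := by
        rw [Prod.mk_sub_mk, zero_sub]
      rw [h3, map_sub, ← h1, sub_self]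
    exact ((PsiA_eq_zero_iff n _ _).mp h2).2
  choose v hv using h'
  refine Q1_inj n p v G ?_
  ext1 t
  rw [Pi.add_apply, ← hv t, sub_add_cancel]

/-- the inclusion `Y_{n+1} → E_n` (linear over `ℂ`) -/
noncomputable def jE (n : ℕ) : (Fin (n + 1) → ℂ) →ₗ[ℂ] EM n where
  toFun p := EM.mk p 0
  map_add' p q := by
    rw [EM.mk_add, add_zero]
  map_smul' c p := by
    show EM.mk (c • p) 0 = (c • p, c • (0 : Fin n → ℂ))
    rw [smul_zero]; rfl

theorem rhoFun_zero' (m : ℕ) (x : Fin 4) : rhoFun m x (0 : Fin m → ℂ) = 0 := rhoFun_zero m x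

theorem jE_gx (n : ℕ) (x : Fin 4) (p : Fin (n + 1) → ℂ) :
    gx x • jE n p = jE n (rhoFun (n + 1) x p) := by
  show gx x • EM.mk p 0 = EM.mk (rhoFun (n + 1) x p) 0
  rw [EM_gx_smul, rhoFun_zero']

/-- the augmentation `f ↦ ∑ f_s • (X^s, 0)` -/
noncomputable def epsE (n : ℕ) : (Fin (n + 1) → UU) →ₗ[UU] EM n where
  toFun f := ∑ s, f s • EM.mk (Pi.single s 1) 0
  map_add' := (epsG n (jE n)).map_add'
  map_smul' := (epsG n (jE n)).map_smul'

theorem epsE_eq (n : ℕ) : epsE n = epsG n (jE n) := rfl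

theorem epsE_D1 (n : ℕ) (f : Fin 4 → Fin (n + 1) → UU) : epsE n (D1 (RU n) f) = 0 := by
  rw [epsE_eq]; exact epsG_D1 n (jE n) (jE_gx n) f

theorem smul_smul_comm' {M : Type*} [AddCommGroup M] [Module ℂ M] [Module UU M]
    [IsScalarTower ℂ UU M] (c : ℂ) (y : UU) (m : M) : (c • y) • m = y • (c • m) := by
  rw [smul_assoc]
  have : (c • m) = (algebraMap ℂ UU c) • m := by rw [algebraMap_smul]
  rw [this, ← mul_smul, ← Algebra.commutes, mul_smul, algebraMap_smul]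

theorem jE_sum (n : ℕ) (p : Fin (n + 1) → ℂ) : jE n p = ∑ s, p s • jE n (Pi.single s 1) := by
  conv_lhs => rw [← Finset.univ_sum_single p]
  rw [map_sum]
  refine Finset.sum_congr rfl fun s _ => ?_
  rw [← map_smul]
  congr 1
  ext s'
  simp [Pi.single_apply]

theorem epsE_const (n : ℕ) (a u v : Fin (n + 1) → ℂ) :
    epsE n (fun s => a s • (1 : UU) + u s • ug 4 + v s • ug 5) =
      EM.mk a (th1 n u + th2 n v) := by
  have h1 : epsE n (fun s => a s • (1 : UU) + u s • ug 4 + v s • ug 5) =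
      jE n a + ug 4 • jE n u + ug 5 • jE n v := by
    rw [jE_sum n a, jE_sum n u, jE_sum n v, Finset.smul_sum, Finset.smul_sum,
      ← Finset.sum_add_distrib, ← Finset.sum_add_distrib]
    show (∑ s, (a s • (1 : UU) + u s • ug 4 + v s • ug 5) • jE n (Pi.single s 1)) = _
    refine Finset.sum_congr rfl fun s _ => ?_
    rw [add_smul, add_smul, smul_smul_comm', smul_smul_comm', smul_smul_comm', one_smul]
  rw [h1]
  show EM.mk a 0 + ug 4 • EM.mk u 0 + ug 5 • EM.mk v 0 = _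
  rw [EM_ug4_smul, EM_ug5_smul, EM.mk_add, EM.mk_add, add_zero, add_zero, zero_add]

theorem PsiA_C (n : ℕ) (a : Fin (n + 1) → ℂ) (c : Fin 2 × Fin (n + 1) → ℂ) :
    PsiA n ((fun s => C (a s)), fun ks => C (c ks)) =
      fun s => a s • (1 : UU) + c (0, s) • ug 4 + c (1, s) • ug 5 := by
  have hC : ∀ c : ℂ, phi (C c) = c • 1 := by
    intro c
    have : (C c : S) = c • (1 : S) := by rw [MvPolynomial.smul_eq_C_mul, mul_one]
    rw [this, map_smul, phi_one]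
  ext1 s
  show Psi (C (a s)) (C (c (0, s))) (C (c (1, s))) = _
  simp only [Psi, hC]; simp

theorem row0 (n : ℕ) (m : ℤ) (hm : 0 ≤ m) (f : Fin (n + 1) → UU) (hf : ∀ s, f s ∈ Fil m)
    (h : epsE n f = 0) :
    ∃ g : Fin 4 → Fin (n + 1) → UU, (∀ t s, g t s ∈ Fil (m - 1)) ∧ f = D1 (RU n) g := by
  obtain ⟨g, G, hg, hG, rfl⟩ := exists_lift n f hf
  obtain ⟨a, g', hg', hgg⟩ := lemA0 (RS n) (RS_deg n) m g hg
  obtain ⟨c, G', hG', hGG⟩ := lemA0 (RP n) (RP_deg n) (m + 1) G hG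
  have e1 : PsiA n (g, G) = PsiA n ((fun s => C (a s)), fun ks => C (c ks)) +
      D1 (RU n) (fun t => PsiA n (g' t, G' t)) := by
    rw [D1_PsiA, ← map_add, Prod.mk_add_mk, ← hgg, ← hGG]
  rw [e1, map_add, epsE_D1, add_zero, PsiA_C, epsE_const] at h
  have ha : a = 0 := congrArg EM.fst h
  have hth : th1 n (fun s => c (0, s)) + th2 n (fun s => c (1, s)) = 0 := congrArg EM.snd h
  obtain ⟨u, v, hu, hv⟩ := exists_Tbar n _ _ hth
  have hz := D1_zP0 n u v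
  have hc : (fun ks => C (c ks) : NP n) =
      (fun ks => C (![-(rhoFun (n + 1) 3 u + u) + rhoFun (n + 1) 1 v,
        rhoFun (n + 1) 2 u - (rhoFun (n + 1) 0 v + v)] ks.1 ks.2)) := by
    ext1 ks
    induction ks using fin2_cases with
    | h0 s => exact congrArg C (congrFun hu s)
    | h1 s => exact congrArg C (congrFun hv s)
  rw [← hc] at hz
  have hc2 : (fun ks => C (c ks) : NP n) =
      TP n (fun ks => C (![u, v] ks.1 ks.2)) + D1 (RP n) (-(zP u v)) := by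
    rw [map_neg, hz]; abel
  refine ⟨fun t => PsiA n (g' t, (G' + -(zP u v)) t), fun t => PsiA_mem n (hg' t) ?_, ?_⟩
  · have hG'' : G' t ∈ SF _ (m - 1 + 1) := fun ks => Sle_mono (by omega) (hG' t ks)
    exact add_mem hG'' (neg_mem (zP_mem u v (by omega) t))
  · have hg2 : g = D1 (RS n) g' := by
      rw [hgg, ha]
      ext1 s
      simp
    have hG2 : G = TP n (fun ks => C (![u, v] ks.1 ks.2)) + D1 (RP n) (G' + -(zP u v)) := by
      rw [hGG, hc2, map_add (D1 (RP n))]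
      abel
    have e3 := D1_PsiA n g' (G' + -(zP u v))
    rw [e3, hg2, hG2, PsiA_add_TP]

theorem epsE_surj (n : ℕ) (v : EM n) :
    ∃ f : Fin (n + 1) → UU, (∀ s, f s ∈ Fil 0) ∧ epsE n f = v := by
  obtain ⟨u, w, huw⟩ := exists_th n v.snd
  refine ⟨fun s => v.fst s • (1 : UU) + u s • ug 4 + w s • ug 5, fun s => ?_, ?_⟩
  · refine add_mem (add_mem ?_ ?_) ?_
    · exact Submodule.smul_mem _ _ one_mem_Fil
    · exact Submodule.smul_mem _ _ (Fil_mono (by norm_num) ug4_mem_Fil)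
    · exact Submodule.smul_mem _ _ (Fil_mono (by norm_num) ug5_mem_Fil)
  · rw [epsE_const, huw]; rfl

end Crest.Agent.FD
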