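import Crest.Agent.FD.CE

/-! # S0268 module H: the finite-dimensional representations -/

set_option autoImplicit false

namespace Crest.Agent.FD

section rhoRel
variable {A : Type*} [AddCommGroup A] [Module ℂ A] (m : ℕ)

theorem rhoFun_add (x : Fin 4) (f g : Fin m → A) :
    rhoFun m x (f + g) = rhoFun m x f + rhoFun m x g := (rho ℂ m x).map_add f g
theorem rhoFun_sub (x : Fin 4) (f g : Fin m → A) :
    rhoFun m x (f - g) = rhoFun m x f - rhoFun m x g := (rho ℂ m x).map_sub f g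
theorem rhoFun_neg (x : Fin 4) (f : Fin m → A) : rhoFun m x (-f) = - rhoFun m x f :=
  (rho ℂ m x).map_neg f
theorem rhoFun_smul (x : Fin 4) (c : ℂ) (f : Fin m → A) :
    rhoFun m x (c • f) = c • rhoFun m x f := (rho ℂ m x).map_smul c f
theorem rhoFun_zero (x : Fin 4) : rhoFun m x (0 : Fin m → A) = 0 := (rho ℂ m x).map_zero

theorem rhoFun_apply0 (f : Fin m → A) (s : Fin m) :
    rhoFun m 0 f s = ((m : ℂ) - 1 - (s : ℕ)) • f s := rfl
theorem rhoFun_apply1 (f : Fin m → A) (s : Fin m) :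
    rhoFun m 1 f s =
      if h : (s : ℕ) + 1 < m then (((s : ℕ) : ℂ) + 1) • f ⟨(s : ℕ) + 1, h⟩ else 0 := rfl
theorem rhoFun_apply2 (f : Fin m → A) (s : Fin m) :
    rhoFun m 2 f s =
      if 0 < (s : ℕ) then ((m : ℂ) - (s : ℕ)) • f ⟨(s : ℕ) - 1, by have := s.2; omega⟩ else 0 :=
  rfl
theorem rhoFun_apply3 (f : Fin m → A) (s : Fin m) :
    rhoFun m 3 f s = ((s : ℕ) : ℂ) • f s := rfl

theorem rho_ab (f : Fin m → A) :
    rhoFun m 0 (rhoFun m 1 f) = rhoFun m 1 (rhoFun m 0 f) + rhoFun m 1 f := by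
  ext s
  simp only [Pi.add_apply, rhoFun_apply0, rhoFun_apply1]
  split_ifs with h
  · simp only [smul_smul, ← add_smul]
    congr 1
    push_cast
    ring
  · simp
theorem rho_ac (f : Fin m → A) :
    rhoFun m 0 (rhoFun m 2 f) = rhoFun m 2 (rhoFun m 0 f) - rhoFun m 2 f := by
  ext s
  simp only [Pi.sub_apply, rhoFun_apply0, rhoFun_apply2]
  split_ifs with h
  · simp only [smul_smul, ← sub_smul]
    congr 1
    rw [Nat.cast_sub (by omega : 1 ≤ (s : ℕ))]
    push_cast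
    ring
  · simp
theorem rho_ad (f : Fin m → A) : rhoFun m 0 (rhoFun m 3 f) = rhoFun m 3 (rhoFun m 0 f) := by
  ext s
  simp only [rhoFun_apply0, rhoFun_apply3, smul_smul]
  rw [mul_comm]
theorem rho_bd (f : Fin m → A) :
    rhoFun m 1 (rhoFun m 3 f) = rhoFun m 3 (rhoFun m 1 f) + rhoFun m 1 f := by
  ext s
  simp only [Pi.add_apply, rhoFun_apply3, rhoFun_apply1]
  split_ifs with h
  · simp only [smul_smul, ← add_smul]
    congr 1
    push_cast
    ring
  · simp
theorem rho_dc (f : Fin m → A) :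
    rhoFun m 3 (rhoFun m 2 f) = rhoFun m 2 (rhoFun m 3 f) + rhoFun m 2 f := by
  ext s
  simp only [Pi.add_apply, rhoFun_apply3, rhoFun_apply2]
  split_ifs with h
  · simp only [smul_smul, ← add_smul]
    congr 1
    rw [Nat.cast_sub (by omega : 1 ≤ (s : ℕ))]
    push_cast
    ring
  · simp
theorem rho_bc (f : Fin m → A) :
    rhoFun m 1 (rhoFun m 2 f) = rhoFun m 2 (rhoFun m 1 f) + rhoFun m 0 f - rhoFun m 3 f := by
  ext s
  simp only [Pi.add_apply, Pi.sub_apply, rhoFun_apply0, rhoFun_apply1, rhoFun_apply2,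
    rhoFun_apply3]
  have hs := s.2
  by_cases h0 : 0 < (s : ℕ)
  · have h1 : (s : ℕ) - 1 + 1 < m := by omega
    have e1 : (⟨(s : ℕ) - 1 + 1, h1⟩ : Fin m) = s := Fin.ext (by simp; omega)
    rw [if_pos h0, dif_pos h1, e1]
    have e3 : (((s : ℕ) - 1 : ℕ) : ℂ) = (s : ℕ) - 1 := by
      rw [Nat.cast_sub (by omega : 1 ≤ (s : ℕ))]; simp
    rw [e3]
    by_cases h2 : (s : ℕ) + 1 < m
    · have e2 : (⟨(s : ℕ) + 1 - 1, by omega⟩ : Fin m) = s := Fin.ext (by simp)
      rw [dif_pos h2, if_pos (by omega)]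
      simp only [e2, smul_smul, ← add_smul, ← sub_smul]
      congr 1
      push_cast
      ring
    · rw [dif_neg h2]
      have hm : (m : ℂ) = (s : ℕ) + 1 := by exact_mod_cast (by omega : m = (s : ℕ) + 1)
      simp only [smul_smul, ← add_smul, ← sub_smul]
      rw [hm]
      ring_nf
      simp
  · rw [if_neg h0]
    have h00 : (s : ℕ) = 0 := by omega
    by_cases h2 : (s : ℕ) + 1 < m
    · have e2 : (⟨(s : ℕ) + 1 - 1, by omega⟩ : Fin m) = s := Fin.ext (by simp)
      rw [dif_pos h2, if_pos (by omega), e2, h00]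
      simp only [smul_smul, zero_add, ← sub_smul]
      congr 1
      push_cast
      ring
    · rw [dif_neg h2]
      have hm : m = 1 := by omega
      subst hm
      simp

/-- naturality in the coefficients -/
theorem rhoFun_map {A' : Type*} [AddCommGroup A'] [Module ℂ A'] (g : A →ₗ[ℂ] A') (x : Fin 4)
    (f : Fin m → A) (s : Fin m) : g (rhoFun m x f s) = rhoFun m x (fun s => g (f s)) s := by
  fin_cases x
  · exact g.map_smul _ _
  · simp only [Fin.mk_one, rhoFun_apply1]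
    split_ifs
    · exact g.map_smul _ _
    · exact g.map_zero
  · simp only [Fin.reduceFinMk, rhoFun_apply2]
    split_ifs
    · exact g.map_smul _ _
    · exact g.map_zero
  · exact g.map_smul _ _

theorem rhoFun_mem (W : Submodule ℂ A) (x : Fin 4) (f : Fin m → A) (hf : ∀ s, f s ∈ W)
    (s : Fin m) : rhoFun m x f s ∈ W := by
  fin_cases x
  · exact W.smul_mem _ (hf _)
  · simp only [Fin.mk_one, rhoFun_apply1]
    split_ifs
    · exact W.smul_mem _ (hf _)
    · exact W.zero_mem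
  · simp only [Fin.reduceFinMk, rhoFun_apply2]
    split_ifs
    · exact W.smul_mem _ (hf _)
    · exact W.zero_mem
  · exact W.smul_mem _ (hf _)

/-- `rhoFun` of a pure tensor `p ⊗ a` -/
theorem rhoFun_tensor (x : Fin 4) (p : Fin m → ℂ) (a : A) (s : Fin m) :
    rhoFun m x (fun s => p s • a) s = rhoFun m x p s • a :=
  (rhoFun_map m (LinearMap.toSpanSingleton ℂ A a) x p s).symm

end rhoRel

section
variable {B A : Type*} [Ring B] [AddCommGroup A] [Module ℂ A] [Module B A] [SMulCommClass B ℂ A]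

omit [SMulCommClass B ℂ A] in
/-- `r` applied componentwise commutes with `rhoFun` -/
theorem rho_comp (r : A →ₗ[B] A) (hc : ∀ (c : ℂ) (a : A), r (c • a) = c • r a) (m : ℕ)
    (x : Fin 4) (f : Fin m → A) (s : Fin m) :
    r (rhoFun m x f s) = rhoFun m x (fun s => r (f s)) s :=
  rhoFun_map m ⟨⟨r, r.map_add⟩, hc⟩ x f s

theorem Rt_fun (r : Fin 4 → A →ₗ[B] A) (m : ℕ) (x : Fin 4) (f : Fin m → A) :
    Rt B r m x f = (fun s => r x (f s)) - rhoFun m x f := rfl

/-- composite of two twisted operators -/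
theorem Rt_Rt (r : Fin 4 → A →ₗ[B] A) (hc : ∀ x (c : ℂ) (a : A), r x (c • a) = c • r x a)
    (m : ℕ) (x y : Fin 4) (f : Fin m → A) :
    Rt B r m x (Rt B r m y f) = (fun s => r x (r y (f s))) - rhoFun m y (fun s => r x (f s)) -
      rhoFun m x (fun s => r y (f s)) + rhoFun m x (rhoFun m y f) := by
  rw [Rt_fun, Rt_fun, rhoFun_sub]
  ext s
  simp only [Pi.sub_apply, Pi.add_apply, map_sub, rho_comp (r x) (hc x)]
  abel

/-- the twisted operators form an op-representation -/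
theorem isOp_Rt (r : Fin 4 → A →ₗ[B] A) (hc : ∀ x (c : ℂ) (a : A), r x (c • a) = c • r x a)
    (h : IsOp r) (m : ℕ) : IsOp (Rt B r m) where
  ab f := by
    have h1 : ∀ s, r 0 (r 1 (f s)) = r 1 (r 0 (f s)) - r 1 (f s) := fun s => by
      rw [sub_eq_iff_eq_add.mp (h.ab (f s))]; abel
    rw [Rt_Rt r hc, Rt_Rt r hc, rho_ab, Rt_fun]
    ext s
    simp only [Pi.sub_apply, Pi.add_apply, Pi.neg_apply, h1]
    abel
  ac f := by
    have h1 : ∀ s, r 0 (r 2 (f s)) = r 2 (r 0 (f s)) + r 2 (f s) := fun s => by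
      rw [sub_eq_iff_eq_add.mp (h.ac (f s))]; abel
    rw [Rt_Rt r hc, Rt_Rt r hc, rho_ac, Rt_fun]
    ext s
    simp only [Pi.sub_apply, Pi.add_apply, h1]
    abel
  ad f := by
    have h1 : ∀ s, r 0 (r 3 (f s)) = r 3 (r 0 (f s)) := fun s => by
      rw [sub_eq_iff_eq_add.mp (h.ad (f s))]; abel
    rw [Rt_Rt r hc, Rt_Rt r hc, rho_ad]
    ext s
    simp only [Pi.sub_apply, Pi.add_apply, h1, Pi.zero_apply]
    abel
  bc f := by
    have h1 : ∀ s, r 1 (r 2 (f s)) = r 2 (r 1 (f s)) - r 0 (f s) + r 3 (f s) := fun s => by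
      rw [sub_eq_iff_eq_add.mp (h.bc (f s))]; abel
    rw [Rt_Rt r hc, Rt_Rt r hc, rho_bc, Rt_fun, Rt_fun]
    ext s
    simp only [Pi.sub_apply, Pi.add_apply, Pi.neg_apply, h1]
    abel
  bd f := by
    have h1 : ∀ s, r 1 (r 3 (f s)) = r 3 (r 1 (f s)) - r 1 (f s) := fun s => by
      rw [sub_eq_iff_eq_add.mp (h.bd (f s))]; abel
    rw [Rt_Rt r hc, Rt_Rt r hc, rho_bd, Rt_fun]
    ext s
    simp only [Pi.sub_apply, Pi.add_apply, Pi.neg_apply, h1]
    abel
  cd f := by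
    have h1 : ∀ s, r 2 (r 3 (f s)) = r 3 (r 2 (f s)) + r 2 (f s) := fun s => by
      rw [sub_eq_iff_eq_add.mp (h.cd (f s))]; abel
    rw [Rt_Rt r hc, Rt_Rt r hc, rho_dc, Rt_fun]
    ext s
    simp only [Pi.sub_apply, Pi.add_apply, h1]
    abel

end

theorem isOp_rmulU : IsOp rmulU := by
  have H := isRep_ug
  constructor
  · intro f
    change (f * ug 1) * ug 0 - (f * ug 0) * ug 1 = - (f * ug 1)
    rw [mul_assoc, mul_assoc, H.ab, mul_add]; abel
  · intro f
    change (f * ug 2) * ug 0 - (f * ug 0) * ug 2 = f * ug 2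
    rw [mul_assoc, mul_assoc, H.ac, mul_sub]; abel
  · intro f
    change (f * ug 3) * ug 0 - (f * ug 0) * ug 3 = 0
    rw [mul_assoc, mul_assoc, H.ad]; abel
  · intro f
    change (f * ug 2) * ug 1 - (f * ug 1) * ug 2 = - (f * ug 0) + f * ug 3
    rw [mul_assoc, mul_assoc, H.bc, mul_sub, mul_add]; abel
  · intro f
    change (f * ug 3) * ug 1 - (f * ug 1) * ug 3 = - (f * ug 1)
    rw [mul_assoc, mul_assoc, H.bd, mul_add]; abel
  · intro f
    change (f * ug 3) * ug 2 - (f * ug 2) * ug 3 = f * ug 2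
    rw [mul_assoc, mul_assoc, H.dc, mul_add]; abel

theorem isOp_RU (n : ℕ) : IsOp (RU n) :=
  isOp_Rt rmulU (fun x c a => smul_mul_assoc c a (gx x)) isOp_rmulU (n + 1)

/-! ## The `UU`-modules -/

/-- `Y_m`: the `gl₂`-module of polynomials of degree `< m`, with `θ = 0` -/
def YM (m : ℕ) : Type := Fin m → ℂ

instance (m : ℕ) : AddCommGroup (YM m) := inferInstanceAs (AddCommGroup (Fin m → ℂ))
noncomputable instance (m : ℕ) : Module ℂ (YM m) := inferInstanceAs (Module ℂ (Fin m → ℂ))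
instance (m : ℕ) : Module.Finite ℂ (YM m) := inferInstanceAs (Module.Finite ℂ (Fin m → ℂ))

/-- the six endomorphisms -/
noncomputable def YMend (m : ℕ) : Fin 6 → Module.End ℂ (YM m) :=
  ![rho ℂ m 0, rho ℂ m 1, rho ℂ m 2, rho ℂ m 3, 0, 0]

theorem YMend_isRep (m : ℕ) : IsRep (YMend m 0) (YMend m 1) (YMend m 2) (YMend m 3) (YMend m 4)
    (YMend m 5) where
  ab := LinearMap.ext fun f => rho_ab m f
  ac := LinearMap.ext fun f => rho_ac m f
  ad := LinearMap.ext fun f => rho_ad m f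
  bc := LinearMap.ext fun f => rho_bc m f
  bd := LinearMap.ext fun f => rho_bd m f
  dc := LinearMap.ext fun f => rho_dc m f
  at' := by simp [YMend]
  au := by simp [YMend]
  bt := by simp [YMend]
  bu := by simp [YMend]
  ct := by simp [YMend]
  cu := by simp [YMend]
  dt := by simp [YMend]
  du := by simp [YMend]
  tt := by simp [YMend]
  tu := by simp [YMend]
  ut := by simp [YMend]
  uu := by simp [YMend]
  T1 := by simp [YMend]
  T2 := by simp [YMend]

/-- the representation -/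
noncomputable def YMrep (m : ℕ) : UU →ₐ[ℂ] Module.End ℂ (YM m) := liftU (YMend m) (YMend_isRep m)

noncomputable instance (m : ℕ) : Module UU (YM m) :=
  Module.compHom (YM m) (YMrep m).toRingHom

theorem YM_smul_def (m : ℕ) (x : UU) (p : YM m) : x • p = YMrep m x p := rfl

instance (m : ℕ) : IsScalarTower ℂ UU (YM m) where
  smul_assoc c x p := by
    rw [YM_smul_def, YM_smul_def, map_smul]
    rfl

theorem YM_gx_smul (m : ℕ) (x : Fin 4) (p : YM m) : gx x • p = (rhoFun m x p : Fin m → ℂ) := by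
  rw [YM_smul_def]
  unfold YMrep gx
  rw [liftU_ug]
  fin_cases x <;> rfl
theorem YM_ug4_smul (m : ℕ) (p : YM m) : ug 4 • p = 0 := by
  rw [YM_smul_def]
  unfold YMrep
  rw [liftU_ug]
  rfl
theorem YM_ug5_smul (m : ℕ) (p : YM m) : ug 5 • p = 0 := by
  rw [YM_smul_def]
  unfold YMrep
  rw [liftU_ug]
  rfl

/-- `E_n`: the module `Y_{n+1} × Y_n` with `θ_k : Y_{n+1} → Y_n` the partial derivatives -/
def EM (n : ℕ) : Type := (Fin (n + 1) → ℂ) × (Fin n → ℂ)

instance (n : ℕ) : AddCommGroup (EM n) :=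
  inferInstanceAs (AddCommGroup ((Fin (n + 1) → ℂ) × (Fin n → ℂ)))
noncomputable instance (n : ℕ) : Module ℂ (EM n) :=
  inferInstanceAs (Module ℂ ((Fin (n + 1) → ℂ) × (Fin n → ℂ)))

/-- the pair `(p, q)` -/
def EM.mk {n : ℕ} (p : Fin (n + 1) → ℂ) (q : Fin n → ℂ) : EM n := (p, q)
def EM.fst {n : ℕ} (v : EM n) : Fin (n + 1) → ℂ := Prod.fst v
def EM.snd {n : ℕ} (v : EM n) : Fin n → ℂ := Prod.snd v

theorem EM.ext' {n : ℕ} {v w : EM n} (h₁ : v.fst = w.fst) (h₂ : v.snd = w.snd) : v = w :=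
  Prod.ext h₁ h₂
theorem EM.mk_add {n : ℕ} (p p' : Fin (n + 1) → ℂ) (q q' : Fin n → ℂ) :
    EM.mk p q + EM.mk p' q' = EM.mk (p + p') (q + q') := rfl

/-- `θ₁` as a linear map -/
noncomputable def th1L (n : ℕ) : (Fin (n + 1) → ℂ) →ₗ[ℂ] (Fin n → ℂ) where
  toFun := th1 n
  map_add' f g := by ext s; simp [th1, mul_add]
  map_smul' c f := by ext s; simp [th1]; ring
/-- `θ₂` as a linear map -/
noncomputable def th2L (n : ℕ) : (Fin (n + 1) → ℂ) →ₗ[ℂ] (Fin n → ℂ) where
  toFun := th2 n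
  map_add' f g := by ext s; simp [th2, mul_add]
  map_smul' c f := by ext s; simp [th2]; ring

theorem th1_apply {A : Type*} [AddCommGroup A] [Module ℂ A] (m : ℕ) (f : Fin (m + 1) → A)
    (s : Fin m) : th1 m f s = ((m : ℂ) - (s : ℕ)) • f s.castSucc := rfl
theorem th2_apply {A : Type*} [AddCommGroup A] [Module ℂ A] (m : ℕ) (f : Fin (m + 1) → A)
    (s : Fin m) : th2 m f s = (((s : ℕ) : ℂ) + 1) • f s.succ := rfl

/-- the six endomorphisms -/
noncomputable def EMend (n : ℕ) : Fin 6 → Module.End ℂ (EM n) :=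
  ![(rho ℂ (n + 1) 0).prodMap (rho ℂ n 0), (rho ℂ (n + 1) 1).prodMap (rho ℂ n 1),
    (rho ℂ (n + 1) 2).prodMap (rho ℂ n 2), (rho ℂ (n + 1) 3).prodMap (rho ℂ n 3),
    (LinearMap.inr ℂ (Fin (n + 1) → ℂ) (Fin n → ℂ)) ∘ₗ (th1L n) ∘ₗ
      (LinearMap.fst ℂ (Fin (n + 1) → ℂ) (Fin n → ℂ)),
    (LinearMap.inr ℂ (Fin (n + 1) → ℂ) (Fin n → ℂ)) ∘ₗ (th2L n) ∘ₗ
      (LinearMap.fst ℂ (Fin (n + 1) → ℂ) (Fin n → ℂ))]

section thrho
variable (n : ℕ) (p : Fin (n + 1) → ℂ)

theorem rho_at : rhoFun n 0 (th1 n p) = th1 n (rhoFun (n + 1) 0 p) - th1 n p := by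
  ext s
  simp only [Pi.sub_apply, rhoFun_apply0, th1_apply, smul_eq_mul]
  push_cast
  simp
  ring
theorem rho_au : rhoFun n 0 (th2 n p) = th2 n (rhoFun (n + 1) 0 p) := by
  ext s
  simp only [rhoFun_apply0, th2_apply, smul_eq_mul]
  push_cast
  simp
  ring
theorem rho_bt : rhoFun n 1 (th1 n p) = th1 n (rhoFun (n + 1) 1 p) - th2 n p := by
  ext s
  have hs := s.2
  simp only [Pi.sub_apply, rhoFun_apply1, th1_apply, th2_apply, smul_eq_mul]
  have h1 : ((s.castSucc : Fin (n + 1)) : ℕ) + 1 < n + 1 := by simp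
  rw [dif_pos h1]
  have e1 : (⟨((s.castSucc : Fin (n + 1)) : ℕ) + 1, h1⟩ : Fin (n + 1)) = s.succ := Fin.ext (by simp)
  rw [e1]
  split_ifs with h
  · have e2 : (⟨(s : ℕ) + 1, h⟩ : Fin n).castSucc = s.succ := Fin.ext (by simp)
    rw [e2]
    push_cast
    simp
    ring
  · have : (n : ℂ) = (s : ℕ) + 1 := by exact_mod_cast (by omega : n = (s : ℕ) + 1)
    rw [this]
    simp
theorem rho_bu : rhoFun n 1 (th2 n p) = th2 n (rhoFun (n + 1) 1 p) := by
  ext s
  have hs := s.2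
  simp only [rhoFun_apply1, th2_apply, smul_eq_mul]
  by_cases h : (s : ℕ) + 1 < n
  · have h1 : ((s.succ : Fin (n + 1)) : ℕ) + 1 < n + 1 := by simp; omega
    have e2 : (⟨(s : ℕ) + 1, h⟩ : Fin n).succ = ⟨((s.succ : Fin (n + 1)) : ℕ) + 1, h1⟩ :=
      Fin.ext (by simp)
    rw [dif_pos h, dif_pos h1, e2]
    simp
  · rw [dif_neg h, dif_neg (by simp; omega)]
    simp
theorem rho_ct : rhoFun n 2 (th1 n p) = th1 n (rhoFun (n + 1) 2 p) := by
  ext s
  have hs := s.2
  simp only [rhoFun_apply2, th1_apply, smul_eq_mul]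
  by_cases h : 0 < (s : ℕ)
  · have e2 : (⟨(s : ℕ) - 1, by omega⟩ : Fin n).castSucc =
        ⟨((s.castSucc : Fin (n + 1)) : ℕ) - 1, by simp; omega⟩ := Fin.ext (by simp)
    rw [if_pos h, if_pos (by simpa using h), e2]
    rw [Nat.cast_sub (by omega : 1 ≤ (s : ℕ))]
    push_cast
    simp only [Fin.val_castSucc]
    ring
  · rw [if_neg h, if_neg (by simpa using h)]
    simp
theorem rho_cu : rhoFun n 2 (th2 n p) = th2 n (rhoFun (n + 1) 2 p) - th1 n p := by
  ext s
  have hs := s.2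
  simp only [Pi.sub_apply, rhoFun_apply2, th1_apply, th2_apply, smul_eq_mul]
  have e1 : (⟨((s.succ : Fin (n + 1)) : ℕ) - 1, by simp⟩ : Fin (n + 1)) = s.castSucc :=
    Fin.ext (by simp)
  rw [if_pos (by simp : 0 < ((s.succ : Fin (n + 1)) : ℕ)), e1]
  by_cases h : 0 < (s : ℕ)
  · have e2 : (⟨(s : ℕ) - 1, by omega⟩ : Fin n).succ = s.castSucc := Fin.ext (by simp; omega)
    rw [if_pos h, e2]
    rw [Nat.cast_sub (by omega : 1 ≤ (s : ℕ))]
    push_cast
    simp
    ring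
  · have h0 : (s : ℕ) = 0 := by omega
    rw [if_neg h]
    simp [h0]
theorem rho_dt : rhoFun n 3 (th1 n p) = th1 n (rhoFun (n + 1) 3 p) := by
  ext s
  simp only [rhoFun_apply3, th1_apply, smul_eq_mul]
  simp
  ring
theorem rho_du : rhoFun n 3 (th2 n p) = th2 n (rhoFun (n + 1) 3 p) - th2 n p := by
  ext s
  simp only [Pi.sub_apply, rhoFun_apply3, th2_apply, smul_eq_mul]
  simp
  ring

theorem th_d : th1 n (rhoFun (n + 1) 3 p) + th1 n p = th2 n (rhoFun (n + 1) 2 p) := by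
  ext s
  have e1 : (⟨((s.succ : Fin (n + 1)) : ℕ) - 1, by simp⟩ : Fin (n + 1)) = s.castSucc :=
    Fin.ext (by simp)
  simp only [Pi.add_apply, rhoFun_apply2, rhoFun_apply3, th1_apply, th2_apply, smul_eq_mul]
  rw [if_pos (by simp : 0 < ((s.succ : Fin (n + 1)) : ℕ)), e1]
  simp
  ring
theorem th_b : th1 n (rhoFun (n + 1) 1 p) = th2 n (rhoFun (n + 1) 0 p) + th2 n p := by
  ext s
  have h1 : ((s.castSucc : Fin (n + 1)) : ℕ) + 1 < n + 1 := by simp
  have e1 : (⟨((s.castSucc : Fin (n + 1)) : ℕ) + 1, h1⟩ : Fin (n + 1)) = s.succ := Fin.ext (by simp)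
  simp only [Pi.add_apply, rhoFun_apply0, rhoFun_apply1, th1_apply, th2_apply, smul_eq_mul]
  rw [dif_pos h1, e1]
  simp
  ring

end thrho

theorem EMend_isRep (n : ℕ) : IsRep (EMend n 0) (EMend n 1) (EMend n 2) (EMend n 3) (EMend n 4)
    (EMend n 5) where
  ab := LinearMap.ext fun f => Prod.ext (rho_ab (n + 1) f.1) (rho_ab n f.2)
  ac := LinearMap.ext fun f => Prod.ext (rho_ac (n + 1) f.1) (rho_ac n f.2)
  ad := LinearMap.ext fun f => Prod.ext (rho_ad (n + 1) f.1) (rho_ad n f.2)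
  bc := LinearMap.ext fun f => Prod.ext (rho_bc (n + 1) f.1) (rho_bc n f.2)
  bd := LinearMap.ext fun f => Prod.ext (rho_bd (n + 1) f.1) (rho_bd n f.2)
  dc := LinearMap.ext fun f => Prod.ext (rho_dc (n + 1) f.1) (rho_dc n f.2)
  at' := LinearMap.ext fun f => Prod.ext
    (show rhoFun (n + 1) 0 0 = (0 : Fin (n + 1) → ℂ) - 0 by rw [rhoFun_zero, sub_zero])
    (rho_at n f.1)
  au := LinearMap.ext fun f => Prod.ext (rhoFun_zero (n + 1) 0) (rho_au n f.1)
  bt := LinearMap.ext fun f => Prod.ext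
    (show rhoFun (n + 1) 1 0 = (0 : Fin (n + 1) → ℂ) - 0 by rw [rhoFun_zero, sub_zero])
    (rho_bt n f.1)
  bu := LinearMap.ext fun f => Prod.ext (rhoFun_zero (n + 1) 1) (rho_bu n f.1)
  ct := LinearMap.ext fun f => Prod.ext (rhoFun_zero (n + 1) 2) (rho_ct n f.1)
  cu := LinearMap.ext fun f => Prod.ext
    (show rhoFun (n + 1) 2 0 = (0 : Fin (n + 1) → ℂ) - 0 by rw [rhoFun_zero, sub_zero])
    (rho_cu n f.1)
  dt := LinearMap.ext fun f => Prod.ext (rhoFun_zero (n + 1) 3) (rho_dt n f.1)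
  du := LinearMap.ext fun f => Prod.ext
    (show rhoFun (n + 1) 3 0 = (0 : Fin (n + 1) → ℂ) - 0 by rw [rhoFun_zero, sub_zero])
    (rho_du n f.1)
  tt := LinearMap.ext fun f => Prod.ext rfl (th1L n).map_zero
  tu := LinearMap.ext fun f => Prod.ext rfl (th1L n).map_zero
  ut := LinearMap.ext fun f => Prod.ext rfl (th2L n).map_zero
  uu := LinearMap.ext fun f => Prod.ext rfl (th2L n).map_zero
  T1 := LinearMap.ext fun f => Prod.ext (add_zero (0 : Fin (n + 1) → ℂ)) (th_d n f.1)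
  T2 := LinearMap.ext fun f => Prod.ext (add_zero (0 : Fin (n + 1) → ℂ)).symm (th_b n f.1)

/-- the representation -/
noncomputable def EMrep (n : ℕ) : UU →ₐ[ℂ] Module.End ℂ (EM n) := liftU (EMend n) (EMend_isRep n)

noncomputable instance (n : ℕ) : Module UU (EM n) :=
  Module.compHom (EM n) (EMrep n).toRingHom

theorem EM_smul_def (n : ℕ) (x : UU) (p : EM n) : x • p = EMrep n x p := rfl

instance (n : ℕ) : IsScalarTower ℂ UU (EM n) where
  smul_assoc c x p := by
    rw [EM_smul_def, EM_smul_def, map_smul]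
    rfl

theorem EM_gx_smul (n : ℕ) (x : Fin 4) (p : Fin (n + 1) → ℂ) (q : Fin n → ℂ) :
    gx x • EM.mk p q = EM.mk (rhoFun (n + 1) x p) (rhoFun n x q) := by
  rw [EM_smul_def]
  unfold EMrep gx
  rw [liftU_ug]
  fin_cases x <;> rfl
theorem EM_ug4_smul (n : ℕ) (p : Fin (n + 1) → ℂ) (q : Fin n → ℂ) :
    ug 4 • EM.mk p q = EM.mk 0 (th1 n p) := by
  rw [EM_smul_def]
  unfold EMrep
  rw [liftU_ug]
  rfl
theorem EM_ug5_smul (n : ℕ) (p : Fin (n + 1) → ℂ) (q : Fin n → ℂ) :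
    ug 5 • EM.mk p q = EM.mk 0 (th2 n p) := by
  rw [EM_smul_def]
  unfold EMrep
  rw [liftU_ug]
  rfl

/-- an additive `ℂ`-linear map compatible with the generators is `UU`-linear -/
theorem linear_of_gen {M N : Type*} [AddCommGroup M] [Module UU M] [AddCommGroup N] [Module UU N]
    [Module ℂ M] [Module ℂ N] [IsScalarTower ℂ UU M] [IsScalarTower ℂ UU N] (f : M → N)
    (hadd : ∀ x y, f (x + y) = f x + f y) (hsmul : ∀ (c : ℂ) x, f (c • x) = c • f x)
    (hg : ∀ i x, f (ug i • x) = ug i • f x) (x : UU) (v : M) : f (x • v) = x • f v := by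
  induction x using UU_induction generalizing v with
  | hone => rw [one_smul, one_smul]
  | hadd x y hx hy => rw [add_smul, add_smul, hadd, hx, hy]
  | hsmul r x hx => rw [smul_assoc, smul_assoc, hsmul, hx]
  | hmul i x hx => rw [mul_smul, mul_smul, hg, hx]

/-- `Y_n → E_n`, `q ↦ (0, q)` -/
noncomputable def iE (n : ℕ) : YM n →ₗ[UU] EM n where
  toFun q := EM.mk 0 q
  map_add' := by
    intro p q
    exact Prod.ext (add_zero (0 : Fin (n + 1) → ℂ)).symm rfl
  map_smul' := by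
    refine fun x v => linear_of_gen (M := YM n) (N := EM n) (fun q => EM.mk 0 q) ?_ ?_ ?_ x v
    · intro p q
      exact Prod.ext (add_zero (0 : Fin (n + 1) → ℂ)).symm rfl
    · intro c q
      exact Prod.ext (smul_zero c : c • (0 : Fin (n + 1) → ℂ) = 0).symm rfl
    · intro i q
      fin_cases i
      · exact ((EM_gx_smul n 0 0 q).trans (by rw [rhoFun_zero]; exact congrArg _ (YM_gx_smul n 0 q).symm)).symm
      · exact ((EM_gx_smul n 1 0 q).trans (by rw [rhoFun_zero]; exact congrArg _ (YM_gx_smul n 1 q).symm)).symm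
      · exact ((EM_gx_smul n 2 0 q).trans (by rw [rhoFun_zero]; exact congrArg _ (YM_gx_smul n 2 q).symm)).symm
      · exact ((EM_gx_smul n 3 0 q).trans (by rw [rhoFun_zero]; exact congrArg _ (YM_gx_smul n 3 q).symm)).symm
      · exact ((EM_ug4_smul n 0 q).trans (by
          rw [show th1 n (0 : Fin (n + 1) → ℂ) = 0 from (th1L n).map_zero]
          exact congrArg _ (YM_ug4_smul n q).symm)).symm
      · exact ((EM_ug5_smul n 0 q).trans (by
          rw [show th2 n (0 : Fin (n + 1) → ℂ) = 0 from (th2L n).map_zero]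
          exact congrArg _ (YM_ug5_smul n q).symm)).symm
/-- `E_n → Y_{n+1}`, `(p, q) ↦ p` -/
noncomputable def qE (n : ℕ) : EM n →ₗ[UU] YM (n + 1) where
  toFun v := v.fst
  map_add' := by intro v w; rfl
  map_smul' := by
    refine fun x v => linear_of_gen (M := EM n) (N := YM (n + 1)) (fun v => v.fst) ?_ ?_ ?_ x v
    · intro v w; rfl
    · intro c v; rfl
    · rintro i ⟨p, q⟩
      fin_cases i
      · exact (congrArg EM.fst (EM_gx_smul n 0 p q)).trans (YM_gx_smul (n + 1) 0 p).symm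
      · exact (congrArg EM.fst (EM_gx_smul n 1 p q)).trans (YM_gx_smul (n + 1) 1 p).symm
      · exact (congrArg EM.fst (EM_gx_smul n 2 p q)).trans (YM_gx_smul (n + 1) 2 p).symm
      · exact (congrArg EM.fst (EM_gx_smul n 3 p q)).trans (YM_gx_smul (n + 1) 3 p).symm
      · exact (congrArg EM.fst (EM_ug4_smul n p q)).trans (YM_ug4_smul (n + 1) p).symm
      · exact (congrArg EM.fst (EM_ug5_smul n p q)).trans (YM_ug5_smul (n + 1) p).symm

/-! ## Facts about `T` on `Y_{n+1}` (here `u, v : Fin (n+1) → ℂ`) -/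

/-- coordinates of `T̄`, first component -/
theorem Tbar1_castSucc (n : ℕ) (u v : Fin (n + 1) → ℂ) (s : Fin n) :
    (-(rhoFun (n + 1) 3 u + u) + rhoFun (n + 1) 1 v) s.castSucc =
      ((s : ℕ) + 1 : ℂ) * (v s.succ - u s.castSucc) := by
  have h1 : ((s.castSucc : Fin (n + 1)) : ℕ) + 1 < n + 1 := by simp
  have e1 : (⟨((s.castSucc : Fin (n + 1)) : ℕ) + 1, h1⟩ : Fin (n + 1)) = s.succ := Fin.ext (by simp)
  simp only [Pi.add_apply, Pi.neg_apply, rhoFun_apply1, rhoFun_apply3, smul_eq_mul]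
  rw [dif_pos h1, e1]
  simp
  ring
theorem Tbar1_last (n : ℕ) (u v : Fin (n + 1) → ℂ) :
    (-(rhoFun (n + 1) 3 u + u) + rhoFun (n + 1) 1 v) (Fin.last n) =
      -((n : ℂ) + 1) * u (Fin.last n) := by
  simp only [Pi.add_apply, Pi.neg_apply, rhoFun_apply1, rhoFun_apply3, smul_eq_mul]
  rw [dif_neg (by simp)]
  simp
  ring
/-- coordinates of `T̄`, second component -/
theorem Tbar2_succ (n : ℕ) (u v : Fin (n + 1) → ℂ) (s : Fin n) :
    (rhoFun (n + 1) 2 u - (rhoFun (n + 1) 0 v + v)) s.succ =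
      ((n : ℂ) - (s : ℕ)) * (u s.castSucc - v s.succ) := by
  have e1 : (⟨((s.succ : Fin (n + 1)) : ℕ) - 1, by simp⟩ : Fin (n + 1)) = s.castSucc :=
    Fin.ext (by simp)
  simp only [Pi.sub_apply, Pi.add_apply, rhoFun_apply2, rhoFun_apply0, smul_eq_mul]
  rw [if_pos (by simp : 0 < ((s.succ : Fin (n + 1)) : ℕ)), e1]
  simp
  ring
theorem Tbar2_zero (n : ℕ) (u v : Fin (n + 1) → ℂ) :
    (rhoFun (n + 1) 2 u - (rhoFun (n + 1) 0 v + v)) 0 = -((n : ℂ) + 1) * v 0 := by
  simp only [Pi.sub_apply, Pi.add_apply, rhoFun_apply2, rhoFun_apply0, smul_eq_mul]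
  rw [if_neg (by simp)]
  simp
  ring

theorem upU_castSucc {A : Type*} [Zero A] {m : ℕ} (p : Fin m → A) (s : Fin m) :
    upU p s.castSucc = p s := Fin.snoc_castSucc (α := fun _ => A) _ _ _
theorem upU_last {A : Type*} [Zero A] {m : ℕ} (p : Fin m → A) :
    upU p (Fin.last m) = 0 := Fin.snoc_last (α := fun _ => A) _ _
theorem upV_succ {A : Type*} [Zero A] {m : ℕ} (p : Fin m → A) (s : Fin m) :
    upV p s.succ = p s := rfl
theorem upV_zero {A : Type*} [Zero A] {m : ℕ} (p : Fin m → A) :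
    upV p 0 = 0 := rfl

theorem nat_add_one_ne (n : ℕ) : (n : ℂ) + 1 ≠ 0 := by exact_mod_cast Nat.succ_ne_zero n

/-- `T̄(u,v) = 0` iff `(u,v) = (p, Xp)` -/
theorem Tbar_eq_zero_iff (n : ℕ) (u v : Fin (n + 1) → ℂ) :
    (-(rhoFun (n + 1) 3 u + u) + rhoFun (n + 1) 1 v = 0 ∧
      rhoFun (n + 1) 2 u - (rhoFun (n + 1) 0 v + v) = 0) ↔
    ∃ p : Fin n → ℂ, u = upU p ∧ v = upV p := by
  constructor
  · rintro ⟨h1, h2⟩
    have hu : u (Fin.last n) = 0 := by
      have := congrFun h1 (Fin.last n)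
      rw [Tbar1_last] at this
      exact (mul_eq_zero.mp this).resolve_left (neg_ne_zero.mpr (nat_add_one_ne n))
    have hv : v 0 = 0 := by
      have := congrFun h2 0
      rw [Tbar2_zero] at this
      exact (mul_eq_zero.mp this).resolve_left (neg_ne_zero.mpr (nat_add_one_ne n))
    have huv : ∀ s : Fin n, v s.succ = u s.castSucc := by
      intro s
      have := congrFun h1 s.castSucc
      rw [Tbar1_castSucc] at this
      have h3 := nat_add_one_ne (s : ℕ)
      have h4 : v s.succ - u s.castSucc = 0 := by simpa [h3] using this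
      exact sub_eq_zero.mp h4
    refine ⟨fun s => u s.castSucc, ?_, ?_⟩
    · ext s
      refine Fin.lastCases ?_ (fun s => ?_) s
      · rw [upU_last, hu]
      · rw [upU_castSucc]
    · ext s
      refine Fin.cases ?_ (fun s => ?_) s
      · rw [upV_zero, hv]
      · rw [upV_succ, huv]
  · rintro ⟨p, rfl, rfl⟩
    constructor
    · ext s
      refine Fin.lastCases ?_ (fun s => ?_) s
      · rw [Tbar1_last, upU_last]; simp
      · rw [Tbar1_castSucc, upU_castSucc, upV_succ]; simp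
    · ext s
      refine Fin.cases ?_ (fun s => ?_) s
      · rw [Tbar2_zero, upV_zero]; simp
      · rw [Tbar2_succ, upU_castSucc, upV_succ]; simp

/-- if `θ₁ u + θ₂ v = 0` then `(u, v)` is in the range of `T̄` -/
theorem exists_Tbar (n : ℕ) (u v : Fin (n + 1) → ℂ) (h : th1 n u + th2 n v = 0) :
    ∃ u' v' : Fin (n + 1) → ℂ, u = -(rhoFun (n + 1) 3 u' + u') + rhoFun (n + 1) 1 v' ∧
      v = rhoFun (n + 1) 2 u' - (rhoFun (n + 1) 0 v' + v') := by
  have hn := nat_add_one_ne n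
  have hs : ∀ s : Fin n, ((n : ℂ) - (s : ℕ)) * u s.castSucc + ((s : ℕ) + 1 : ℂ) * v s.succ = 0 := by
    intro s
    have := congrFun h s
    simpa [th1_apply, th2_apply] using this
  refine ⟨(-((n : ℂ) + 1)⁻¹) • u, (-((n : ℂ) + 1)⁻¹) • v, ?_, ?_⟩
  · ext s
    refine Fin.lastCases ?_ (fun s => ?_) s
    · rw [Tbar1_last]
      simp only [Pi.smul_apply, smul_eq_mul]
      field_simp
    · rw [Tbar1_castSucc]
      simp only [Pi.smul_apply, smul_eq_mul]
      have := hs s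
      field_simp
      linear_combination this
  · ext s
    refine Fin.cases ?_ (fun s => ?_) s
    · rw [Tbar2_zero]
      simp only [Pi.smul_apply, smul_eq_mul]
      field_simp
    · rw [Tbar2_succ]
      simp only [Pi.smul_apply, smul_eq_mul]
      have := hs s
      field_simp
      linear_combination this

/-- surjectivity of `(θ₁, θ₂)` -/
theorem exists_th (n : ℕ) (q : Fin n → ℂ) :
    ∃ u v : Fin (n + 1) → ℂ, th1 n u + th2 n v = q := by
  have hn := nat_add_one_ne n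
  refine ⟨((n : ℂ) + 1)⁻¹ • upU q, ((n : ℂ) + 1)⁻¹ • upV q, ?_⟩
  ext s
  simp only [Pi.add_apply, th1_apply, th2_apply, Pi.smul_apply, smul_eq_mul, upU_castSucc,
    upV_succ]
  field_simp
  ring

/-- `θ`'s kill the range of `T̄` -/
theorem th_Tbar (n : ℕ) (u v : Fin (n + 1) → ℂ) :
    th1 n (-(rhoFun (n + 1) 3 u + u) + rhoFun (n + 1) 1 v) +
      th2 n (rhoFun (n + 1) 2 u - (rhoFun (n + 1) 0 v + v)) = 0 := by
  ext s
  have e : (th1 n (-(rhoFun (n + 1) 3 u + u) + rhoFun (n + 1) 1 v) +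
      th2 n (rhoFun (n + 1) 2 u - (rhoFun (n + 1) 0 v + v))) s =
      ((n : ℂ) - (s : ℕ)) * (-(rhoFun (n + 1) 3 u + u) + rhoFun (n + 1) 1 v) s.castSucc +
      ((s : ℕ) + 1 : ℂ) * (rhoFun (n + 1) 2 u - (rhoFun (n + 1) 0 v + v)) s.succ := rfl
  rw [e, Tbar1_castSucc, Tbar2_succ, Pi.zero_apply]
  ring

theorem upU_injective {n : ℕ} {p q : Fin n → ℂ} (h : upU p = upU q) : p = q := by
  ext s
  have := congrFun h s.castSucc
  rwa [upU_castSucc, upU_castSucc] at this

/-- `ρ` on `upU p`, `upV p` in terms of `ρ` on `p` (twisted equivariance) -/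
theorem upU_rho_a (n : ℕ) (p : Fin n → ℂ) :
    upU (rhoFun n 0 p) = rhoFun (n + 1) 0 (upU p) - upU p := by
  ext s
  refine Fin.lastCases ?_ (fun s => ?_) s
  · simp [upU_last, rhoFun_apply0]
  · simp [upU_castSucc, rhoFun_apply0]; ring
theorem upV_rho_a (n : ℕ) (p : Fin n → ℂ) :
    upV (rhoFun n 0 p) = rhoFun (n + 1) 0 (upV p) := by
  ext s
  refine Fin.cases ?_ (fun s => ?_) s
  · simp [upV_zero, rhoFun_apply0]
  · rw [upV_succ, rhoFun_apply0, rhoFun_apply0, upV_succ]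
    push_cast
    simp only [Fin.val_succ, smul_eq_mul]
    push_cast
    ring
theorem upU_rho_b (n : ℕ) (p : Fin n → ℂ) :
    upU (rhoFun n 1 p) = rhoFun (n + 1) 1 (upU p) := by
  ext s
  refine Fin.lastCases ?_ (fun s => ?_) s
  · rw [upU_last, rhoFun_apply1, dif_neg (by simp)]
  · have h1 : ((s.castSucc : Fin (n + 1)) : ℕ) + 1 < n + 1 := by simp
    rw [upU_castSucc, rhoFun_apply1, rhoFun_apply1, dif_pos h1]
    split_ifs with h
    · have e2 : (⟨((s.castSucc : Fin (n + 1)) : ℕ) + 1, h1⟩ : Fin (n + 1)) =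
          (⟨(s : ℕ) + 1, h⟩ : Fin n).castSucc := Fin.ext (by simp)
      rw [e2, upU_castSucc]
      rfl
    · have e2 : (⟨((s.castSucc : Fin (n + 1)) : ℕ) + 1, h1⟩ : Fin (n + 1)) = Fin.last n :=
        Fin.ext (by have := s.2; simp; omega)
      rw [e2, upU_last, smul_zero]
theorem upV_rho_b (n : ℕ) (p : Fin n → ℂ) :
    upV (rhoFun n 1 p) = rhoFun (n + 1) 1 (upV p) - upU p := by
  ext s
  have hs := s.2
  rw [Pi.sub_apply, rhoFun_apply1]
  -- the coefficient at `s` of `(X p)'` is `(s + 1) p_s`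
  by_cases h : (s : ℕ) < n
  · have e0 : s = (⟨s, h⟩ : Fin n).castSucc := Fin.ext (by simp)
    have e1 : (⟨(s : ℕ) + 1, by omega⟩ : Fin (n + 1)) = (⟨s, h⟩ : Fin n).succ := Fin.ext (by simp)
    rw [dif_pos (by omega), e1, upV_succ]
    have e2 : upU p s = p ⟨s, h⟩ := by
      conv_lhs => rw [e0]
      exact upU_castSucc p _
    rw [e2]
    by_cases h0 : (s : ℕ) = 0
    · have e3 : s = 0 := Fin.ext h0
      have e4 : upV (rhoFun n 1 p) s = 0 := by rw [e3]; rfl
      have e7 : ((s : ℕ) : ℂ) = 0 := by exact_mod_cast h0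
      rw [e4, e7]
      simp
    · have h3 : (s : ℕ) - 1 < n := by omega
      have e3 : s = (⟨(s : ℕ) - 1, h3⟩ : Fin n).succ := Fin.ext (by simp; omega)
      have e4 : upV (rhoFun n 1 p) s = rhoFun n 1 p ⟨(s : ℕ) - 1, h3⟩ := by
        conv_lhs => rw [e3]
        rfl
      have e5 : ((((s : ℕ) - 1 : ℕ)) : ℂ) = (s : ℕ) - 1 := by
        rw [Nat.cast_sub (by omega : 1 ≤ (s : ℕ))]; simp
      have e6 : (⟨(s : ℕ) - 1 + 1, by omega⟩ : Fin n) = ⟨s, h⟩ := Fin.ext (by simp; omega)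
      rw [e4, rhoFun_apply1, dif_pos (by simp; omega)]
      simp only [e6, e5, smul_eq_mul]
      ring
  · have e0 : s = Fin.last n := Fin.ext (by simp; omega)
    rw [dif_neg (by omega), e0, upU_last]
    rcases n with _ | k
    · have : (Fin.last 0 : Fin 1) = 0 := rfl
      rw [this, upV_zero]; simp
    · have : (Fin.last (k + 1)) = (Fin.last k).succ := rfl
      rw [this, upV_succ, rhoFun_apply1, dif_neg (by simp)]
      simp
theorem upU_rho_c (n : ℕ) (p : Fin n → ℂ) :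
    upU (rhoFun n 2 p) = rhoFun (n + 1) 2 (upU p) - upV p := by
  ext s
  have hs := s.2
  rw [Pi.sub_apply, rhoFun_apply2]
  by_cases h0 : (s : ℕ) = 0
  · have e3 : s = 0 := Fin.ext h0
    rw [if_neg (by omega)]
    have e4 : upV p s = 0 := by rw [e3]; rfl
    rw [e4]
    by_cases h : (s : ℕ) < n
    · have e0 : s = (⟨s, h⟩ : Fin n).castSucc := Fin.ext (by simp)
      have e2 : upU (rhoFun n 2 p) s = rhoFun n 2 p ⟨s, h⟩ := by
        conv_lhs => rw [e0]
        exact upU_castSucc _ _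
      rw [e2, rhoFun_apply2, if_neg (by simp; omega)]
      simp
    · have e0 : s = Fin.last n := Fin.ext (by simp; omega)
      rw [e0, upU_last]; simp
  · have h3 : (s : ℕ) - 1 < n := by omega
    have e3 : s = (⟨(s : ℕ) - 1, h3⟩ : Fin n).succ := Fin.ext (by simp; omega)
    have e4 : upV p s = p ⟨(s : ℕ) - 1, h3⟩ := by
      conv_lhs => rw [e3]
      rfl
    have e5 : upU p ⟨(s : ℕ) - 1, by omega⟩ = p ⟨(s : ℕ) - 1, h3⟩ := upU_castSucc p ⟨(s : ℕ) - 1, h3⟩
    rw [if_pos (by omega), e4, e5]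
    by_cases h : (s : ℕ) < n
    · have e0 : s = (⟨s, h⟩ : Fin n).castSucc := Fin.ext (by simp)
      have e2 : upU (rhoFun n 2 p) s = rhoFun n 2 p ⟨s, h⟩ := by
        conv_lhs => rw [e0]
        exact upU_castSucc _ _
      have h4 : 0 < (s : ℕ) := Nat.pos_of_ne_zero h0
      rw [e2, rhoFun_apply2, if_pos (show 0 < ((⟨s, h⟩ : Fin n) : ℕ) from h4)]
      simp only [smul_eq_mul]
      push_cast
      ring
    · have e0 : s = Fin.last n := Fin.ext (by simp; omega)
      have e2 : upU (rhoFun n 2 p) s = 0 := by rw [e0, upU_last]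
      have e6 : ((s : ℕ) : ℂ) = n := by exact_mod_cast (by omega : (s : ℕ) = n)
      rw [e2, e6]
      push_cast
      simp
theorem upV_rho_c (n : ℕ) (p : Fin n → ℂ) :
    upV (rhoFun n 2 p) = rhoFun (n + 1) 2 (upV p) := by
  ext s
  refine Fin.cases ?_ (fun s => ?_) s
  · rw [upV_zero, rhoFun_apply2, if_neg (by simp)]
  · have hs := s.2
    have e1 : (⟨((s.succ : Fin (n + 1)) : ℕ) - 1, by simp⟩ : Fin (n + 1)) = s.castSucc :=
      Fin.ext (by simp)
    rw [upV_succ, rhoFun_apply2, rhoFun_apply2, if_pos (by simp : 0 < ((s.succ : Fin (n + 1)) : ℕ)),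
      e1]
    by_cases h0 : 0 < (s : ℕ)
    · have h3 : (s : ℕ) - 1 < n := by omega
      have e3 : s.castSucc = (⟨(s : ℕ) - 1, h3⟩ : Fin n).succ := Fin.ext (by simp; omega)
      rw [if_pos h0, e3, upV_succ]
      simp
    · have e3 : s.castSucc = (0 : Fin (n + 1)) := Fin.ext (by simp; omega)
      rw [if_neg h0, e3, upV_zero, smul_zero]
theorem upU_rho_d (n : ℕ) (p : Fin n → ℂ) :
    upU (rhoFun n 3 p) = rhoFun (n + 1) 3 (upU p) := by
  ext s
  refine Fin.lastCases ?_ (fun s => ?_) s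
  · simp [upU_last, rhoFun_apply3]
  · simp [upU_castSucc, rhoFun_apply3]
theorem upV_rho_d (n : ℕ) (p : Fin n → ℂ) :
    upV (rhoFun n 3 p) = rhoFun (n + 1) 3 (upV p) - upV p := by
  ext s
  refine Fin.cases ?_ (fun s => ?_) s
  · simp [upV_zero, rhoFun_apply3]
  · simp [upV_succ, rhoFun_apply3]; ring

end Crest.Agent.FD
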