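import Crest.Agent.FD.LemA
import Crest.Agent.FD.LemC
import Crest.Agent.FD.FilMul
import Crest.Agent.FD.Yrep

/-! # S0268 module I (auxiliary): exactness over `S`-pairs modulo `T` -/

set_option autoImplicit false
set_option maxHeartbeats 200000
set_option synthInstance.maxHeartbeats 20000

namespace Crest.Agent.FD

open MvPolynomial

section mem
variable {B N : Type*} [Ring B] [AddCommGroup N] [Module B N] (r : Fin 4 → N →ₗ[B] N)
  (W W' : AddSubgroup N) (hW : W ≤ W') (hr : ∀ x f, f ∈ W → r x f ∈ W')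

include hr in
theorem D1_memW (f : Fin 4 → N) (hf : ∀ t, f t ∈ W) : D1 r f ∈ W' :=
  add_mem (add_mem (add_mem (hr _ _ (hf _)) (hr _ _ (hf _))) (hr _ _ (hf _))) (hr _ _ (hf _))

include hW hr in
theorem D2_memW (f : Fin 6 → N) (hf : ∀ t, f t ∈ W) (t : Fin 4) : D2 r f t ∈ W' := by
  have h1 : ∀ x t, r x (f t) ∈ W' := fun x t => hr x _ (hf t)
  have h2 : ∀ t, f t ∈ W' := fun t => hW (hf t)
  fin_cases t
  · exact sub_mem (sub_mem (sub_mem (neg_mem (h1 _ _)) (h1 _ _)) (h1 _ _)) (h2 _)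
  · exact sub_mem (sub_mem (sub_mem (sub_mem (h1 _ _) (h1 _ _)) (h1 _ _)) (h2 _)) (h2 _)
  · exact add_mem (add_mem (sub_mem (add_mem (h1 _ _) (h1 _ _)) (h1 _ _)) (h2 _)) (h2 _)
  · exact add_mem (add_mem (add_mem (h1 _ _) (h1 _ _)) (h1 _ _)) (h2 _)

include hW hr in
theorem D3_memW (f : Fin 4 → N) (hf : ∀ t, f t ∈ W) (t : Fin 6) : D3 r f t ∈ W' := by
  have h1 : ∀ x t, r x (f t) ∈ W' := fun x t => hr x _ (hf t)
  have h2 : ∀ t, f t ∈ W' := fun t => hW (hf t)
  fin_cases t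
  · exact add_mem (add_mem (h1 _ _) (h1 _ _)) (h2 _)
  · exact sub_mem (add_mem (neg_mem (h1 _ _)) (h1 _ _)) (h2 _)
  · exact sub_mem (sub_mem (sub_mem (neg_mem (h2 _)) (h1 _ _)) (h1 _ _)) (h2 _)
  · exact add_mem (h1 _ _) (h1 _ _)
  · exact sub_mem (sub_mem (h1 _ _) (h2 _)) (h1 _ _)
  · exact add_mem (add_mem (h1 _ _) (h2 _)) (h1 _ _)

include hr in
theorem D4_memW (f : N) (hf : f ∈ W) (t : Fin 4) : D4 r f t ∈ W' := by
  have h1 : ∀ x, r x f ∈ W' := fun x => hr x _ hf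
  fin_cases t
  · exact neg_mem (h1 _)
  · exact h1 _
  · exact neg_mem (h1 _)
  · exact h1 _

end mem

/-- functions with values in `Sle m` -/
noncomputable def SF (ι : Type*) (m : ℤ) : AddSubgroup (ι → S) where
  carrier := {f | ∀ s, f s ∈ Sle m}
  add_mem' hf hg s := add_mem (hf s) (hg s)
  zero_mem' s := zero_mem _
  neg_mem' hf s := neg_mem (hf s)

theorem mem_SF {ι : Type*} {m : ℤ} {f : ι → S} : f ∈ SF ι m ↔ ∀ s, f s ∈ Sle m := Iff.rfl

theorem SF_mono {ι : Type*} {m k : ℤ} (h : m ≤ k) : SF ι m ≤ SF ι k :=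
  fun _ hf s => Sle_mono h (hf s)

/-! ## pairs -/

abbrev NS (n : ℕ) := Fin (n + 1) → S
abbrev NP (n : ℕ) := Fin 2 × Fin (n + 1) → S
abbrev NU (n : ℕ) := Fin (n + 1) → UU

/-- twisted right multiplications on pairs -/
noncomputable def RP (n : ℕ) (x : Fin 4) : NP n →ₗ[ℂ] NP n where
  toFun f := fun ks => RS n x (fun s => f (ks.1, s)) ks.2
  map_add' f g := by
    ext1 ks
    exact congrFun ((RS n x).map_add (fun s => f (ks.1, s)) (fun s => g (ks.1, s))) ks.2
  map_smul' a f := by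
    ext1 ks
    exact congrFun ((RS n x).map_smul a (fun s => f (ks.1, s))) ks.2

theorem RS_deg' (n : ℕ) (x : Fin 4) (m : ℤ) (f : Fin (n + 1) → S) (hf : ∀ s, f s ∈ Sle m)
    (s : Fin (n + 1)) : RS n x f s - X x * f s ∈ Sle m := by
  have h1 := Rop_sub_mem (hf s) x
  have h2 := rhoFun_mem (n + 1) (Sle m) x f hf s
  have h3 : RS n x f s - X x * f s = (Rop x (f s) - X x * f s) - rhoFun (n + 1) x f s := by
    rw [Rt_apply]; ring
  rw [h3]
  exact sub_mem h1 h2

theorem isOp_RS' (n : ℕ) : IsOp (RS n) :=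
  isOp_Rt Rop (fun x c a => (Rop x).map_smul c a) isOp_Rop (n + 1)

theorem RP_deg (n : ℕ) (x : Fin 4) (m : ℤ) (f : NP n) (hf : ∀ s, f s ∈ Sle m)
    (ks : Fin 2 × Fin (n + 1)) : RP n x f ks - X x * f ks ∈ Sle m :=
  RS_deg' n x m (fun s => f (ks.1, s)) (fun s => hf _) ks.2

theorem isOp_RP (n : ℕ) : IsOp (RP n) where
  ab f := by
    ext1 ks; exact congrFun ((isOp_RS' n).ab (fun s => f (ks.1, s))) ks.2
  ac f := by
    ext1 ks; exact congrFun ((isOp_RS' n).ac (fun s => f (ks.1, s))) ks.2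
  ad f := by
    ext1 ks; exact congrFun ((isOp_RS' n).ad (fun s => f (ks.1, s))) ks.2
  bc f := by
    ext1 ks; exact congrFun ((isOp_RS' n).bc (fun s => f (ks.1, s))) ks.2
  bd f := by
    ext1 ks; exact congrFun ((isOp_RS' n).bd (fun s => f (ks.1, s))) ks.2
  cd f := by
    ext1 ks; exact congrFun ((isOp_RS' n).cd (fun s => f (ks.1, s))) ks.2

theorem RP_mem (n : ℕ) (x : Fin 4) {m : ℤ} (f : NP n) (hf : f ∈ SF _ m) :
    RP n x f ∈ SF _ (m + 1) := by
  intro ks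
  have h1 := RP_deg n x m f hf ks
  have h2 : X x * f ks ∈ Sle (m + 1) := by
    rw [add_comm]; exact mul_mem_Sle (X_mem_Sle x) (hf ks)
  have := add_mem (Sle_mono (by omega : m ≤ m + 1) h1) h2
  simpa using this

/-- `T` on pairs -/
noncomputable def TP (n : ℕ) : NP n →+ NP n where
  toFun f := fun ks => if ks.1 = 0 then T1 (f (0, ks.2)) (f (1, ks.2))
    else T2 (f (0, ks.2)) (f (1, ks.2))
  map_zero' := by
    ext1 ks
    by_cases h : ks.1 = 0 <;> simp [h, T1, T2]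
  map_add' f g := by
    ext1 ks
    by_cases h : ks.1 = 0 <;> simp [h, T1_add, T2_add]

theorem TP_fst (n : ℕ) (f : NP n) (s : Fin (n + 1)) : TP n f (0, s) = T1 (f (0, s)) (f (1, s)) := by
  simp [TP]
theorem TP_snd (n : ℕ) (f : NP n) (s : Fin (n + 1)) : TP n f (1, s) = T2 (f (0, s)) (f (1, s)) := by
  simp [TP]

theorem fin2_cases {n : ℕ} {P : Fin 2 × Fin (n + 1) → Prop} (h0 : ∀ s, P (0, s))
    (h1 : ∀ s, P (1, s)) (ks : Fin 2 × Fin (n + 1)) : P ks := by
  obtain ⟨k, s⟩ := ks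
  fin_cases k
  · exact h0 s
  · exact h1 s

/-- `T1` and `T2` as linear maps -/
noncomputable def T1L : S × S →ₗ[ℂ] S where
  toFun w := T1 w.1 w.2
  map_add' w v := T1_add _ _ _ _
  map_smul' c w := T1_smul _ _ _
noncomputable def T2L : S × S →ₗ[ℂ] S where
  toFun w := T2 w.1 w.2
  map_add' w v := T2_add _ _ _ _
  map_smul' c w := T2_smul _ _ _

theorem rhoFun_prod {A A' : Type*} [AddCommGroup A] [Module ℂ A] [AddCommGroup A'] [Module ℂ A']
    (m : ℕ) (x : Fin 4) (f : Fin m → A) (g : Fin m → A') (s : Fin m) :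
    rhoFun m x (fun s => (f s, g s)) s = (rhoFun m x f s, rhoFun m x g s) := by
  refine Prod.ext ?_ ?_
  · exact rhoFun_map m (LinearMap.fst ℂ A A') x (fun s => (f s, g s)) s
  · exact rhoFun_map m (LinearMap.snd ℂ A A') x (fun s => (f s, g s)) s

theorem T1_rho (n : ℕ) (x : Fin 4) (f g : Fin n → S) (s : Fin n) :
    rhoFun n x (fun s => T1 (f s) (g s)) s = T1 (rhoFun n x f s) (rhoFun n x g s) := by
  have h := rhoFun_map n T1L x (fun s => (f s, g s)) s
  rw [rhoFun_prod] at h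
  exact h.symm

theorem T2_rho (n : ℕ) (x : Fin 4) (f g : Fin n → S) (s : Fin n) :
    rhoFun n x (fun s => T2 (f s) (g s)) s = T2 (rhoFun n x f s) (rhoFun n x g s) := by
  have h := rhoFun_map n T2L x (fun s => (f s, g s)) s
  rw [rhoFun_prod] at h
  exact h.symm

theorem TP_RP (n : ℕ) (x : Fin 4) (f : NP n) : TP n (RP n x f) = RP n x (TP n f) := by
  ext1 ks
  induction ks using fin2_cases with
  | h0 s =>
    rw [TP_fst]
    show T1 (RS n x (fun s => f (0, s)) s) (RS n x (fun s => f (1, s)) s)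
      = RS n x (fun s => TP n f (0, s)) s
    simp only [TP_fst]
    rw [Rt_apply, Rt_apply, Rt_apply, T1_rho, ← T1_Rop]
    exact (T1L.map_sub (Rop x (f (0, s)), Rop x (f (1, s)))
      (rhoFun (n+1) x (fun s => f (0, s)) s, rhoFun (n+1) x (fun s => f (1, s)) s))
  | h1 s =>
    rw [TP_snd]
    show T2 (RS n x (fun s => f (0, s)) s) (RS n x (fun s => f (1, s)) s)
      = RS n x (fun s => TP n f (1, s)) s
    simp only [TP_snd]
    rw [Rt_apply, Rt_apply, Rt_apply, T2_rho, ← T2_Rop]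
    exact (T2L.map_sub (Rop x (f (0, s)), Rop x (f (1, s)))
      (rhoFun (n+1) x (fun s => f (0, s)) s, rhoFun (n+1) x (fun s => f (1, s)) s))

theorem TP_strict (n : ℕ) {m : ℤ} {f : NP n} (h : TP n f ∈ SF _ m) : f ∈ SF _ (m - 1) := by
  have h' : ∀ s, f (0, s) ∈ Sle (m - 1) ∧ f (1, s) ∈ Sle (m - 1) := by
    intro s
    have h1 := h (0, s)
    have h2 := h (1, s)
    rw [TP_fst] at h1
    rw [TP_snd] at h2
    exact T_strict h1 h2
  exact fin2_cases (fun s => (h' s).1) (fun s => (h' s).2)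

theorem TP_inj (n : ℕ) {f : NP n} (h : TP n f = 0) : f = 0 := by
  have h' : ∀ s, f (0, s) = 0 ∧ f (1, s) = 0 := by
    intro s
    have h1 := congrFun h (0, s)
    have h2 := congrFun h (1, s)
    rw [TP_fst] at h1
    rw [TP_snd] at h2
    exact T_injective h1 h2
  ext1 ks
  exact fin2_cases (P := fun ks => f ks = (0 : NP n) ks) (fun s => (h' s).1) (fun s => (h' s).2) ks

theorem TP_mem (n : ℕ) {m : ℤ} {f : NP n} (h : f ∈ SF _ m) : TP n f ∈ SF _ (m + 1) := by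
  refine fin2_cases (fun s => ?_) (fun s => ?_)
  · rw [TP_fst]; exact T1_mem (h _) (h _)
  · rw [TP_snd]; exact T2_mem (h _) (h _)

/-! ## exactness of the quotient rows, degrees `≥ 2` -/

theorem Q4 (n : ℕ) (m : ℤ) (f : NP n) (hf : f ∈ SF _ m) (w : Fin 4 → NP n)
    (h : D4 (RP n) f = fun t => TP n (w t)) : ∃ v : NP n, v ∈ SF _ (m - 1) ∧ f = TP n v := by
  have hw : ∀ t, w t ∈ SF _ m := by
    intro t
    have h1 : TP n (w t) ∈ SF _ (m + 1) := by
      have := D4_memW (RP n) (SF _ m) (SF _ (m + 1)) (fun x f hf => RP_mem n x f hf) f hf t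
      rw [h] at this; exact this
    have := TP_strict n h1
    simpa using this
  have h2 : D3 (RP n) w = 0 := by
    ext1 t
    apply TP_inj n
    have := D3_nat (RP n) (RP n) (TP n) (TP_RP n) w t
    rw [this, ← h, D3_D4 _ (isOp_RP n)]
    rfl
  obtain ⟨v, hv, hwv⟩ := lemA3 (RP n) (RP_deg n) (isOp_RP n) m w hw h2
  refine ⟨v, hv, ?_⟩
  have h3 : D4 (RP n) (f - TP n v) = 0 := by
    rw [map_sub, h]
    ext1 t
    rw [Pi.sub_apply, hwv]
    have := D4_nat (RP n) (RP n) (TP n) (TP_RP n) v t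
    rw [this]
    simp
  have h4 := lemA4 (RP n) (RP_deg n) m (f - TP n v)
    (sub_mem hf (by simpa using TP_mem n hv)) h3
  exact sub_eq_zero.mp h4

theorem Q3 (n : ℕ) (m : ℤ) (f : Fin 4 → NP n) (hf : ∀ t, f t ∈ SF _ m) (w : Fin 6 → NP n)
    (h : D3 (RP n) f = fun t => TP n (w t)) :
    ∃ (v : Fin 4 → NP n) (g : NP n), (∀ t, v t ∈ SF _ (m - 1)) ∧ g ∈ SF _ (m - 1) ∧
      f = (fun t => TP n (v t)) + D4 (RP n) g := by
  have hw : ∀ t, w t ∈ SF _ m := by
    intro t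
    have h1 : TP n (w t) ∈ SF _ (m + 1) := by
      have := D3_memW (RP n) (SF _ m) (SF _ (m + 1)) (SF_mono (by omega))
        (fun x f hf => RP_mem n x f hf) f hf t
      rw [h] at this; exact this
    have := TP_strict n h1
    simpa using this
  have h2 : D2 (RP n) w = 0 := by
    ext1 t
    apply TP_inj n
    have := D2_nat (RP n) (RP n) (TP n) (TP_RP n) w t
    rw [this, ← h, D2_D3 _ (isOp_RP n)]
    rfl
  obtain ⟨v, hv, hwv⟩ := lemA2 (RP n) (RP_deg n) (isOp_RP n) m w hw h2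
  have h3 : D3 (RP n) (f - fun t => TP n (v t)) = 0 := by
    rw [map_sub, h]
    ext1 t
    rw [Pi.sub_apply, hwv]
    have := D3_nat (RP n) (RP n) (TP n) (TP_RP n) v t
    rw [this]
    simp
  obtain ⟨g, hg, hfg⟩ := lemA3 (RP n) (RP_deg n) (isOp_RP n) m (f - fun t => TP n (v t))
    (fun t => sub_mem (hf t) (by simpa using TP_mem n (hv t))) h3
  exact ⟨v, g, hv, hg, by rw [← hfg]; abel⟩

theorem Q2 (n : ℕ) (m : ℤ) (f : Fin 6 → NP n) (hf : ∀ t, f t ∈ SF _ m) (w : Fin 4 → NP n)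
    (h : D2 (RP n) f = fun t => TP n (w t)) :
    ∃ (v : Fin 6 → NP n) (g : Fin 4 → NP n), (∀ t, v t ∈ SF _ (m - 1)) ∧
      (∀ t, g t ∈ SF _ (m - 1)) ∧ f = (fun t => TP n (v t)) + D3 (RP n) g := by
  have hw : ∀ t, w t ∈ SF _ m := by
    intro t
    have h1 : TP n (w t) ∈ SF _ (m + 1) := by
      have := D2_memW (RP n) (SF _ m) (SF _ (m + 1)) (SF_mono (by omega))
        (fun x f hf => RP_mem n x f hf) f hf t
      rw [h] at this; exact this
    have := TP_strict n h1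
    simpa using this
  have h2 : D1 (RP n) w = 0 := by
    apply TP_inj n
    have := D1_nat (RP n) (RP n) (TP n) (TP_RP n) w
    rw [this, ← h, D1_D2 _ (isOp_RP n)]
  obtain ⟨v, hv, hwv⟩ := lemA1 (RP n) (RP_deg n) (isOp_RP n) m w hw h2
  have h3 : D2 (RP n) (f - fun t => TP n (v t)) = 0 := by
    rw [map_sub, h]
    ext1 t
    rw [Pi.sub_apply, hwv]
    have := D2_nat (RP n) (RP n) (TP n) (TP_RP n) v t
    rw [this]
    simp
  obtain ⟨g, hg, hfg⟩ := lemA2 (RP n) (RP_deg n) (isOp_RP n) m (f - fun t => TP n (v t))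
    (fun t => sub_mem (hf t) (by simpa using TP_mem n (hv t))) h3
  exact ⟨v, g, hv, hg, by rw [← hfg]; abel⟩

end Crest.Agent.FD
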