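import Crest.Agent.FD.RowsAux

/-! # S0268 module I (auxiliary 2): augmentations and the first homology of pairs modulo `T` -/

set_option autoImplicit false
set_option maxHeartbeats 200000
set_option synthInstance.maxHeartbeats 20000

namespace Crest.Agent.FD

open MvPolynomial

/-! ## general augmentation -/

section eps
variable {M : Type*} [AddCommGroup M] [Module ℂ M] [Module UU M] [IsScalarTower ℂ UU M]

/-- `f ↦ ∑ f_s • j(e_s)` -/
noncomputable def epsG (n : ℕ) (j : (Fin (n + 1) → ℂ) →ₗ[ℂ] M) : NU n →ₗ[UU] M where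
  toFun f := ∑ s, f s • j (Pi.single s 1)
  map_add' f g := by simp [add_smul, Finset.sum_add_distrib]
  map_smul' a f := by simp [Finset.smul_sum, mul_smul]

theorem rhoFun_sum (n : ℕ) (x : Fin 4) (f : Fin n → UU) (s : Fin n) :
    rhoFun n x f s = ∑ s', rhoFun n x (Pi.single s' (1 : ℂ)) s • f s' := by
  have h1 : f = ∑ s', (fun s => (Pi.single s' (1 : ℂ) : Fin n → ℂ) s • f s') := by
    ext1 s
    rw [Finset.sum_apply]
    simp [Pi.single_apply]
  have h2 : ∀ (t : Finset (Fin n)) (g : Fin n → Fin n → UU),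
      rhoFun n x (∑ s' ∈ t, g s') = ∑ s' ∈ t, rhoFun n x (g s') := by
    intro t g
    induction t using Finset.induction_on with
    | empty => simp [rhoFun_zero]
    | insert a t ha ih => rw [Finset.sum_insert ha, Finset.sum_insert ha, rhoFun_add, ih]
  conv_lhs => rw [h1]
  rw [h2, Finset.sum_apply]
  refine Finset.sum_congr rfl fun s' _ => ?_
  exact rhoFun_tensor n x (Pi.single s' (1 : ℂ)) (f s') s

theorem epsG_RU (n : ℕ) (j : (Fin (n + 1) → ℂ) →ₗ[ℂ] M)
    (hj : ∀ x p, gx x • j p = j (rhoFun (n + 1) x p)) (x : Fin 4) (f : NU n) :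
    epsG n j (RU n x f) = 0 := by
  have h1 : epsG n j (RU n x f) = ∑ s, (RU n x f s) • j (Pi.single s 1) := rfl
  rw [h1]
  simp only [Rt_apply, sub_smul, Finset.sum_sub_distrib, rmulU_apply, mul_smul, hj]
  rw [sub_eq_zero]
  have h2 : ∀ p : Fin (n + 1) → ℂ, j p = ∑ s, p s • j (Pi.single s 1) := by
    intro p
    conv_lhs => rw [← Finset.univ_sum_single p]
    rw [map_sum]
    refine Finset.sum_congr rfl fun s _ => ?_
    rw [← map_smul]
    congr 1
    ext s'
    simp [Pi.single_apply]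
  have h3 : ∀ (c : ℂ) (y : UU) (m : M), y • (c • m) = (c • y) • m := by
    intro c y m
    rw [smul_assoc]
    have : (c • m) = (algebraMap ℂ UU c) • m := by rw [algebraMap_smul]
    rw [this, ← mul_smul, ← Algebra.commutes, mul_smul, algebraMap_smul]
  calc ∑ s, f s • j (rhoFun (n + 1) x (Pi.single s 1))
      = ∑ s, ∑ s', (rhoFun (n + 1) x (Pi.single s (1:ℂ)) s' • f s) • j (Pi.single s' 1) := by
        refine Finset.sum_congr rfl fun s _ => ?_
        rw [h2 (rhoFun (n + 1) x (Pi.single s 1)), Finset.smul_sum]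
        refine Finset.sum_congr rfl fun s' _ => ?_
        rw [h3]
    _ = ∑ s', ∑ s, (rhoFun (n + 1) x (Pi.single s (1:ℂ)) s' • f s) • j (Pi.single s' 1) :=
        Finset.sum_comm
    _ = ∑ s, rhoFun (n + 1) x f s • j (Pi.single s 1) := by
        refine Finset.sum_congr rfl fun s' _ => ?_
        rw [rhoFun_sum, Finset.sum_smul]

theorem epsG_D1 (n : ℕ) (j : (Fin (n + 1) → ℂ) →ₗ[ℂ] M)
    (hj : ∀ x p, gx x • j p = j (rhoFun (n + 1) x p)) (f : Fin 4 → NU n) :
    epsG n j (D1 (RU n) f) = 0 := by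
  show epsG n j (RU n 0 (f 0) + RU n 1 (f 1) + RU n 2 (f 2) + RU n 3 (f 3)) = 0
  simp only [map_add, epsG_RU n j hj, add_zero]

end eps

/-- identification `(Fin (n+1) → ℂ) = Y_{n+1}` -/
noncomputable def jY (n : ℕ) : (Fin (n + 1) → ℂ) →ₗ[ℂ] YM (n + 1) :=
  (LinearMap.id : (Fin (n + 1) → ℂ) →ₗ[ℂ] (Fin (n + 1) → ℂ))

theorem jY_gx (n : ℕ) (x : Fin 4) (p : Fin (n + 1) → ℂ) :
    gx x • jY n p = jY n (rhoFun (n + 1) x p) := YM_gx_smul (n + 1) x p

/-- augmentation `NS → Y_{n+1}` -/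
noncomputable def epsS (n : ℕ) : NS n →+ (Fin (n + 1) → ℂ) where
  toFun f := epsG n (jY n) (fun s => phi (f s))
  map_zero' := by
    have : (fun s : Fin (n + 1) => phi ((0 : NS n) s)) = 0 := by ext1 s; simp
    rw [this, map_zero]; rfl
  map_add' f g := by
    have : (fun s : Fin (n + 1) => phi ((f + g) s)) = (fun s => phi (f s)) + fun s => phi (g s) := by
      ext1 s; simp
    rw [this, map_add]; rfl

theorem phi_RS (n : ℕ) (x : Fin 4) (f : NS n) :
    (fun s => phi (RS n x f s)) = RU n x (fun s => phi (f s)) := by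
  ext1 s
  rw [Rt_apply, Rt_apply, map_sub, phi_R, rhoFun_map, rmulU_apply]

theorem epsS_RS (n : ℕ) (x : Fin 4) (f : NS n) : epsS n (RS n x f) = 0 := by
  show epsG n (jY n) (fun s => phi (RS n x f s)) = 0
  rw [phi_RS]
  exact epsG_RU n (jY n) (jY_gx n) x _

theorem epsS_D1 (n : ℕ) (f : Fin 4 → NS n) : epsS n (D1 (RS n) f) = 0 := by
  show epsS n (RS n 0 (f 0) + RS n 1 (f 1) + RS n 2 (f 2) + RS n 3 (f 3)) = 0
  simp only [map_add, epsS_RS, add_zero]

theorem epsS_C (n : ℕ) (c : Fin (n + 1) → ℂ) : epsS n (fun s => C (c s)) = c := by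
  have h1 : (fun s => phi (C (c s))) = fun s => c s • (1 : UU) := by
    ext1 s
    have : (C (c s) : S) = c s • (1 : S) := by rw [MvPolynomial.smul_eq_C_mul, mul_one]
    rw [this, map_smul, phi_one]
  show (∑ s, phi (C (c s)) • jY n (Pi.single s (1 : ℂ))) = c
  have h2 : ∀ s, phi (C (c s)) • jY n (Pi.single s (1 : ℂ)) = jY n (Pi.single s (c s)) := by
    intro s
    have h3 := congrFun h1 s
    rw [h3, smul_assoc, one_smul, ← map_smul]
    congr 1
    ext s'
    simp [Pi.single_apply]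
  rw [Finset.sum_congr rfl fun s _ => h2 s, ← map_sum, Finset.univ_sum_single]
  rfl

theorem epsS_Lop (n : ℕ) (x : Fin 4) (f : NS n) :
    epsS n (fun s => Lop x (f s)) = rhoFun (n + 1) x (epsS n f) := by
  show epsG n (jY n) (fun s => phi (Lop x (f s))) = _
  have h1 : (fun s => phi (Lop x (f s))) = gx x • (fun s => phi (f s)) := by
    ext1 s
    rw [phi_L]; rfl
  rw [h1, map_smul]
  exact YM_gx_smul (n + 1) x _

/-- first and second components -/
noncomputable def pf {n : ℕ} (k : Fin 2) (f : NP n) : NS n := fun s => f (k, s)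

theorem pf_D1 (n : ℕ) (k : Fin 2) (f : Fin 4 → NP n) :
    pf k (D1 (RP n) f) = D1 (RS n) (fun t => pf k (f t)) := rfl

theorem pf_TP0 (n : ℕ) (f : NP n) : pf 0 (TP n f) =
    -((fun s => Lop 3 (pf 0 f s)) + pf 0 f) + (fun s => Lop 1 (pf 1 f s)) := by
  ext1 s
  exact TP_fst n f s
theorem pf_TP1 (n : ℕ) (f : NP n) : pf 1 (TP n f) =
    (fun s => Lop 2 (pf 0 f s)) - ((fun s => Lop 0 (pf 1 f s)) + pf 1 f) := by
  ext1 s
  exact TP_snd n f s

/-- `z(p)` on the level of pairs -/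
noncomputable def zP {n : ℕ} (u v : Fin (n + 1) → ℂ) : Fin 4 → NP n :=
  ![fun ks => C (![0, -v] ks.1 ks.2), fun ks => C (![v, 0] ks.1 ks.2),
    fun ks => C (![0, u] ks.1 ks.2), fun ks => C (![-u, 0] ks.1 ks.2)]

theorem zP_mem {n : ℕ} (u v : Fin (n + 1) → ℂ) {m : ℤ} (hm : 0 ≤ m) (t : Fin 4) :
    zP u v t ∈ SF _ m := by
  intro ks
  fin_cases t <;> exact C_mem_Sle _ hm

theorem Rop_C (x : Fin 4) (c : ℂ) : Rop x (C c) = X x * C c := by
  fin_cases x
  · rfl
  · show Rb (C c) = _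
    rw [Rb_apply]; simp [sig]
  · show Rc (C c) = _
    rw [Rc_apply]; simp [sig']
  · rfl

theorem RS_C (n : ℕ) (x : Fin 4) (u : Fin (n + 1) → ℂ) (s : Fin (n + 1)) :
    RS n x (fun s => C (u s)) s = X x * C (u s) - C (rhoFun (n + 1) x u s) := by
  rw [Rt_apply, Rop_C]
  congr 1
  exact (rhoFun_map (n + 1) (Algebra.linearMap ℂ S) x u s).symm

theorem D1_zP0 (n : ℕ) (u v : Fin (n + 1) → ℂ) :
    D1 (RP n) (zP u v) = TP n (fun ks => C (![u, v] ks.1 ks.2)) -
      (fun ks => C (![-(rhoFun (n + 1) 3 u + u) + rhoFun (n + 1) 1 v,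
        rhoFun (n + 1) 2 u - (rhoFun (n + 1) 0 v + v)] ks.1 ks.2)) := by
  have h0 : ∀ x s, RS n x (fun _ => (C 0 : S)) s = 0 := by
    intro x s
    have := RS_C n x 0 s
    simp only [Pi.zero_apply] at this
    rw [this, rhoFun_zero]; simp
  ext1 ks
  induction ks using fin2_cases with
  | h0 s =>
    rw [Pi.sub_apply, TP_fst]
    show RS n 0 (fun _ => C 0) s + RS n 1 (fun s => C (v s)) s + RS n 2 (fun _ => C 0) s
      + RS n 3 (fun s => C (-u s)) s = T1 (C (u s)) (C (v s)) -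
        C (-(rhoFun (n + 1) 3 u s + u s) + rhoFun (n + 1) 1 v s)
    have h3 := RS_C n 3 (-u) s
    simp only [Pi.neg_apply] at h3
    rw [h0, h0, RS_C, h3, rhoFun_neg]
    simp only [T1, Ld_apply, Lb_apply, pderiv_C, map_add, map_neg, Pi.neg_apply]
    simp
    ring
  | h1 s =>
    rw [Pi.sub_apply, TP_snd]
    show RS n 0 (fun s => C (-v s)) s + RS n 1 (fun _ => C 0) s + RS n 2 (fun s => C (u s)) s
      + RS n 3 (fun _ => C 0) s = T2 (C (u s)) (C (v s)) -
        C (rhoFun (n + 1) 2 u s - (rhoFun (n + 1) 0 v s + v s))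
    have h3 := RS_C n 0 (-v) s
    simp only [Pi.neg_apply] at h3
    rw [h0, h0, h3, RS_C, rhoFun_neg]
    simp only [T2, Lc_apply, La_apply, pderiv_C, map_add, map_sub, map_neg, Pi.neg_apply]
    simp
    ring

/-- first homology of the quotient -/
theorem Q1 (n : ℕ) (m : ℤ) (f : Fin 4 → NP n) (hf : ∀ t, f t ∈ SF _ m) (w : NP n)
    (h : D1 (RP n) f = TP n w) :
    ∃ (p : Fin n → ℂ) (v : Fin 4 → NP n) (g : Fin 6 → NP n), (∀ t, v t ∈ SF _ (m - 1)) ∧
      (∀ t, g t ∈ SF _ (m - 1)) ∧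
      f = zP (upU p) (upV p) + (fun t => TP n (v t)) + D2 (RP n) g := by
  by_cases hm : m < 0
  · refine ⟨0, 0, 0, fun t => zero_mem _, fun t => zero_mem _, ?_⟩
    have hf0 : f = 0 := by
      ext1 t; ext1 ks
      exact eq_zero_of_mem_Sle hm (hf t ks)
    have hz : zP (upU (0 : Fin n → ℂ)) (upV (0 : Fin n → ℂ)) = 0 := by
      have hu : upU (0 : Fin n → ℂ) = 0 := by
        ext s
        refine Fin.lastCases ?_ (fun i => ?_) s <;> simp [upU]
      have hv : upV (0 : Fin n → ℂ) = 0 := by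
        ext s
        refine Fin.cases ?_ (fun i => ?_) s <;> simp [upV]
      rw [hu, hv]
      ext1 t; ext1 ks
      obtain ⟨k, s⟩ := ks
      fin_cases t <;> fin_cases k <;> simp [zP]
    rw [hf0, hz]
    have : (fun t : Fin 4 => TP n ((0 : Fin 4 → NP n) t)) = 0 := by ext1 t; simp
    rw [this]; simp
  push Not at hm
  have hw : w ∈ SF _ m := by
    have h1 : TP n w ∈ SF _ (m + 1) := by
      have := D1_memW (RP n) (SF _ m) (SF _ (m + 1)) (fun x f hf => RP_mem n x f hf) f hf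
      rw [h] at this; exact this
    have := TP_strict n h1
    simpa using this
  obtain ⟨c, v, hv, hwv⟩ := lemA0 (RP n) (RP_deg n) m w hw
  -- `T̄ c = 0`
  set u : Fin (n + 1) → ℂ := fun s => c (0, s) with hu
  set u' : Fin (n + 1) → ℂ := fun s => c (1, s) with hu'
  have hc : ∀ k : Fin 2, epsS n (pf k w) = fun s => c (k, s) := by
    intro k
    have : pf k w = (fun s => C (c (k, s))) + D1 (RS n) (fun t => pf k (v t)) := by
      conv_lhs => rw [hwv]
      rfl
    rw [this, map_add, epsS_D1, epsS_C, add_zero]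
  have e0 : epsS n (pf 0 (TP n w)) = 0 := by rw [← h, pf_D1, epsS_D1]
  have e1 : epsS n (pf 1 (TP n w)) = 0 := by rw [← h, pf_D1, epsS_D1]
  rw [pf_TP0, map_add, map_neg, map_add, epsS_Lop, epsS_Lop, hc, hc] at e0
  rw [pf_TP1, map_sub, map_add, epsS_Lop, epsS_Lop, hc, hc] at e1
  obtain ⟨p, hp1, hp2⟩ := (Tbar_eq_zero_iff n u u').mp ⟨e0, e1⟩
  have hcc : (fun ks => C (c ks) : NP n) = fun ks => C (![upU p, upV p] ks.1 ks.2) := by
    ext1 ks
    induction ks using fin2_cases with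
    | h0 s => show (C (u s) : S) = C (upU p s); rw [hp1]
    | h1 s => show (C (u' s) : S) = C (upV p s); rw [hp2]
  have hz := D1_zP0 n (upU p) (upV p)
  obtain ⟨ht1, ht2⟩ := (Tbar_eq_zero_iff n (upU p) (upV p)).mpr ⟨p, rfl, rfl⟩
  have hz' : (fun ks => C (![-(rhoFun (n + 1) 3 (upU p) + upU p) + rhoFun (n + 1) 1 (upV p),
        rhoFun (n + 1) 2 (upU p) - (rhoFun (n + 1) 0 (upV p) + upV p)] ks.1 ks.2) : NP n) = 0 := by
    rw [ht1, ht2]
    ext1 ks
    obtain ⟨k, s⟩ := ks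
    fin_cases k <;> simp
  rw [hz', sub_zero, ← hcc] at hz
  have h3 : D1 (RP n) (f - zP (upU p) (upV p) - fun t => TP n (v t)) = 0 := by
    rw [map_sub, map_sub, h, hz]
    conv_lhs => rw [hwv]
    have := D1_nat (RP n) (RP n) (TP n) (TP_RP n) v
    rw [map_add, this]
    abel
  obtain ⟨g, hg, hfg⟩ := lemA1 (RP n) (RP_deg n) (isOp_RP n) m _
    (fun t => sub_mem (sub_mem (hf t) (zP_mem _ _ hm t)) (by simpa using TP_mem n (hv t))) h3
  refine ⟨p, v, g, hv, hg, ?_⟩
  rw [← hfg]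
  ext1 t
  show f t = zP (upU p) (upV p) t + TP n (v t) + (f t - zP (upU p) (upV p) t - TP n (v t))
  abel

theorem Q1_inj (n : ℕ) (p : Fin n → ℂ) (v : Fin 4 → NP n) (g : Fin 6 → NP n)
    (h : zP (upU p) (upV p) = (fun t => TP n (v t)) + D2 (RP n) g) : p = 0 := by
  have hz := D1_zP0 n (upU p) (upV p)
  obtain ⟨ht1, ht2⟩ := (Tbar_eq_zero_iff n (upU p) (upV p)).mpr ⟨p, rfl, rfl⟩
  have hz' : (fun ks => C (![-(rhoFun (n + 1) 3 (upU p) + upU p) + rhoFun (n + 1) 1 (upV p),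
        rhoFun (n + 1) 2 (upU p) - (rhoFun (n + 1) 0 (upV p) + upV p)] ks.1 ks.2) : NP n) = 0 := by
    rw [ht1, ht2]
    ext1 ks
    obtain ⟨k, s⟩ := ks
    fin_cases k <;> simp
  rw [hz', sub_zero, h, map_add, D1_D2 _ (isOp_RP n), add_zero,
    ← D1_nat (RP n) (RP n) (TP n) (TP_RP n) v] at hz
  have h1 : D1 (RP n) v - (fun ks => C (![upU p, upV p] ks.1 ks.2)) = 0 := by
    apply TP_inj n
    rw [map_sub, hz, sub_self]
  have h2 : (fun s => C (upU p s) : NS n) = D1 (RS n) (fun t => pf 0 (v t)) := by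
    rw [← pf_D1, sub_eq_zero.mp h1]
    rfl
  have h3 : epsS n (fun s => C (upU p s)) = 0 := by rw [h2, epsS_D1]
  rw [epsS_C] at h3
  apply upU_injective
  rw [h3]
  ext s
  refine Fin.lastCases ?_ (fun i => ?_) s <;> simp [upU]

end Crest.Agent.FD
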