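import Crest.Agent.FD.Defs

/-! # S0268 module A: the degree filtration of `S` -/

set_option autoImplicit false

namespace Crest.Agent.FD

open MvPolynomial

theorem mem_Sle_iff {m : ℤ} {p : S} : p ∈ Sle m ↔ p = 0 ∨ (p.totalDegree : ℤ) ≤ m := by
  rw [mem_Sle]
  constructor
  · intro h
    by_cases hp : p = 0
    · exact Or.inl hp
    · right
      obtain ⟨d, hd⟩ := (MvPolynomial.support_nonempty (p := p)).2 hp
      have hm : 0 ≤ m := le_trans (Int.natCast_nonneg _) (h d hd)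
      have h2 : p.totalDegree ≤ m.toNat := by
        refine Finset.sup_le fun e he => ?_
        have := h e he
        omega
      omega
  · rintro (h | h) d hd
    · rw [h] at hd
      simp at hd
    · have := MvPolynomial.le_totalDegree hd
      omega

theorem Sle_mono {m k : ℤ} (h : m ≤ k) : Sle m ≤ Sle k := by
  intro p hp
  rw [mem_Sle] at hp ⊢
  exact fun d hd => (hp d hd).trans h

theorem eq_zero_of_mem_Sle {m : ℤ} (h : m < 0) {p : S} (hp : p ∈ Sle m) : p = 0 := by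
  rcases mem_Sle_iff.1 hp with h1 | h1
  · exact h1
  · omega

theorem exists_mem_Sle (p : S) : ∃ m : ℤ, 0 ≤ m ∧ p ∈ Sle m :=
  ⟨p.totalDegree, Int.natCast_nonneg _, mem_Sle_iff.2 (Or.inr le_rfl)⟩

theorem mul_mem_Sle {m k : ℤ} {p q : S} (hp : p ∈ Sle m) (hq : q ∈ Sle k) :
    p * q ∈ Sle (m + k) := by
  rcases mem_Sle_iff.1 hp with h1 | h1
  · rw [h1, zero_mul]; exact zero_mem _
  rcases mem_Sle_iff.1 hq with h2 | h2
  · rw [h2, mul_zero]; exact zero_mem _
  refine mem_Sle_iff.2 (Or.inr ?_)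
  have := MvPolynomial.totalDegree_mul p q
  omega

theorem X_mem_Sle (x : Fin 4) : (X x : S) ∈ Sle 1 := by
  refine mem_Sle_iff.2 (Or.inr ?_)
  rw [MvPolynomial.totalDegree_X]
  rfl

theorem C_mem_Sle (c : ℂ) {m : ℤ} (hm : 0 ≤ m) : (C c : S) ∈ Sle m := by
  refine mem_Sle_iff.2 (Or.inr ?_)
  rw [MvPolynomial.totalDegree_C]
  exact_mod_cast hm

theorem one_mem_Sle {m : ℤ} (hm : 0 ≤ m) : (1 : S) ∈ Sle m := by
  have := C_mem_Sle 1 hm
  rwa [C_1] at this

theorem exists_C_of_mem_Sle_zero {p : S} (hp : p ∈ Sle 0) : ∃ c : ℂ, p = C c := by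
  rcases mem_Sle_iff.1 hp with h1 | h1
  · exact ⟨0, by rw [h1, C_0]⟩
  · have h2 : p.totalDegree = 0 := by omega
    exact ⟨_, (MvPolynomial.totalDegree_eq_zero_iff_eq_C).1 h2⟩

/-- a useful induction principle: `Sle m` is spanned by monomials of degree `≤ m` -/
theorem Sle_induction {m : ℤ} {P : S → Prop} (h0 : P 0) (hadd : ∀ p q, P p → P q → P (p + q))
    (hmon : ∀ (d : Fin 4 →₀ ℕ) (c : ℂ), ((d.sum fun _ e => e : ℕ) : ℤ) ≤ m → P (monomial d c))
    {p : S} (hp : p ∈ Sle m) : P p := by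
  rw [← MvPolynomial.support_sum_monomial_coeff p]
  exact Finset.sum_induction _ P hadd h0 fun d hd => hmon d _ (mem_Sle.1 hp d hd)

private theorem sum_eq (d : Fin 4 →₀ ℕ) : (d.sum fun _ e => e) = d 0 + d 1 + d 2 + d 3 := by
  rw [Finsupp.sum_fintype _ _ (fun _ => rfl), Fin.sum_univ_four]

private theorem monomial_mem {m : ℤ} (d : Fin 4 →₀ ℕ) (c : ℂ)
    (h : ((d.sum fun _ e => e : ℕ) : ℤ) ≤ m) : (monomial d c : S) ∈ Sle m := by
  rw [mem_Sle]
  intro e he
  have := MvPolynomial.support_monomial_subset he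
  rw [Finset.mem_singleton] at this
  rw [this]
  exact h

theorem pderiv_mem_Sle {m : ℤ} {p : S} (hp : p ∈ Sle m) (x : Fin 4) : pderiv x p ∈ Sle (m - 1) := by
  refine Sle_induction (m := m) (P := fun p => pderiv x p ∈ Sle (m - 1)) ?_ ?_ ?_ hp
  · rw [map_zero]; exact zero_mem _
  · intro p q hp hq
    rw [map_add]
    exact add_mem hp hq
  · intro d c hd
    rw [pderiv_monomial]
    by_cases h : d x = 0
    · rw [h, Nat.cast_zero, mul_zero, monomial_zero]
      exact zero_mem _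
    · refine monomial_mem _ _ ?_
      rw [sum_eq] at hd ⊢
      fin_cases x <;> simp at h ⊢ <;> omega

/-- pairs of elements of `Sle k` that agree modulo `Sle (k - 1)` -/
private def Rk (k : ℤ) (a b : S) : Prop := a ∈ Sle k ∧ b ∈ Sle k ∧ a - b ∈ Sle (k - 1)

private theorem Rk_mul {k l : ℤ} {a b c d : S} (h : Rk k a b) (h' : Rk l c d) :
    Rk (k + l) (a * c) (b * d) := by
  refine ⟨mul_mem_Sle h.1 h'.1, mul_mem_Sle h.2.1 h'.2.1, ?_⟩
  have e : a * c - b * d = (a - b) * c + b * (c - d) := by ring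
  rw [e]
  have h1 := mul_mem_Sle h.2.2 h'.1
  have h2 := mul_mem_Sle h.2.1 h'.2.2
  have e1 : k - 1 + l = k + l - 1 := by ring
  have e2 : k + (l - 1) = k + l - 1 := by ring
  rw [e1] at h1
  rw [e2] at h2
  exact add_mem h1 h2

private theorem Rk_C (c : ℂ) : Rk 0 (C c) (C c) :=
  ⟨C_mem_Sle c le_rfl, C_mem_Sle c le_rfl, by rw [sub_self]; exact Submodule.zero_mem _⟩

private theorem Rk_pow {a b : S} (h : Rk 1 a b) (n : ℕ) : Rk n (a ^ n) (b ^ n) := by
  induction n with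
  | zero => simpa using Rk_C 1
  | succ n ih =>
    rw [pow_succ, pow_succ]
    have := Rk_mul ih h
    simpa using this

private theorem Rk_aeval {f : Fin 4 → S} (hf : ∀ i, Rk 1 (f i) (X i)) (d : Fin 4 →₀ ℕ) (c : ℂ) :
    Rk ((d.sum fun _ e => e : ℕ) : ℤ) (aeval f (monomial d c)) (monomial d c) := by
  have h := Rk_mul (Rk_C c) (Rk_mul (Rk_mul (Rk_mul (Rk_pow (hf 0) (d 0)) (Rk_pow (hf 1) (d 1)))
    (Rk_pow (hf 2) (d 2))) (Rk_pow (hf 3) (d 3)))
  have e1 : (aeval f (monomial d c) : S)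
      = C c * (f 0 ^ d 0 * f 1 ^ d 1 * f 2 ^ d 2 * f 3 ^ d 3) := by
    rw [aeval_monomial, Finsupp.prod_fintype _ _ (fun _ => pow_zero _), Fin.prod_univ_four]
    rfl
  have e2 : (monomial d c : S)
      = C c * (X 0 ^ d 0 * X 1 ^ d 1 * X 2 ^ d 2 * X 3 ^ d 3) := by
    rw [monomial_eq, Finsupp.prod_fintype _ _ (fun _ => pow_zero _), Fin.prod_univ_four]
  have e3 : ((d.sum fun _ e => e : ℕ) : ℤ) = 0 + (((d 0 : ℕ) : ℤ) + (d 1 : ℕ) + (d 2 : ℕ) + (d 3 : ℕ)) := by
    rw [sum_eq]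
    push_cast
    ring
  rw [e1, e3]
  rw [← e2] at h
  exact h

private theorem aeval_mem {f : Fin 4 → S} (hf : ∀ i, Rk 1 (f i) (X i)) {m : ℤ} {p : S}
    (hp : p ∈ Sle m) : aeval f p ∈ Sle m := by
  refine Sle_induction (m := m) (P := fun p => aeval f p ∈ Sle m) ?_ ?_ ?_ hp
  · rw [map_zero]; exact zero_mem _
  · intro p q hp hq
    rw [map_add]
    exact add_mem hp hq
  · intro d c hd
    exact Sle_mono hd (Rk_aeval hf d c).1

private theorem aeval_sub_mem {f : Fin 4 → S} (hf : ∀ i, Rk 1 (f i) (X i)) {m : ℤ} {p : S}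
    (hp : p ∈ Sle m) : aeval f p - p ∈ Sle (m - 1) := by
  refine Sle_induction (m := m) (P := fun p => aeval f p - p ∈ Sle (m - 1)) ?_ ?_ ?_ hp
  · rw [map_zero, sub_zero]; exact zero_mem _
  · intro p q hp hq
    rw [map_add]
    have e : aeval f p + aeval f q - (p + q) = (aeval f p - p) + (aeval f q - q) := by ring
    rw [e]
    exact Submodule.add_mem _ hp hq
  · intro d c hd
    exact Sle_mono (by omega) (Rk_aeval hf d c).2.2

private theorem Rk_X (i : Fin 4) : Rk 1 (X i) (X i) := by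
  refine ⟨X_mem_Sle i, X_mem_Sle i, ?_⟩
  have e : (X i : S) - X i = 0 := sub_self _
  rw [e]
  exact Submodule.zero_mem _

private theorem Rk_X_add (i : Fin 4) (c : ℂ) : Rk 1 (X i + C c) (X i) := by
  refine ⟨add_mem (X_mem_Sle i) (C_mem_Sle c (by norm_num)), X_mem_Sle i, ?_⟩
  rw [add_sub_cancel_left]
  exact C_mem_Sle c (by norm_num)

private theorem Rk_sig (i : Fin 4) :
    Rk 1 ((![X 0 + 1, X 1, X 2, X 3 - 1] : Fin 4 → S) i) (X i) := by
  fin_cases i
  · have := Rk_X_add 0 1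
    rwa [C_1] at this
  · exact Rk_X 1
  · exact Rk_X 2
  · have := Rk_X_add 3 (-1)
    rwa [C_neg, C_1, ← sub_eq_add_neg] at this

private theorem Rk_sig' (i : Fin 4) :
    Rk 1 ((![X 0 - 1, X 1, X 2, X 3 + 1] : Fin 4 → S) i) (X i) := by
  fin_cases i
  · have := Rk_X_add 0 (-1)
    rwa [C_neg, C_1, ← sub_eq_add_neg] at this
  · exact Rk_X 1
  · exact Rk_X 2
  · have := Rk_X_add 3 1
    rwa [C_1] at this

theorem sig_mem_Sle {m : ℤ} {p : S} (hp : p ∈ Sle m) : sig p ∈ Sle m := aeval_mem Rk_sig hp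
theorem sig'_mem_Sle {m : ℤ} {p : S} (hp : p ∈ Sle m) : sig' p ∈ Sle m := aeval_mem Rk_sig' hp

theorem sig_sub_mem_Sle {m : ℤ} {p : S} (hp : p ∈ Sle m) : sig p - p ∈ Sle (m - 1) :=
  aeval_sub_mem Rk_sig hp
theorem sig'_sub_mem_Sle {m : ℤ} {p : S} (hp : p ∈ Sle m) : sig' p - p ∈ Sle (m - 1) :=
  aeval_sub_mem Rk_sig' hp

/-- Each `Sle m` is finite-dimensional. -/
theorem Sle_finite (m : ℤ) : Module.Finite ℂ (Sle m) := by
  by_cases hm : m < 0
  · have h : Sle m = ⊥ := by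
      rw [Submodule.eq_bot_iff]
      intro p hp
      exact eq_zero_of_mem_Sle hm hp
    rw [h]
    infer_instance
  · have h : Sle m = MvPolynomial.restrictTotalDegree (Fin 4) ℂ m.toNat := by
      ext p
      rw [mem_Sle_iff, mem_restrictTotalDegree]
      constructor
      · rintro (h | h)
        · rw [h, totalDegree_zero]; exact Nat.zero_le _
        · omega
      · intro h
        right
        omega
    rw [h]
    infer_instance

end Crest.Agent.FD
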